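import Vale.Agent.P253.R2.H618.Liou
import Vale.Agent.P253.R2.H380.Touch
import Vale.Agent.P253.R2.H156.Glob

/-! P253, module M9 (Liouville), part 6: the Liouville theorem for plurisubharmonic functions of
growth `o(log r)`, with values in `[-∞, ∞)`, in the viscosity form (`NoTouch`) and for continuous
functions. -/

open scoped Manifold ContDiff Topology Bundle
open Set Metric Complex Filter Bundle IsManifold Asymptotics MeasureTheory

set_option maxSynthPendingDepth 3
set_option linter.unusedSectionVars false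

noncomputable section

namespace Vale.Agent.P253.R2.H618

open Vale.Agent.P253.Mfd Vale.Agent.P253.Mfd.LocalKahler

section bar

variable {E : Type*} [NormedAddCommGroup E] [NormedSpace ℂ E] [FiniteDimensional ℂ E]
  {M : Type*} [MetricSpace M] [ChartedSpace E M]
  [IsManifold 𝓘(ℂ, E) 1 M] [IsManifold 𝓘(ℝ, E) ∞ M]

variable (E) in
/-- mean value inequality on affine circles in charts, with continuous majorants -/
def CircMaj (u : M → EReal) : Prop :=
  ∀ e ∈ maximalAtlas 𝓘(ℂ, E) 1 M, ∀ x ∈ e.source, ∀ (Y : E) (r : ℝ),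
    (∀ w : ℂ, ‖w‖ ≤ 1 → e x + r • (w • Y) ∈ e.target) →
    ∀ W : ℂ → ℝ, ContinuousOn W (sphere 0 1) →
    (∀ w ∈ sphere (0:ℂ) 1, u (pt e x Y r w) ≤ ((W w : ℝ) : EReal)) →
    u x ≤ ((Real.circleAverage W 0 1 : ℝ) : EReal)

theorem pt_zero {e : OpenPartialHomeomorph M E} {x : M} (hx : x ∈ e.source) (Y : E) (r : ℝ) :
    pt e x Y r 0 = x := by
  simp [pt, e.left_inv hx]

theorem pt_continuousOn {e : OpenPartialHomeomorph M E} {x : M} {Y : E} {r : ℝ}
    (h : ∀ w : ℂ, ‖w‖ ≤ 1 → e x + r • (w • Y) ∈ e.target) :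
    ContinuousOn (pt e x Y r) (closedBall 0 1) := by
  unfold pt
  refine e.continuousOn_symm.comp (by fun_prop) (fun w hw => h w (by simpa using hw))

theorem pt_mdiff {e : OpenPartialHomeomorph M E} (he : e ∈ maximalAtlas 𝓘(ℂ, E) 1 M)
    {x : M} {Y : E} {r : ℝ} {w : ℂ} (h : e x + r • (w • Y) ∈ e.target) :
    MDifferentiableAt 𝓘(ℂ, ℂ) 𝓘(ℂ, E) (pt e x Y r) w := by
  have h1 : MDifferentiableAt 𝓘(ℂ, E) 𝓘(ℂ, E) e.symm (e x + r • (w • Y)) :=
    ((contMDiffOn_symm_of_mem_maximalAtlas he).contMDiffAt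
      (e.open_target.mem_nhds h)).mdifferentiableAt (by simp)
  have h2 : DifferentiableAt ℂ (fun w : ℂ => e x + r • (w • Y)) w := by
    have : (fun w : ℂ => e x + r • (w • Y)) = fun w : ℂ => e x + (((r : ℂ) * w) • Y) := by
      funext w
      rw [mul_smul, Complex.coe_smul]
    rw [this]
    fun_prop
  exact h1.comp w h2.mdifferentiableAt

/-- the viscosity property implies the mean value inequality -/
theorem circMaj_of_noTouch {u : M → EReal} (hu : UpperSemicontinuous u) (htop : ∀ x, u x ≠ ⊤)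
    (hnt : H156.NoTouch E u) : CircMaj E u := by
  intro e he x hx Y r hr W hW hWu
  by_contra hcon
  push Not at hcon
  obtain ⟨A, hA1, hA2⟩ := EReal.lt_iff_exists_real_btwn.1 hcon
  have hA1' : Real.circleAverage W 0 1 < A := by exact_mod_cast hA1
  obtain ⟨h, hh1, hh2⟩ := H380.exists_poly_majorant one_pos hW hA1'
  have husc : UpperSemicontinuousOn (fun w => u (pt e x Y r w)) (closedBall 0 1) := by
    intro w hw y hy
    exact ((pt_continuousOn hr) w hw).eventually (hu (pt e x Y r w) y hy)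
  have hlt : (((h.eval 0).re : ℝ) : EReal) < u (pt e x Y r 0) := by
    rw [pt_zero hx]
    refine lt_of_lt_of_le ?_ hA2.le
    exact_mod_cast hh2
  obtain ⟨k, ε, z0, hε, hz0, hk1, hk2⟩ := H380.touch_of_majorant husc (fun w _ => htop _) h
    (fun w hw => (hWu w hw).trans (by exact_mod_cast (hh1 w hw).le))
    (w := 0) (mem_ball_self one_pos) hlt
  have hz0' : ‖z0‖ < 1 := by simpa using hz0
  set r' := (1 - ‖z0‖) / 2 with hr'
  have hr'0 : 0 < r' := by rw [hr']; linarith only [hz0']
  have hin : ∀ z ∈ closedBall (0:ℂ) r', ‖z0 + z‖ < 1 := by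
    intro z hz
    have hz' : ‖z‖ ≤ r' := by simpa using hz
    have := norm_add_le z0 z
    rw [hr'] at hz'
    linarith only [this, hz', hz0']
  refine hnt (fun z => pt e x Y r (z0 + z)) (fun z => k.eval (z0 + z) - k.eval z0) ((k.eval z0).re)
    ε r' hε hr'0 (fun z hz => ?_) (fun z hz => ?_) ?_ (by simp) (fun z hz => ?_)
  · have h1 := pt_mdiff he (hr (z0 + z) (hin z hz).le)
    have h2 : DifferentiableAt ℂ (fun z : ℂ => z0 + z) z := by fun_prop
    exact h1.comp z h2.mdifferentiableAt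
  · have h2 : DifferentiableAt ℂ (fun z : ℂ => z0 + z) z := by fun_prop
    exact ((k.differentiable _).comp z h2).sub_const _
  · simpa using hk1
  · have h1 := hk2 (z0 + z) (by simpa using (hin z hz).le)
    refine h1.trans (le_of_eq ?_)
    congr 1
    rw [Complex.sub_re, add_sub_cancel_left]
    ring

/-- a continuous function with the mean value inequality on holomorphic discs -/
theorem circMaj_of_continuous {u : M → ℝ} (hu : Continuous u)
    (hpsh : ∀ (f : ℂ → M) (c : ℂ) (r : ℝ), 0 < r → ContinuousOn f (closedBall c r) →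
      MDifferentiableOn 𝓘(ℂ, ℂ) 𝓘(ℂ, E) f (ball c r) →
      u (f c) ≤ Real.circleAverage (fun z => u (f z)) c r) :
    CircMaj E (fun x => ((u x : ℝ) : EReal)) := by
  intro e he x hx Y r hr W hW hWu
  have hc := pt_continuousOn hr
  have h1 := hpsh (pt e x Y r) 0 1 one_pos hc (fun w hw =>
    (pt_mdiff he (hr w (by
      have : ‖w‖ < 1 := by simpa using hw
      exact this.le))).mdifferentiableWithinAt)
  rw [pt_zero hx] at h1
  have h2 : Real.circleAverage (fun z => u (pt e x Y r z)) 0 1 ≤ Real.circleAverage W 0 1 := by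
    apply Real.circleAverage_mono
    · exact ((hu.comp_continuousOn hc).mono sphere_subset_closedBall).circleIntegrable zero_le_one
    · exact hW.circleIntegrable zero_le_one
    · intro w hw
      rw [abs_one] at hw
      exact EReal.coe_le_coe_iff.1 (hWu w hw)
  exact EReal.coe_le_coe_iff.2 (h1.trans h2)

variable [RiemannianBundle (fun x : M => TangentSpace 𝓘(ℝ, E) x)]
  [IsContMDiffRiemannianBundle 𝓘(ℝ, E) ∞ E (fun x : M => TangentSpace 𝓘(ℝ, E) x)]
  [IsRiemannianManifold 𝓘(ℝ, E) M]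

theorem circleAverage_eq (W : ℂ → ℝ) :
    Real.circleAverage W 0 1 = (2 * Real.pi)⁻¹ * ∫ θ in (0:ℝ)..(2 * Real.pi), W (exp (θ * I)) := by
  rw [Real.circleAverage_def, smul_eq_mul]
  congr 1
  apply intervalIntegral.integral_congr
  intro θ _
  simp [circleMap]

/-- The maximum over the closed unit ball is a global maximum, for functions of growth `o(log r)`
along a sequence of spheres. -/
theorem global_max (hK : IsKahler E M) [ProperSpace M]
    (hnn : ∀ x : M, NonnegBisectionalAt E x) {u : M → EReal} (hu : UpperSemicontinuous u)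
    (htop : ∀ x, u x ≠ ⊤) (hc : CircMaj E u) (p : M)
    (hgr : ∀ ε > 0, ∀ R₀ : ℝ, ∃ R > R₀, ∀ x, dist x p = R →
      u x ≤ ((ε * Real.log R : ℝ) : EReal)) : ∃ a : M, ∀ y, u y ≤ u a := by
  obtain ⟨a, ha, hmax⟩ := UpperSemicontinuousOn.exists_isMaxOn
    (s := closedBall p 1) ⟨p, mem_closedBall_self zero_le_one⟩ (isCompact_closedBall p 1)
    (hu.upperSemicontinuousOn _)
  refine ⟨a, fun y => ?_⟩
  by_contra hcon
  push Not at hcon
  have hyd : 1 < dist y p := by
    by_contra h
    push Not at h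
    exact absurd (hmax (show y ∈ closedBall p 1 from h)) (not_le.2 hcon)
  have hybot : u y ≠ ⊥ := hcon.ne_bot
  obtain ⟨uy, huy⟩ : ∃ t : ℝ, u y = (t : EReal) := ⟨(u y).toReal, (EReal.coe_toReal (htop y) hybot).symm⟩
  rw [huy] at hcon
  obtain ⟨b, hb1, hb2⟩ := EReal.lt_iff_exists_real_btwn.1 hcon
  have hb2' : b < uy := by exact_mod_cast hb2
  have hgy : 0 ≤ gb (dist y p ^ 2) - gb 1 := by
    have := gb_mono one_pos (show (1:ℝ) ≤ dist y p ^ 2 by nlinarith only [hyd])
    linarith only [this]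
  set P := gb (dist y p ^ 2) - gb 1 with hP
  set ε := (uy - b) / (2 * (P + 1)) with hεdef
  have hε : 0 < ε := by
    have : 0 < uy - b := by linarith only [hb2']
    positivity
  have hεP : ε * P < uy - b := by
    have h0 : 0 < uy - b := by linarith only [hb2']
    rw [hεdef, div_mul_eq_mul_div, div_lt_iff₀ (by positivity)]
    nlinarith only [h0, hgy]
  set v : M → EReal := fun z => u z + ((-(ε * (gb (dist z p ^ 2) - gb 1)) : ℝ) : EReal) with hv
  set vy : ℝ := uy - ε * P with hvy
  have hvyeq : v y = (vy : EReal) := by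
    simp only [hv, huy]
    rw [← EReal.coe_add, hvy]
    congr 1
  have hbv : b < vy := by rw [hvy]; linarith only [hεP]
  -- choose R
  obtain ⟨R, hR1, hR2⟩ : ∃ R : ℝ, dist y p < R ∧ ∀ z, dist z p = R → v z < (vy : EReal) := by
    have h1 : Tendsto (fun R : ℝ => ε * Real.log R) atTop atTop :=
      Tendsto.const_mul_atTop hε Real.tendsto_log_atTop
    obtain ⟨R₀, h2⟩ := eventually_atTop.1 ((h1.eventually (eventually_gt_atTop (2 * ε - vy))).and
      (eventually_gt_atTop (dist y p)))
    obtain ⟨R, hR, hRu⟩ := hgr ε hε R₀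
    obtain ⟨h3, h4⟩ := h2 R hR.le
    refine ⟨R, h4, fun z hz => ?_⟩
    have hR1 : 1 < R := hyd.trans h4
    have h5 : v z ≤ ((ε * Real.log R : ℝ) : EReal)
        + ((-(ε * (gb (R ^ 2) - gb 1)) : ℝ) : EReal) := by
      simp only [hv, hz]
      gcongr
      exact hRu z hz
    refine lt_of_le_of_lt h5 ?_
    rw [← EReal.coe_add]
    refine EReal.coe_lt_coe_iff.2 ?_
    have h6 : gb (R ^ 2) - gb 1 = 2 * Real.log R + (1 - 1 / R ^ 2) := by
      unfold gb
      rw [Real.log_pow, Real.log_one]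
      push_cast
      ring
    rw [h6]
    have h7 : 0 ≤ 1 / R ^ 2 ∧ 1 / R ^ 2 ≤ 1 := by
      constructor
      · positivity
      · rw [div_le_one (by positivity)]
        nlinarith only [hR1]
    nlinarith only [h3, h7.1, h7.2, hε]
  have hR1' : 1 < R := hyd.trans hR1
  set K : Set M := {z | 1 ≤ dist z p ∧ dist z p ≤ R} with hKdef
  have hdc : Continuous (fun z : M => dist z p) := by fun_prop
  have hKc : IsCompact K := by
    refine (isCompact_closedBall p R).of_isClosed_subset ?_ (fun z hz => hz.2)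
    exact (isClosed_le continuous_const hdc).inter (isClosed_le hdc continuous_const)
  have hpen : ContinuousOn (fun z : M => ((-(ε * (gb (dist z p ^ 2) - gb 1)) : ℝ) : EReal)) K := by
    intro z hz
    have h1 : dist z p ^ 2 ≠ 0 := by
      have : 0 < dist z p := lt_of_lt_of_le one_pos hz.1
      positivity
    have h2 : ContinuousAt (fun z : M => gb (dist z p ^ 2)) z :=
      (continuousAt_gb h1).comp (f := fun z : M => dist z p ^ 2) (by fun_prop)
    exact (continuous_coe_real_ereal.continuousAt.comp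
      ((h2.sub continuousAt_const).const_mul ε).neg).continuousWithinAt
  have hvu : UpperSemicontinuousOn v K := by
    refine UpperSemicontinuousOn.add' (hu.upperSemicontinuousOn K) hpen.upperSemicontinuousOn ?_
    intro z _
    exact EReal.continuousAt_add (Or.inr (EReal.coe_ne_bot _)) (Or.inr (EReal.coe_ne_top _))
  obtain ⟨x₀, hx₀K, hx₀max⟩ := UpperSemicontinuousOn.exists_isMaxOn (s := K)
    ⟨y, hyd.le, hR1.le⟩ hKc hvu
  have hv0 : (vy : EReal) ≤ v x₀ := hvyeq ▸ hx₀max (show y ∈ K from ⟨hyd.le, hR1.le⟩)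
  have hx1 : 1 < dist x₀ p := by
    rcases hx₀K.1.lt_or_eq with h | h
    · exact h
    · exfalso
      have h1 : v x₀ = u x₀ := by
        simp only [hv]
        rw [← h]
        simp
      have h2 : u x₀ ≤ u a := hmax (show x₀ ∈ closedBall p 1 from h.symm.le)
      have h3 : (vy : EReal) < b := (hv0.trans (h1 ▸ h2)).trans_lt hb1
      have h4 : vy < b := by exact_mod_cast h3
      exact absurd h4 (not_lt.2 hbv.le)
  have hx2 : dist x₀ p < R := by
    rcases hx₀K.2.lt_or_eq with h | h
    · exact h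
    · exact absurd (hR2 x₀ h) (not_lt.2 hv0)
  have hKn : K ∈ 𝓝 x₀ := by
    have : {z : M | 1 < dist z p ∧ dist z p < R} ∈ 𝓝 x₀ :=
      ((isOpen_lt continuous_const hdc).inter (isOpen_lt hdc continuous_const)).mem_nhds
        ⟨hx1, hx2⟩
    exact mem_of_superset this (fun z hz => ⟨hz.1.le, hz.2.le⟩)
  have hne : x₀ ≠ p := by
    rw [← dist_pos]; linarith only [hx1]
  set e := chartAt E x₀ with he'
  have he : e ∈ maximalAtlas 𝓘(ℂ, E) 1 M := chart_mem_maximalAtlas x₀
  have hxe : x₀ ∈ e.source := mem_chart_source E x₀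
  obtain ⟨Y, hY⟩ := barrier_avg hK hnn he hxe hne
  obtain ⟨r, hr1, hr3⟩ := (hY.and_eventually (circ_small hxe Y hKn)).exists
  -- u x₀ is real
  have hx₀bot : u x₀ ≠ ⊥ := by
    intro h
    have h1 : v x₀ = ⊥ := by simp only [hv]; rw [h, EReal.bot_add]
    rw [h1] at hv0
    exact absurd hv0 (not_le.2 (EReal.bot_lt_coe _))
  obtain ⟨ux, hux⟩ : ∃ t : ℝ, u x₀ = (t : EReal) :=
    ⟨(u x₀).toReal, (EReal.coe_toReal (htop x₀) hx₀bot).symm⟩
  set W : ℂ → ℝ := fun w => ux + ε * (gb (dist (pt e x₀ Y r w) p ^ 2) - gb (dist x₀ p ^ 2)) with hW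
  have hWle : ∀ w ∈ sphere (0:ℂ) 1, u (pt e x₀ Y r w) ≤ ((W w : ℝ) : EReal) := by
    intro w hw
    have hw1 : ‖w‖ ≤ 1 := by
      have : ‖w‖ = 1 := by simpa using hw
      exact this.le
    set z := pt e x₀ Y r w with hz
    have hzK : z ∈ K := (hr3 w hw1).2
    by_cases hzb : u z = ⊥
    · rw [hzb]; exact bot_le
    have h1 : v z ≤ v x₀ := hx₀max hzK
    simp only [hv] at h1
    obtain ⟨uz, huz⟩ : ∃ t : ℝ, u z = (t : EReal) := ⟨(u z).toReal, (EReal.coe_toReal (htop z) hzb).symm⟩
    rw [hux, huz, ← EReal.coe_add, ← EReal.coe_add, EReal.coe_le_coe_iff] at h1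
    rw [huz, EReal.coe_le_coe_iff]
    simp only [hW]
    rw [← hz]
    linarith only [h1]
  have hWc : ContinuousOn W (sphere 0 1) := by
    intro w hw
    have hw1 : ‖w‖ ≤ 1 := by
      have : ‖w‖ = 1 := by simpa using hw
      exact this.le
    have h1 : ContinuousWithinAt (pt e x₀ Y r) (sphere 0 1) w :=
      ((pt_continuousOn (fun w hw => (hr3 w hw).1)) w (by simpa using hw1)).mono
        sphere_subset_closedBall
    have h3 : dist (pt e x₀ Y r w) p ^ 2 ≠ 0 := by
      have := (hr3 w hw1).2.1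
      have h4 : 0 < dist (pt e x₀ Y r w) p := lt_of_lt_of_le one_pos this
      positivity
    have h2 : ContinuousWithinAt (fun w => dist (pt e x₀ Y r w) p ^ 2) (sphere 0 1) w :=
      (h1.dist continuousWithinAt_const).pow 2
    have h5 : ContinuousWithinAt (fun w => gb (dist (pt e x₀ Y r w) p ^ 2)) (sphere 0 1) w :=
      (continuousAt_gb h3).comp_continuousWithinAt
        (f := fun w => dist (pt e x₀ Y r w) p ^ 2) h2
    exact continuousWithinAt_const.add (continuousWithinAt_const.mul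
      (h5.sub continuousWithinAt_const))
  have hkey := hc e he x₀ hxe Y r (fun w hw => (hr3 w hw).1) W hWc hWle
  rw [hux, EReal.coe_le_coe_iff, circleAverage_eq] at hkey
  have hWcirc : Continuous (fun θ : ℝ => gb (dist (pt e x₀ Y r (exp (θ * I))) p ^ 2)) := by
    have h1 := circ_cont (e := e) (x := x₀) (Y := Y) (r := r) (fun w hw => (hr3 w hw).1)
    have h2 : Continuous (fun θ : ℝ => dist (pt e x₀ Y r (exp (θ * I))) p ^ 2) := by fun_prop
    rw [continuous_iff_continuousAt]
    intro θ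
    have h3 : dist (pt e x₀ Y r (exp (θ * I))) p ^ 2 ≠ 0 := by
      have := (hr3 _ (norm_exp_I θ).le).2.1
      have h4 : 0 < dist (pt e x₀ Y r (exp (θ * I))) p := lt_of_lt_of_le one_pos this
      positivity
    exact (continuousAt_gb h3).comp (f := fun θ : ℝ => dist (pt e x₀ Y r (exp (θ * I))) p ^ 2)
      h2.continuousAt
  have hint : ∫ θ in (0:ℝ)..(2 * Real.pi), W (exp (θ * I)) = 2 * Real.pi * (ux - ε * gb (dist x₀ p ^ 2))
      + ε * ∫ θ in (0:ℝ)..(2 * Real.pi), gb (dist (pt e x₀ Y r (exp (θ * I))) p ^ 2) := by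
    have e1 : ∀ θ : ℝ, W (exp (θ * I)) = (ux - ε * gb (dist x₀ p ^ 2))
        + ε * gb (dist (pt e x₀ Y r (exp (θ * I))) p ^ 2) := by
      intro θ; simp only [hW]; ring
    simp only [e1]
    rw [intervalIntegral.integral_add (by simp) ((hWcirc.const_mul ε).intervalIntegrable _ _),
      intervalIntegral.integral_const_mul, intervalIntegral.integral_const, sub_zero,
      smul_eq_mul]
  rw [hint] at hkey
  have h3 := mul_lt_mul_of_pos_left hr1 hε
  have h4 : (2 * Real.pi)⁻¹ * (2 * Real.pi * (ux - ε * gb (dist x₀ p ^ 2))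
      + ε * ∫ θ in (0:ℝ)..(2 * Real.pi), gb (dist (pt e x₀ Y r (exp (θ * I))) p ^ 2)) < ux := by
    rw [inv_mul_lt_iff₀ (by positivity)]
    linarith only [h3]
  exact absurd hkey (not_le.2 h4)

/-- propagation of a maximum -/
theorem max_propagate {e : OpenPartialHomeomorph M E} (he : e ∈ maximalAtlas 𝓘(ℂ, E) 1 M)
    {u : M → EReal} (hu : UpperSemicontinuous u) (hc : CircMaj E u) {x : M} (hx : x ∈ e.source)
    {m : ℝ} (hm : u x = (m : EReal)) (hmax : ∀ y, u y ≤ (m : EReal)) {Y : E} {r : ℝ}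
    (hr : ∀ w : ℂ, ‖w‖ ≤ 1 → e x + r • (w • Y) ∈ e.target) : (m : EReal) ≤ u (pt e x Y r 1) := by
  by_contra hcon
  push Not at hcon
  obtain ⟨m', hm1, hm2⟩ := EReal.lt_iff_exists_real_btwn.1 hcon
  have hm2' : m' < m := by exact_mod_cast hm2
  have hcw : ContinuousWithinAt (pt e x Y r) (closedBall 0 1) 1 :=
    pt_continuousOn hr 1 (by simp)
  have hev : ∀ᶠ w in 𝓝[closedBall (0:ℂ) 1] 1, u (pt e x Y r w) < m' :=
    hcw.eventually (hu (pt e x Y r 1) m' hm1)
  obtain ⟨δ, hδ, hball⟩ := Metric.mem_nhdsWithin_iff.1 hev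
  set ψ : ℂ → ℝ := fun w => max 0 (1 - dist w 1 / δ) with hψ
  have hψc : Continuous ψ := by simp only [hψ]; fun_prop
  set W : ℂ → ℝ := fun w => m - (m - m') * ψ w with hW
  have hWc : Continuous W := by simp only [hW]; fun_prop
  have hle : ∀ w ∈ sphere (0:ℂ) 1, u (pt e x Y r w) ≤ ((W w : ℝ) : EReal) := by
    intro w hw
    by_cases h : dist w 1 < δ
    · have h1 : u (pt e x Y r w) < m' := hball ⟨h, sphere_subset_closedBall hw⟩
      refine h1.le.trans ?_
      rw [EReal.coe_le_coe_iff]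
      simp only [hW]
      have h2 : ψ w ≤ 1 := by
        simp only [hψ]
        apply max_le zero_le_one
        have : 0 ≤ dist w 1 / δ := by positivity
        linarith only [this]
      nlinarith only [h2, hm2']
    · have h2 : ψ w = 0 := by
        simp only [hψ]
        apply max_eq_left
        push Not at h
        have : 1 ≤ dist w 1 / δ := by rw [le_div_iff₀ hδ]; linarith only [h]
        linarith only [this]
      simp only [hW, h2, mul_zero, sub_zero]
      exact hmax _
  have hkey := hc e he x hx Y r hr W hWc.continuousOn hle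
  rw [hm, EReal.coe_le_coe_iff, circleAverage_eq] at hkey
  have hψe : Continuous (fun θ : ℝ => ψ (exp (θ * I))) :=
    hψc.comp (by fun_prop : Continuous fun θ : ℝ => exp (θ * I))
  have hpos : 0 < ∫ θ in (0:ℝ)..(2 * Real.pi), ψ (exp (θ * I)) := by
    refine intervalIntegral.integral_pos (by positivity)
      (hψe).continuousOn (fun θ _ => ?_) ⟨0, ⟨le_rfl, by positivity⟩, ?_⟩
    · simp only [hψ]; exact le_max_left _ _
    · simp [hψ]
  have hint : ∫ θ in (0:ℝ)..(2 * Real.pi), W (exp (θ * I))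
      = 2 * Real.pi * m - (m - m') * ∫ θ in (0:ℝ)..(2 * Real.pi), ψ (exp (θ * I)) := by
    simp only [hW]
    rw [intervalIntegral.integral_sub (intervalIntegrable_const)
      ((hψe.const_mul _).intervalIntegrable _ _),
      intervalIntegral.integral_const_mul, intervalIntegral.integral_const, sub_zero,
      smul_eq_mul]
  rw [hint] at hkey
  have h4 : (2 * Real.pi)⁻¹ * (2 * Real.pi * m
      - (m - m') * ∫ θ in (0:ℝ)..(2 * Real.pi), ψ (exp (θ * I))) < m := by
    rw [inv_mul_lt_iff₀ (by positivity)]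
    have : 0 < (m - m') * ∫ θ in (0:ℝ)..(2 * Real.pi), ψ (exp (θ * I)) := by
      have : 0 < m - m' := by linarith only [hm2']
      positivity
    linarith only [this]
  exact absurd hkey (not_le.2 h4)

/-- **Liouville theorem**, plurisubharmonic functions of growth `o(log r)` (along a sequence of
spheres around `p`). -/
theorem liouville_growth (hK : IsKahler E M) [CompleteSpace M] [ConnectedSpace M]
    (hnn : ∀ x : M, NonnegBisectionalAt E x) {u : M → EReal} (hu : UpperSemicontinuous u)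
    (htop : ∀ x, u x ≠ ⊤) (hc : CircMaj E u) (p : M)
    (hgr : ∀ ε > 0, ∀ R₀ : ℝ, ∃ R > R₀, ∀ x, dist x p = R →
      u x ≤ ((ε * Real.log R : ℝ) : EReal)) : ∃ C : EReal, ∀ x, u x = C := by
  have hprop : ProperSpace M := properSpace_riemannian E M
  obtain ⟨a, ha⟩ := global_max hK hnn hu htop hc p hgr
  refine ⟨u a, ?_⟩
  by_cases hab : u a = ⊥
  · intro z
    exact le_antisymm (ha z) (hab ▸ bot_le)
  obtain ⟨m, hm⟩ : ∃ t : ℝ, u a = (t : EReal) := ⟨(u a).toReal, (EReal.coe_toReal (htop a) hab).symm⟩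
  rw [hm] at ha ⊢
  set A : Set M := {z | (m : EReal) ≤ u z} with hA
  have hAc : IsClosed A := hu.isClosed_preimage (m : EReal)
  have hAo : IsOpen A := by
    rw [isOpen_iff_mem_nhds]
    intro z₀ hz₀
    set e := chartAt E z₀ with he'
    have he : e ∈ maximalAtlas 𝓘(ℂ, E) 1 M := chart_mem_maximalAtlas z₀
    have hze : z₀ ∈ e.source := mem_chart_source E z₀
    obtain ⟨δ, hδ, hball⟩ := Metric.isOpen_iff.1 e.open_target (e z₀) (e.map_source hze)
    have h1 : ∀ᶠ z in 𝓝 z₀, z ∈ e.source ∧ e z ∈ ball (e z₀) δ :=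
      Filter.Eventually.and (e.open_source.mem_nhds hze)
        ((e.continuousAt hze).eventually (ball_mem_nhds _ hδ))
    filter_upwards [h1] with z hz
    obtain ⟨hz1, hz2⟩ := hz
    have hball' : ∀ w : ℂ, ‖w‖ ≤ 1 → e z₀ + (1:ℝ) • (w • (e z - e z₀)) ∈ e.target := by
      intro w hw
      apply hball
      rw [mem_ball, dist_eq_norm, add_sub_cancel_left, one_smul, norm_smul]
      rw [mem_ball, dist_eq_norm] at hz2
      calc ‖w‖ * ‖e z - e z₀‖ ≤ 1 * ‖e z - e z₀‖ := by gcongr
        _ < δ := by rw [one_mul]; exact hz2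
    have h2 := max_propagate he hu hc hze (le_antisymm (ha z₀) hz₀) ha hball'
    have h3 : pt e z₀ (e z - e z₀) 1 1 = z := by
      simp only [pt, one_smul, add_sub_cancel]
      exact e.left_inv hz1
    rw [h3] at h2
    exact h2
  have hAu : A = univ := IsClopen.eq_univ ⟨hAc, hAo⟩ ⟨a, hm.ge⟩
  intro z
  refine le_antisymm (ha z) ?_
  have : z ∈ A := hAu ▸ mem_univ z
  exact this

/-- **Liouville theorem** in the form used for escape times. -/
theorem liouville_noTouch (hK : IsKahler E M) [CompleteSpace M] [ConnectedSpace M]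
    (hnn : ∀ x : M, NonnegBisectionalAt E x) (u : M → EReal) (hu : UpperSemicontinuous u)
    (hle : ∀ x, u x ≤ 0) (hnt : H156.NoTouch E u) : ∃ C : EReal, ∀ x, u x = C := by
  have htop : ∀ x, u x ≠ ⊤ := fun x h => by
    have := hle x
    rw [h] at this
    exact absurd this (by simp)
  obtain ⟨p⟩ : Nonempty M := inferInstance
  refine liouville_growth hK hnn hu htop (circMaj_of_noTouch hu htop hnt) p
    (fun ε hε R₀ => ⟨max R₀ 0 + 1, by linarith only [le_max_left R₀ 0], fun x _ => ?_⟩)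
  refine (hle x).trans ?_
  have : 0 ≤ ε * Real.log (max R₀ 0 + 1) := by
    have h1 : 0 ≤ Real.log (max R₀ 0 + 1) := Real.log_nonneg (by linarith only [le_max_right R₀ 0])
    positivity
  exact_mod_cast this

/-- **Liouville theorem** for continuous plurisubharmonic functions of growth `o(log r)`. -/
theorem liouville_log (hK : IsKahler E M) [CompleteSpace M] [ConnectedSpace M]
    (hnn : ∀ x : M, NonnegBisectionalAt E x) {u : M → ℝ} (hu : Continuous u)
    (hpsh : ∀ (f : ℂ → M) (c : ℂ) (r : ℝ), 0 < r → ContinuousOn f (closedBall c r) →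
      MDifferentiableOn 𝓘(ℂ, ℂ) 𝓘(ℂ, E) f (ball c r) →
      u (f c) ≤ Real.circleAverage (fun z => u (f z)) c r) (p : M)
    (hgr : ∀ ε > 0, ∀ R₀ : ℝ, ∃ R > R₀, ∀ x, dist x p = R → u x ≤ ε * Real.log R) (x y : M) :
    u x = u y := by
  obtain ⟨C, hC⟩ := liouville_growth hK hnn (u := fun x => ((u x : ℝ) : EReal))
    (continuous_coe_real_ereal.comp hu).upperSemicontinuous (fun x => EReal.coe_ne_top _)
    (circMaj_of_continuous hu hpsh) p (fun ε hε R₀ => by
      obtain ⟨R, h1, h2⟩ := hgr ε hε R₀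
      exact ⟨R, h1, fun x hx => by exact_mod_cast h2 x hx⟩)
  have h1 := (hC x).trans (hC y).symm
  exact_mod_cast h1

/-- version with an `o(log)` bound everywhere -/
theorem liouville_log' (hK : IsKahler E M) [CompleteSpace M] [ConnectedSpace M]
    (hnn : ∀ x : M, NonnegBisectionalAt E x) {u : M → ℝ} (hu : Continuous u)
    (hpsh : ∀ (f : ℂ → M) (c : ℂ) (r : ℝ), 0 < r → ContinuousOn f (closedBall c r) →
      MDifferentiableOn 𝓘(ℂ, ℂ) 𝓘(ℂ, E) f (ball c r) →
      u (f c) ≤ Real.circleAverage (fun z => u (f z)) c r) (p : M)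
    (hgr : ∀ ε > 0, ∃ C : ℝ, ∀ x, u x ≤ ε * Real.log (1 + dist p x) + C) (x y : M) :
    u x = u y := by
  refine liouville_log hK hnn hu hpsh p (fun ε hε R₀ => ?_) x y
  obtain ⟨C, hC⟩ := hgr (ε / 2) (half_pos hε)
  have h1 : Tendsto (fun R : ℝ => ε / 2 * Real.log R) atTop atTop :=
    Tendsto.const_mul_atTop (half_pos hε) Real.tendsto_log_atTop
  obtain ⟨R, h2, h3, h4⟩ := ((h1.eventually (eventually_ge_atTop (ε / 2 * Real.log 2 + C))).and
      ((eventually_gt_atTop R₀).and (eventually_gt_atTop 1))).exists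
  refine ⟨R, h3, fun x hx => (hC x).trans ?_⟩
  rw [dist_comm] at hx
  rw [hx]
  have h5 : Real.log (1 + R) ≤ Real.log 2 + Real.log R := by
    rw [← Real.log_mul (by norm_num) (by linarith only [h4])]
    exact Real.log_le_log (by linarith only [h4]) (by linarith only [h4])
  nlinarith only [h2, h5, hε]

end bar

end Vale.Agent.P253.R2.H618
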