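import Vale.Agent.P253.R2.H618.PLb
import Vale.Agent.P253.CStar.Local

/-!
P253: Euler-like holomorphic vector fields with complete flow.
-/

open scoped Manifold ContDiff Topology Bundle
open Set Metric Complex Filter IsManifold Vale.Agent.P253.Mfd

set_option maxSynthPendingDepth 3
set_option linter.unusedSectionVars false

noncomputable section

namespace Vale.Agent.P253.R2.H618

open Vale.Agent.P253.R2.H445

variable {E : Type*} [NormedAddCommGroup E] [NormedSpace ℂ E] [FiniteDimensional ℂ E]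
  {M : Type*} [MetricSpace M] [ChartedSpace E M] [IsManifold 𝓘(ℂ, E) 1 M]
  {X : M → E} {ψ : ℂ → M → M} {p : M} {e : OpenPartialHomeomorph M E}

/-- the derivative of a chart at `p` and its inverse -/
theorem chart_deriv_inv (he : e ∈ maximalAtlas 𝓘(ℂ, E) 1 M) (hps : p ∈ e.source) :
    ((mfderiv 𝓘(ℂ, E) 𝓘(ℂ, E) e.symm (e p) : E →L[ℂ] E)).comp
      (mfderiv 𝓘(ℂ, E) 𝓘(ℂ, E) e p : E →L[ℂ] E) = ContinuousLinearMap.id ℂ E := by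
  have h1 : HasMFDerivAt 𝓘(ℂ, E) 𝓘(ℂ, E) e p (mfderiv 𝓘(ℂ, E) 𝓘(ℂ, E) e p : E →L[ℂ] E) :=
    (mdiff_chart he hps).hasMFDerivAt
  have h2 : HasMFDerivAt 𝓘(ℂ, E) 𝓘(ℂ, E) e.symm (e p)
      (mfderiv 𝓘(ℂ, E) 𝓘(ℂ, E) e.symm (e p) : E →L[ℂ] E) :=
    (mdiff_chart_symm he (e.map_source hps)).hasMFDerivAt
  have h3 := h2.comp p h1
  have h4 : (e.symm ∘ e) =ᶠ[𝓝 p] id := by
    filter_upwards [e.open_source.mem_nhds hps] with y hy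
    exact e.left_inv hy
  have h5 : HasMFDerivAt 𝓘(ℂ, E) 𝓘(ℂ, E) (e.symm ∘ e) p (ContinuousLinearMap.id ℂ E) :=
    (hasMFDerivAt_id p).congr_of_eventuallyEq h4
  exact hasMFDerivAt_unique h3 h5

/-- the manifold derivative of the flow at a fixed point -/
theorem mfderiv_flow (h : IsHolCFlow E ψ) (he : e ∈ maximalAtlas 𝓘(ℂ, E) 1 M)
    (hfix : ∀ ζ, ψ ζ p = p) (hps : p ∈ e.source) (ζ : ℂ) (v : E) :
    (mfderiv 𝓘(ℂ, E) 𝓘(ℂ, E) (ψ ζ) p : E → E) v =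
      (mfderiv 𝓘(ℂ, E) 𝓘(ℂ, E) e.symm (e p) : E → E)
        (J ψ e p ζ ((mfderiv 𝓘(ℂ, E) 𝓘(ℂ, E) e p : E → E) v)) := by
  let D : E →L[ℂ] E := mfderiv 𝓘(ℂ, E) 𝓘(ℂ, E) e p
  let D' : E →L[ℂ] E := mfderiv 𝓘(ℂ, E) 𝓘(ℂ, E) e.symm (e p)
  have h1 : HasMFDerivAt 𝓘(ℂ, E) 𝓘(ℂ, E) e p D := (mdiff_chart he hps).hasMFDerivAt
  let A : E →L[ℂ] E := J ψ e p ζ
  have h20 : HasFDerivAt (fun z => G ψ e (ζ, z)) A (e p) :=
    (hasStrictFDerivAt_slice h he hfix hps ζ).hasFDerivAt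
  have h2 : HasMFDerivAt 𝓘(ℂ, E) 𝓘(ℂ, E) (fun z => G ψ e (ζ, z)) (e p) A :=
    h20.hasMFDerivAt
  have h3 : HasMFDerivAt 𝓘(ℂ, E) 𝓘(ℂ, E) e.symm (e p) D' :=
    (mdiff_chart_symm he (e.map_source hps)).hasMFDerivAt
  have h4 : HasMFDerivAt 𝓘(ℂ, E) 𝓘(ℂ, E) ((fun z => G ψ e (ζ, z)) ∘ e) p
      (A.comp D) := h2.comp p h1
  have h3' : HasMFDerivAt 𝓘(ℂ, E) 𝓘(ℂ, E) e.symm (((fun z => G ψ e (ζ, z)) ∘ e) p) D' := by
    have : ((fun z => G ψ e (ζ, z)) ∘ e) p = e p := G_fix hfix hps ζ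
    rw [this]
    exact h3
  have h5 : HasMFDerivAt 𝓘(ℂ, E) 𝓘(ℂ, E) (e.symm ∘ ((fun z => G ψ e (ζ, z)) ∘ e)) p
      (D'.comp (A.comp D)) := h3'.comp p h4
  have h6 : ψ ζ =ᶠ[𝓝 p] (e.symm ∘ ((fun z => G ψ e (ζ, z)) ∘ e)) := by
    have h7 : ∀ᶠ x in 𝓝 p, ψ ζ x ∈ e.source := by
      have h4 : Continuous (ψ ζ) := h.holo.continuous.comp (by fun_prop : Continuous fun x => (ζ, x))
      apply h4.continuousAt.eventually
      rw [hfix]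
      exact e.open_source.mem_nhds hps
    filter_upwards [h7, e.open_source.mem_nhds hps] with x h8 h9
    simp only [Function.comp, G, e.left_inv h9, e.left_inv h8]
  have h8 : mfderiv 𝓘(ℂ, E) 𝓘(ℂ, E) (ψ ζ) p = (D'.comp (A.comp D) : E →L[ℂ] E) :=
    (h5.congr_of_eventuallyEq h6).mfderiv
  rw [h8]
  rfl

/-- Euler-like vector fields: the derivative of the flow at the zero -/
theorem mfderiv_euler (hX : IsHolVectorField E X) (h : IsHolCFlow E ψ)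
    (horb : ∀ x, IsOrbitOn E X (fun ζ => ψ ζ x) univ) (he : e ∈ maximalAtlas 𝓘(ℂ, E) 1 M)
    (hps : p ∈ e.source) (hp : X p = 0) {c : ℂ}
    (hL : HasFDerivAt (vfChart E X e) (c • ContinuousLinearMap.id ℂ E) (e p)) (ζ : ℂ) (v : E) :
    (mfderiv 𝓘(ℂ, E) 𝓘(ℂ, E) (ψ ζ) p : E → E) v = exp (c * ζ) • v := by
  have hfix := fixed_of_zero hX h horb hp
  let D' : E →L[ℂ] E := mfderiv 𝓘(ℂ, E) 𝓘(ℂ, E) e.symm (e p)
  let D : E →L[ℂ] E := mfderiv 𝓘(ℂ, E) 𝓘(ℂ, E) e p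
  have h1 : (mfderiv 𝓘(ℂ, E) 𝓘(ℂ, E) (ψ ζ) p : E → E) v = D' (J ψ e p ζ (D v)) :=
    mfderiv_flow h he hfix hps ζ v
  rw [h1, J_eigen h horb he hfix hps hL (μ := c) (by simp) ζ, map_smul]
  have h2 : D' (D v) = v := congrArg (fun A : E →L[ℂ] E => A v) (chart_deriv_inv he hps)
  rw [h2]

/-- the rescaled flow of an Euler-like vector field is an action of `ℂ / 2πiℤ` -/
theorem holC_of_euler [ConnectedSpace M] (hX : IsHolVectorField E X) (h : IsHolCFlow E ψ)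
    (horb : ∀ x, IsOrbitOn E X (fun ζ => ψ ζ x) univ) (he : e ∈ maximalAtlas 𝓘(ℂ, E) 1 M)
    (hps : p ∈ e.source) (hp : X p = 0) {c : ℂ} (hc : c ≠ 0)
    (hL : HasFDerivAt (vfChart E X e) (c • ContinuousLinearMap.id ℂ E) (e p)) :
    CStar.HolC E (fun ζ => ψ (ζ / c)) ∧ (∀ ζ, ψ (ζ / c) p = p) ∧
      ∀ (ζ : ℂ) (v : E), (mfderiv 𝓘(ℂ, E) 𝓘(ℂ, E) (ψ (ζ / c)) p : E → E) v = exp ζ • v := by
  refine ⟨⟨fun x => ?_, fun s t x => ?_, fun x => ?_, ?_⟩, fun ζ => ?_, fun ζ v => ?_⟩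
  · simp only [zero_div, h.zero]
  · simp only [add_div, h.add]
  · exact period_of_euler hX h horb he hps hp hc hL x
  · have h1 : ContMDiff (𝓘(ℂ, ℂ).prod 𝓘(ℂ, E)) (𝓘(ℂ, ℂ).prod 𝓘(ℂ, E)) 1
        (fun q : ℂ × M => (q.1 / c, q.2)) := by
      have h3 : ContDiff ℂ 1 (fun z : ℂ => z / c) := by fun_prop
      have h2 : ContMDiff (𝓘(ℂ, ℂ).prod 𝓘(ℂ, E)) 𝓘(ℂ, ℂ) 1 (fun q : ℂ × M => q.1 / c) :=
        h3.contMDiff.comp contMDiff_fst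
      exact h2.prodMk contMDiff_snd
    exact h.holo.comp h1
  · exact fixed_of_zero hX h horb hp _
  · have h1 := mfderiv_euler hX h horb he hps hp hL (ζ / c) v
    rw [mul_div_cancel₀ _ hc] at h1
    exact h1

end Vale.Agent.P253.R2.H618
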