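import Vale.Agent.P253.R2.H618.Exh4

/-! P253: Busemann functions along ultrafilters on noncompact complete Kähler manifolds of
nonnegative bisectional curvature; they are continuous and plurisubharmonic, and strictly
plurisubharmonic near the points of positive bisectional curvature. -/

open scoped Manifold ContDiff Topology Bundle InnerProductSpace
open Set Metric Complex Filter Bundle IsManifold Asymptotics

set_option maxSynthPendingDepth 3
set_option linter.unusedSectionVars false

noncomputable section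

namespace Vale.Agent.P253.R2.H618

open Vale.Agent.P253.Mfd Vale.Agent.P253.Mfd.LocalKahler

section busemann

variable {M : Type*} [MetricSpace M] [ProperSpace M]

/-- limits of `dist p q - dist x q` along an ultrafilter going to infinity -/
theorem exists_bus (p : M) (U : Ultrafilter M) : ∃ b : M → ℝ,
    ∀ x, Tendsto (fun q => dist p q - dist x q) U (𝓝 (b x)) := by
  have h : ∀ x : M, ∃ l : ℝ, Tendsto (fun q => dist p q - dist x q) U (𝓝 l) := by
    intro x
    have h1 : IsCompact (Icc (-(dist p x)) (dist p x)) := isCompact_Icc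
    have h2 : Icc (-(dist p x)) (dist p x) ∈ U.map (fun q => dist p q - dist x q) := by
      rw [Ultrafilter.mem_map]
      refine Filter.mem_of_superset Filter.univ_mem fun q _ => ?_
      have h3 := dist_triangle p x q
      have h4 := dist_triangle x p q
      rw [dist_comm x p] at h4
      exact ⟨by linarith, by linarith⟩
    obtain ⟨l, -, hl⟩ := h1.ultrafilter_le_nhds' _ h2
    exact ⟨l, hl⟩
  exact ⟨fun x => (h x).choose, fun x => (h x).choose_spec⟩

theorem bus_lipschitz {p : M} {U : Ultrafilter M} {b : M → ℝ}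
    (hb : ∀ x, Tendsto (fun q => dist p q - dist x q) U (𝓝 (b x))) (x y : M) :
    |b x - b y| ≤ dist x y := by
  have h1 : Tendsto (fun q => |(dist p q - dist x q) - (dist p q - dist y q)|) U
      (𝓝 |b x - b y|) := ((hb x).sub (hb y)).abs
  refine le_of_tendsto h1 (Eventually.of_forall fun q => ?_)
  rw [abs_le]
  have h3 := dist_triangle x y q
  have h4 := dist_triangle y x q
  rw [dist_comm y x] at h4
  constructor <;> linarith

theorem bus_continuous {p : M} {U : Ultrafilter M} {b : M → ℝ}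
    (hb : ∀ x, Tendsto (fun q => dist p q - dist x q) U (𝓝 (b x))) : Continuous b := by
  have : LipschitzWith 1 b := LipschitzWith.of_dist_le_mul fun x y => by
    rw [Real.dist_eq, NNReal.coe_one, one_mul]
    exact bus_lipschitz hb x y
  exact this.continuous

/-- uniform convergence on compact sets -/
theorem bus_uniform {p : M} {U : Ultrafilter M} {b : M → ℝ}
    (hb : ∀ x, Tendsto (fun q => dist p q - dist x q) U (𝓝 (b x))) {K : Set M}
    (hK : IsCompact K) {ε : ℝ} (hε : 0 < ε) :
    ∀ᶠ q in (U : Filter M), ∀ x ∈ K, |dist p q - dist x q - b x| ≤ ε := by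
  obtain ⟨t, -, htf, htc⟩ := hK.finite_cover_balls (show 0 < ε / 3 by positivity)
  have h1 : ∀ᶠ q in (U : Filter M), ∀ y ∈ t, |dist p q - dist y q - b y| < ε / 3 := by
    rw [Filter.eventually_all_finite htf]
    intro y _
    have h2 := (hb y).eventually (Metric.ball_mem_nhds (b y) (show 0 < ε / 3 by positivity))
    filter_upwards [h2] with q hq
    rwa [← Real.dist_eq]
  filter_upwards [h1] with q hq x hx
  obtain ⟨y, hy, hxy⟩ := mem_iUnion₂.1 (htc hx)
  rw [mem_ball] at hxy
  have h3 := hq y hy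
  have h4 := bus_lipschitz hb x y
  have h5 := dist_triangle x y q
  have h6 := dist_triangle y x q
  rw [dist_comm y x] at h6
  rw [abs_lt] at h3
  rw [abs_le] at h4 ⊢
  constructor <;> linarith [h3.1, h3.2, h4.1, h4.2]

/-- points going to infinity are far from compact sets -/
theorem far_of_cocompact {U : Ultrafilter M} (hU : (U : Filter M) ≤ cocompact M) {K : Set M}
    (hK : IsCompact K) (R : ℝ) : ∀ᶠ q in (U : Filter M), ∀ x ∈ K, R ≤ dist x q := by
  rcases K.eq_empty_or_nonempty with rfl | ⟨x₀, -⟩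
  · exact Eventually.of_forall fun q x hx => absurd hx (notMem_empty x)
  obtain ⟨S, hS⟩ := hK.isBounded.subset_closedBall x₀
  have h1 : (closedBall x₀ (S + R))ᶜ ∈ (U : Filter M) :=
    hU (isCompact_closedBall _ _).compl_mem_cocompact
  filter_upwards [h1] with q hq x hx
  have h2 := hS hx
  rw [mem_closedBall] at h2
  rw [mem_compl_iff, mem_closedBall, not_le] at hq
  have h3 := dist_triangle q x x₀
  rw [dist_comm q x] at h3
  linarith

end busemann

section approx

/-- the sub-mean value inequality is stable under uniform limits -/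
theorem submean_of_approx {u : ℂ → ℝ} {c : ℂ} {R : ℝ} (hR : 0 < R)
    (hu : ContinuousOn u (closedBall c R))
    (h : ∀ ε > 0, ∃ w : ℂ → ℝ, ContinuousOn w (closedBall c R) ∧
      (∀ z ∈ closedBall c R, |w z - u z| ≤ ε) ∧ w c ≤ Real.circleAverage w c R) :
    u c ≤ Real.circleAverage u c R := by
  refine le_of_forall_pos_le_add fun ε hε => ?_
  obtain ⟨w, hw, hwu, hsub⟩ := h (ε / 2) (by positivity)
  have i1 : CircleIntegrable u c R := (hu.mono sphere_subset_closedBall).circleIntegrable hR.le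
  have i2 : CircleIntegrable w c R := (hw.mono sphere_subset_closedBall).circleIntegrable hR.le
  have h3 : Real.circleAverage w c R ≤ Real.circleAverage (fun z => u z + ε / 2) c R := by
    refine Real.circleAverage_mono i2 (i1.add (circleIntegrable_const _ _ _)) fun z hz => ?_
    have hz' : z ∈ sphere c R := by rwa [abs_of_pos hR] at hz
    have h4 := (abs_le.1 (hwu z (sphere_subset_closedBall hz'))).2
    linarith
  rw [Real.circleAverage_fun_add i1 (circleIntegrable_const _ _ _),
    Real.circleAverage_const] at h3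
  have h5 := (abs_le.1 (hwu c (mem_closedBall_self hR.le))).1
  linarith

end approx

section mfd

variable {E : Type*} [NormedAddCommGroup E] [NormedSpace ℂ E] [FiniteDimensional ℂ E]

/-- an upper bound for the metric on a compact set -/
theorem exists_upper {G : E → E →L[ℝ] E →L[ℝ] ℝ} {U : Set E} (h : LocalKahler G U) {K : Set E}
    (hK : IsCompact K) (hKU : K ⊆ U) :
    ∃ C > 0, ∀ z ∈ K, ∀ v, G z v v ≤ C * ‖v‖ ^ 2 := by
  have hcont : ContinuousOn (fun z => ‖G z‖) K := (h.smooth.continuousOn.mono hKU).norm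
  obtain ⟨C, hC⟩ := hK.bddAbove_image hcont
  refine ⟨max C 1, by positivity, fun z hz v => ?_⟩
  have h1 := (G z).le_opNorm₂ v v
  have h2 : ‖G z‖ ≤ max C 1 := (hC (mem_image_of_mem _ hz)).trans (le_max_left _ _)
  have h3 : G z v v ≤ ‖G z v v‖ := Real.le_norm_self _
  calc G z v v ≤ ‖G z‖ * ‖v‖ * ‖v‖ := h3.trans h1
    _ = ‖G z‖ * ‖v‖ ^ 2 := by ring
    _ ≤ max C 1 * ‖v‖ ^ 2 := by gcongr

variable {M : Type*} [MetricSpace M] [ChartedSpace E M]
  [IsManifold 𝓘(ℂ, E) 1 M] [IsManifold 𝓘(ℝ, E) ∞ M]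
  [RiemannianBundle (fun x : M => TangentSpace 𝓘(ℝ, E) x)]
  [IsContMDiffRiemannianBundle 𝓘(ℝ, E) ∞ E (fun x : M => TangentSpace 𝓘(ℝ, E) x)]
  [IsRiemannianManifold 𝓘(ℝ, E) M]

/-- distances along holomorphic discs in a chart -/
theorem submean_dist {f : ℂ → M} {c : ℂ} {R : ℝ} (hR : 0 < R)
    (hf : ContinuousOn f (closedBall c R))
    (hf' : MDifferentiableOn 𝓘(ℂ, ℂ) 𝓘(ℂ, E) f (ball c R)) {e : OpenPartialHomeomorph M E}
    (he : e ∈ maximalAtlas 𝓘(ℂ, E) 1 M) (hfe : ∀ z ∈ closedBall c R, f z ∈ e.source)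
    {n : ℕ} (L : E ≃L[ℂ] EuclideanSpace ℂ (Fin n)) {κ : ℝ} {q : M} (C : ℝ)
    (hA : ∀ z ∈ ball c R, ∃ A, LeviBound (E := E) q (f z) A ∧
      ∀ Y, A * chartG e (e (f z)) Y Y ≤ 4 * κ * ‖L Y‖ ^ 2) :
    C - dist (f c) q + κ * ‖L (e (f c))‖ ^ 2 ≤
      Real.circleAverage (fun z => C - dist (f z) q + κ * ‖L (e (f z))‖ ^ 2) c R := by
  have hcont : ContinuousOn (fun z => C - dist (f z) q + κ * ‖L (e (f z))‖ ^ 2)
      (closedBall c R) := by
    have h1 : ContinuousOn (fun z => e (f z)) (closedBall c R) := e.continuousOn.comp hf hfe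
    have h2 : ContinuousOn (fun z => dist (f z) q) (closedBall c R) :=
      (continuous_id.dist continuous_const).comp_continuousOn hf
    exact (continuousOn_const.sub h2).add (continuousOn_const.mul
      ((L.continuous.comp_continuousOn h1).norm.pow 2))
  refine four_submean (u := fun z => C - dist (f z) q + κ * ‖L (e (f z))‖ ^ 2) hR hcont
    fun z₀ hz₀ η hη => ?_
  have hfs := hfe z₀ (ball_subset_closedBall hz₀)
  set x := f z₀ with hx
  have hH := harmW_disc isOpen_ball hf' hz₀ he hfs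
  set Y := fderiv ℝ (fun z => e (f z)) z₀ 1 with hY
  obtain ⟨A, hA1, hA2⟩ := hA z₀ hz₀
  have hH' : Harm e x Y (fun r k => f (z₀ + r • (I ^ (k:ℕ)))) := by
    refine ⟨hH.1, hH.2.congr (Eventually.of_forall fun r k => ?_)⟩
    simp only [one_smul, hx]
  have h5 := hA1 e he hfs Y _ hH' (η / 2) (by positivity)
  -- the squared norm
  set ξ : ℝ → Fin 4 → E := fun r k => e (f (z₀ + r • (I ^ (k:ℕ)))) - e x
    - r • (I ^ (k:ℕ) • ((1:ℂ) • Y)) with hξ
  have hξs : IsSmall ξ := hH.2
  have hζs : IsSmall (fun r k => L (ξ r k)) := by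
    obtain ⟨hO, ho⟩ := isSmall_iff.1 hξs
    rw [isSmall_iff]
    refine ⟨fun k => ((L : E →L[ℂ] EuclideanSpace ℂ (Fin n)).isBigO_comp _ _).trans (hO k), ?_⟩
    have h6 : (fun r => ∑ k, L (ξ r k)) = fun r => L (∑ k, ξ r k) := by
      funext r
      rw [map_sum]
    rw [h6]
    exact ((L : E →L[ℂ] EuclideanSpace ℂ (Fin n)).isBigO_comp _ _).trans_isLittleO ho
  have h7 := (four_normsq (L (e x)) (L Y) hζs).def
    (show 0 < η / (2 * (|κ| + 1)) by positivity)
  filter_upwards [h5, h7] with r hr1 hr2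
  have hr0 : 0 ≤ r ^ 2 := by positivity
  rw [Real.norm_of_nonneg hr0, Real.norm_eq_abs] at hr2
  have h9 : ∀ k : Fin 4, L (e x) + (r • (I ^ (k:ℕ) • L Y) + L (ξ r k)) =
      L (e (f (z₀ + r • (I ^ (k:ℕ))))) := by
    intro k
    have h10 : L (r • (I ^ (k:ℕ) • Y)) = r • (I ^ (k:ℕ) • L Y) := by
      rw [← Complex.coe_smul, map_smul, map_smul, Complex.coe_smul]
    rw [← h10, ← map_add, ← map_add]
    congr 1
    simp only [hξ, one_smul]
    abel
  simp only [h9] at hr2
  set S := ∑ k : Fin 4, ‖L (e (f (z₀ + r • (I ^ (k:ℕ)))))‖ ^ 2 with hS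
  have h11 : |κ * (S - 4 * ‖L (e x)‖ ^ 2 - r ^ 2 * (4 * ‖L Y‖ ^ 2))| ≤ η / 2 * r ^ 2 := by
    rw [abs_mul]
    calc |κ| * |S - 4 * ‖L (e x)‖ ^ 2 - r ^ 2 * (4 * ‖L Y‖ ^ 2)| ≤
        |κ| * (η / (2 * (|κ| + 1)) * r ^ 2) := by gcongr
      _ = (|κ| * (η / (2 * (|κ| + 1)))) * r ^ 2 := by ring
      _ ≤ η / 2 * r ^ 2 := by
        gcongr
        rw [mul_div_assoc', div_le_div_iff₀ (by positivity) (by positivity)]
        nlinarith [abs_nonneg κ]
  have h12 := (abs_le.1 h11).1
  have h13 := mul_le_mul_of_nonneg_left (hA2 Y) hr0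
  rw [Finset.sum_add_distrib, Finset.sum_sub_distrib, ← Finset.mul_sum]
  simp only [Finset.sum_const, Finset.card_univ, Fintype.card_fin, nsmul_eq_mul]
  push_cast
  have e1 : κ * (S - 4 * ‖L (e x)‖ ^ 2 - r ^ 2 * (4 * ‖L Y‖ ^ 2)) =
      κ * S - 4 * (κ * ‖L (e x)‖ ^ 2) - r ^ 2 * (4 * κ * ‖L Y‖ ^ 2) := by ring
  rw [e1] at h12
  have e2 : r ^ 2 * (A * chartG e (e x) Y Y + η / 2) =
      r ^ 2 * (A * chartG e (e x) Y Y) + r ^ 2 * (η / 2) := by ring
  rw [e2] at hr1
  have e3 : 4 * (C - dist x q + κ * ‖L (e x)‖ ^ 2) - η * r ^ 2 =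
      4 * C - 4 * dist x q + 4 * (κ * ‖L (e x)‖ ^ 2) - r ^ 2 * (η / 2) - η / 2 * r ^ 2 := by ring
  rw [e3]
  linarith

/-- **Busemann functions.** On a noncompact complete Kähler manifold of nonnegative bisectional
curvature there is a continuous plurisubharmonic function which is strictly plurisubharmonic near
each point where the bisectional curvature is positive. -/
theorem exists_busemann (hK : IsKahler E M) [CompleteSpace M] [ConnectedSpace M]
    [NoncompactSpace M] (hnn : ∀ x : M, NonnegBisectionalAt E x) :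
    ∃ b : M → ℝ, H922.IsContPsh E b ∧ ∀ y, PosBisectionalAt E y →
      ∃ e ∈ maximalAtlas 𝓘(ℂ, E) 1 M, y ∈ e.source ∧
        ∃ (n : ℕ) (L : E ≃L[ℂ] EuclideanSpace ℂ (Fin n)) (ε : ℝ), 0 < ε ∧
          ∀ (f : ℂ → M) (c : ℂ) (r : ℝ), 0 < r → ContinuousOn f (closedBall c r) →
            MDifferentiableOn 𝓘(ℂ, ℂ) 𝓘(ℂ, E) f (ball c r) →
            (∀ z ∈ closedBall c r, f z ∈ e.source) →
            b (f c) - ε * ‖L (e (f c))‖ ^ 2 ≤
              Real.circleAverage (fun z => b (f z) - ε * ‖L (e (f z))‖ ^ 2) c r := by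
  have hprop : ProperSpace M := properSpace_riemannian E M
  have hpropE : ProperSpace E := FiniteDimensional.proper ℂ E
  obtain ⟨p⟩ : Nonempty M := inferInstance
  set U : Ultrafilter M := Ultrafilter.of (cocompact M) with hUdef
  have hU : (U : Filter M) ≤ cocompact M := Ultrafilter.of_le _
  obtain ⟨b, hb⟩ := exists_bus p U
  have hbc := bus_continuous hb
  obtain ⟨n, L, c₀, hc₀, -, hL⟩ := H380.Stein.exists_coord E
  refine ⟨b, ⟨hbc, fun f c R hR hf hf' => ?_⟩, fun y hy => ?_⟩
  · -- plurisubharmonicity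
    refine H380.Stein.submean_of_local (u := fun z => b (f z)) hR (hbc.comp_continuousOn hf)
      fun z0 hz0 => ?_
    have he : chartAt E (f z0) ∈ maximalAtlas 𝓘(ℂ, E) 1 M := chart_mem_maximalAtlas _
    have hx₀ : f z0 ∈ (chartAt E (f z0)).source := mem_chart_source E _
    set e := chartAt E (f z0) with hedef
    have hLK := localKahler_chartG hK he
    obtain ⟨δ, hδ, hδt⟩ := Metric.isOpen_iff.1 e.open_target _ (e.map_source hx₀)
    have hcb : closedBall (e (f z0)) (δ / 2) ⊆ e.target :=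
      (closedBall_subset_ball (by linarith)).trans hδt
    obtain ⟨C, hC, hup⟩ := exists_upper hLK (isCompact_closedBall (e (f z0)) (δ / 2)) hcb
    set s : Set M := e.source ∩ e ⁻¹' ball (e (f z0)) (δ / 2) with hs
    have hso : IsOpen s := e.continuousOn.isOpen_inter_preimage e.open_source isOpen_ball
    have hxs : f z0 ∈ s := ⟨hx₀, mem_ball_self (by positivity)⟩
    have hfo : ContinuousOn f (ball c R) := hf.mono ball_subset_closedBall
    have hV : IsOpen (ball c R ∩ f ⁻¹' s) := hfo.isOpen_inter_preimage isOpen_ball hso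
    obtain ⟨ρ₀, hρ₀, hsub⟩ := Metric.isOpen_iff.1 hV z0 ⟨hz0, hxs⟩
    filter_upwards [(eventually_lt_nhds hρ₀).filter_mono nhdsWithin_le_nhds,
      self_mem_nhdsWithin] with ρ hρ1 hρ2
    have hρ : 0 < ρ := hρ2
    have hcbρ : closedBall z0 ρ ⊆ ball c R ∩ f ⁻¹' s :=
      (closedBall_subset_ball hρ1).trans hsub
    have hfρ : ContinuousOn f (closedBall z0 ρ) := hfo.mono fun z hz => (hcbρ hz).1
    have hfρ' : MDifferentiableOn 𝓘(ℂ, ℂ) 𝓘(ℂ, E) f (ball z0 ρ) :=
      hf'.mono fun z hz => (hcbρ (ball_subset_closedBall hz)).1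
    refine submean_of_approx (u := fun z => b (f z)) hρ (hbc.comp_continuousOn hfρ)
      fun ε hε => ?_
    have hKc : IsCompact (f '' closedBall z0 ρ) := (isCompact_closedBall z0 ρ).image_of_continuousOn hfρ
    have hec : ContinuousOn (fun z => e (f z)) (closedBall z0 ρ) :=
      e.continuousOn.comp hfρ fun z hz => (hcbρ hz).2.1
    have hNc : ContinuousOn (fun z => ‖L (e (f z))‖ ^ 2) (closedBall z0 ρ) :=
      (L.continuous.comp_continuousOn hec).norm.pow 2
    obtain ⟨B, hB⟩ := (isCompact_closedBall z0 ρ).bddAbove_image hNc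
    set B' := max B 1 with hB'
    have hB'0 : 0 < B' := by positivity
    -- the size of the correction
    set D : ℝ := C * B' / (c₀ ^ 2 * ε) with hD
    have hD0 : 0 < D := by positivity
    obtain ⟨q, hq1, hq2⟩ := ((bus_uniform hb hKc (half_pos hε)).and
      (far_of_cocompact hU hKc D)).exists
    set κ : ℝ := C / (2 * D * c₀ ^ 2) with hκ
    have hκ0 : 0 < κ := by positivity
    have hκB : κ * B' = ε / 2 := by
      rw [hκ, hD]
      field_simp
    refine ⟨fun z => dist p q - dist (f z) q + κ * ‖L (e (f z))‖ ^ 2, ?_, fun z hz => ?_, ?_⟩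
    · exact (continuousOn_const.sub ((continuous_id.dist continuous_const).comp_continuousOn
        hfρ)).add (continuousOn_const.mul hNc)
    · have h1 := hq1 (f z) (mem_image_of_mem f hz)
      have h2 : ‖L (e (f z))‖ ^ 2 ≤ B' := (hB (mem_image_of_mem _ hz)).trans (le_max_left _ _)
      have h3 : κ * ‖L (e (f z))‖ ^ 2 ≤ ε / 2 := by
        rw [← hκB]
        gcongr
      have h4 : 0 ≤ κ * ‖L (e (f z))‖ ^ 2 := by positivity
      rw [abs_le] at h1 ⊢
      obtain ⟨h5, h6⟩ := h1
      constructor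
      · linarith
      · linarith
    · refine submean_dist hρ hfρ hfρ' he (fun z hz => (hcbρ hz).2.1) L (dist p q) fun z hz => ?_
      have hzs := (hcbρ (ball_subset_closedBall hz)).2
      have hqz : D ≤ dist (f z) q := hq2 (f z) (mem_image_of_mem f (ball_subset_closedBall hz))
      have hne : f z ≠ q := dist_pos.1 (hD0.trans_le hqz)
      refine ⟨2 / dist (f z) q, levi_bound hK hnn hne, fun Y => ?_⟩
      have h1 : chartG e (e (f z)) Y Y ≤ C * ‖Y‖ ^ 2 :=
        hup _ (ball_subset_closedBall hzs.2) Y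
      have h0 : 0 ≤ chartG e (e (f z)) Y Y := G_nonneg hLK (e.map_source hzs.1) Y
      have h2 : c₀ ^ 2 * ‖Y‖ ^ 2 ≤ ‖L Y‖ ^ 2 := by
        rw [← mul_pow]
        have := hL Y
        gcongr
      calc 2 / dist (f z) q * chartG e (e (f z)) Y Y ≤ 2 / D * (C * ‖Y‖ ^ 2) := by
            gcongr
        _ = 4 * κ * (c₀ ^ 2 * ‖Y‖ ^ 2) := by
            rw [hκ]
            field_simp
            ring
        _ ≤ 4 * κ * ‖L Y‖ ^ 2 := by gcongr
  · -- strict plurisubharmonicity
    obtain ⟨ρ, hρ, c₁, hc₁, L₀, hL₀, hstr⟩ := levi_strict hK hnn hy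
    have he : chartAt E y ∈ maximalAtlas 𝓘(ℂ, E) 1 M := chart_mem_maximalAtlas _
    have hy₀ : y ∈ (chartAt E y).source := mem_chart_source E _
    set e := chartAt E y with hedef
    have hLK := localKahler_chartG hK he
    obtain ⟨δ, hδ, hδt⟩ := Metric.isOpen_iff.1 e.open_target _ (e.map_source hy₀)
    have hcb : closedBall (e y) (δ / 2) ⊆ e.target :=
      (closedBall_subset_ball (by linarith)).trans hδt
    obtain ⟨m, hm, hlow⟩ := hLK.exists_lower (isCompact_closedBall (e y) (δ / 2)) hcb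
    set C : ℝ := ‖(L : E →L[ℂ] EuclideanSpace ℂ (Fin n))‖ + 1 with hC
    have hC0 : 0 < C := by positivity
    have hLC : ∀ w : E, ‖L w‖ ^ 2 ≤ C ^ 2 * ‖w‖ ^ 2 := by
      intro w
      have h1 := (L : E →L[ℂ] EuclideanSpace ℂ (Fin n)).le_opNorm w
      rw [← mul_pow]
      have h2 : ‖L w‖ ≤ C * ‖w‖ := by
        refine h1.trans ?_
        gcongr
        rw [hC]; linarith
      gcongr
    set s : Set M := (e.source ∩ e ⁻¹' ball (e y) (δ / 2)) ∩ ball y ρ with hs
    have hso : IsOpen s :=
      (e.continuousOn.isOpen_inter_preimage e.open_source isOpen_ball).inter isOpen_ball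
    have hys : y ∈ s := ⟨⟨hy₀, mem_ball_self (by positivity)⟩, mem_ball_self hρ⟩
    set κ : ℝ := c₁ * m / (4 * C ^ 2) with hκ
    have hκ0 : 0 < κ := by positivity
    refine ⟨e.restr s, restr_mem_maximalAtlas _ he hso, ?_, n, L, κ, hκ0, ?_⟩
    · rw [e.restr_source' s hso]
      exact ⟨hy₀, hys⟩
    intro f c R hR hf hf' hfe
    have hfe' : ∀ z ∈ closedBall c R, f z ∈ s := by
      intro z hz
      have := hfe z hz
      rw [e.restr_source' s hso] at this
      exact this.2
    have hre : ∀ x, (e.restr s) x = e x := fun x => rfl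
    simp only [hre]
    have hec : ContinuousOn (fun z => e (f z)) (closedBall c R) :=
      e.continuousOn.comp hf fun z hz => (hfe' z hz).1.1
    have hNc : ContinuousOn (fun z => ‖L (e (f z))‖ ^ 2) (closedBall c R) :=
      (L.continuous.comp_continuousOn hec).norm.pow 2
    have hKc : IsCompact (f '' closedBall c R) := (isCompact_closedBall c R).image_of_continuousOn hf
    refine submean_of_approx (u := fun z => b (f z) - κ * ‖L (e (f z))‖ ^ 2) hR
      ((hbc.comp_continuousOn hf).sub (continuousOn_const.mul hNc)) fun ε hε => ?_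
    obtain ⟨q, hq1, hq2⟩ := ((bus_uniform hb hKc hε).and
      (far_of_cocompact hU hKc L₀)).exists
    refine ⟨fun z => dist p q - dist (f z) q + -κ * ‖L (e (f z))‖ ^ 2, ?_, fun z hz => ?_, ?_⟩
    · exact (continuousOn_const.sub ((continuous_id.dist continuous_const).comp_continuousOn
        hf)).add (continuousOn_const.mul hNc)
    · have h1 := hq1 (f z) (mem_image_of_mem f hz)
      rw [abs_le] at h1 ⊢
      obtain ⟨h5, h6⟩ := h1
      constructor
      · linarith
      · linarith
    · refine submean_dist hR hf hf' he (fun z hz => (hfe' z hz).1.1) L (dist p q) fun z hz => ?_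
      have hzs := hfe' z (ball_subset_closedBall hz)
      have hqz : L₀ ≤ dist (f z) q := hq2 (f z) (mem_image_of_mem f (ball_subset_closedBall hz))
      refine ⟨-c₁, hstr (f z) hzs.2 q hqz, fun Y => ?_⟩
      have h1 : m * ‖Y‖ ^ 2 ≤ chartG e (e (f z)) Y Y :=
        hlow _ (ball_subset_closedBall hzs.1.2) Y
      have h2 : 4 * κ * ‖L Y‖ ^ 2 ≤ c₁ * chartG e (e (f z)) Y Y := by
        calc 4 * κ * ‖L Y‖ ^ 2 ≤ 4 * κ * (C ^ 2 * ‖Y‖ ^ 2) := by
              gcongr
              exact hLC Y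
          _ = c₁ * (m * ‖Y‖ ^ 2) := by
              rw [hκ]
              field_simp
          _ ≤ c₁ * chartG e (e (f z)) Y Y := by gcongr
      linarith

end mfd

end Vale.Agent.P253.R2.H618
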