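import Vale.Agent.P253.R2.H618.Exh5

/-! P253: criteria for Stein manifolds of nonnegative bisectional curvature: functions of class `C²`
and holomorphic maps to complex Euclidean spaces. -/

open scoped Manifold ContDiff Topology Bundle InnerProductSpace
open Set Metric Complex Filter Bundle IsManifold Asymptotics

set_option maxSynthPendingDepth 3
set_option linter.unusedSectionVars false

noncomputable section

namespace Vale.Agent.P253.R2.H618

open Vale.Agent.P253.Mfd Vale.Agent.P253.Mfd.LocalKahler H380.Stein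

section mfd

variable {E : Type*} [NormedAddCommGroup E] [NormedSpace ℂ E] [FiniteDimensional ℂ E]
  {M : Type*} [MetricSpace M] [ChartedSpace E M]
  [IsManifold 𝓘(ℂ, E) 1 M] [IsManifold 𝓘(ℝ, E) ∞ M]
  [RiemannianBundle (fun x : M => TangentSpace 𝓘(ℝ, E) x)]

variable (E) in
/-- the function `ψ` is of class `C²` and its Levi form `D²ψ(v, v) + D²ψ(iv, iv)` is at least
`4 c g(v, v)` in all holomorphic charts (`i∂∂̄ψ ≥ c ω`; for the flat metric of `ℂⁿ` the function
`|z|²` has `c = 1`) -/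
def LeviGe (ψ c : M → ℝ) : Prop :=
  ∀ e ∈ maximalAtlas 𝓘(ℂ, E) 1 M, ContDiffOn ℝ 2 (fun y => ψ (e.symm y)) e.target ∧
    ∀ z ∈ e.target, ∀ v, 4 * c (e.symm z) * chartMetric e z v v ≤ leviForm e ψ z v

theorem LeviGe.fourGe {ψ c : M → ℝ} (h : LeviGe E ψ c) (x : M) : FourGe (E := E) ψ x (c x) := by
  refine fourGe_of_C2 fun e he hx => ⟨(h e he).1, fun v => ?_⟩
  have := (h e he).2 (e x) (e.map_source hx) v
  rwa [e.left_inv hx] at this

theorem LeviGe.continuous {ψ c : M → ℝ} (h : LeviGe E ψ c) : Continuous ψ := by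
  rw [continuous_iff_continuousAt]
  intro x
  have he : chartAt E x ∈ maximalAtlas 𝓘(ℂ, E) 1 M := chart_mem_maximalAtlas _
  have hx : x ∈ (chartAt E x).source := mem_chart_source E _
  set e := chartAt E x
  have h1 : ContinuousAt (fun y => ψ (e.symm y)) (e x) :=
    (h e he).1.continuousOn.continuousAt (e.open_target.mem_nhds (e.map_source hx))
  have h2 : ContinuousAt (fun y => ψ (e.symm (e y))) x :=
    ContinuousAt.comp (g := fun y => ψ (e.symm y)) h1 (e.continuousAt hx)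
  refine h2.congr ?_
  filter_upwards [e.open_source.mem_nhds hx] with y hy
  rw [e.left_inv hy]

variable (E) in
/-- the differential of a map to a normed space, as a real linear map on the model space -/
def realDiff {H : Type*} [NormedAddCommGroup H] [NormedSpace ℝ H] (F : M → H) (x : M) :
    E →L[ℝ] H :=
  mfderiv 𝓘(ℝ, E) 𝓘(ℝ, H) F x

/-- the squared norm of a holomorphic map -/
theorem fourGe_normsq {H : Type*} [NormedAddCommGroup H] [InnerProductSpace ℂ H]
    [FiniteDimensional ℂ H] {F : M → H} (hF : MDifferentiable 𝓘(ℂ, E) 𝓘(ℂ, H) F) {c : M → ℝ}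
    (hc : ∀ x (v : TangentSpace 𝓘(ℝ, E) x),
      c x * inner ℝ v v ≤ ‖realDiff E F x v‖ ^ 2) (x : M) :
    FourGe (E := E) (fun x => ‖F x‖ ^ 2) x (c x) := by
  have hCE : CompleteSpace E := FiniteDimensional.complete ℂ E
  intro e he hx Y a ha η hη
  have hxt := e.map_source hx
  -- the map in the chart
  set τ : E → H := fun z => F (e.symm z) with hτ
  have hτd : DifferentiableOn ℂ τ e.target := by
    intro z hz
    have h1 : MDifferentiableAt 𝓘(ℂ, E) 𝓘(ℂ, E) e.symm z :=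
      ((contMDiffOn_symm_of_mem_maximalAtlas he).contMDiffAt
        (e.open_target.mem_nhds hz)).mdifferentiableAt (by simp)
    exact ((hF _).comp z h1).differentiableAt.differentiableWithinAt
  set B : H := fderiv ℝ τ (e x) Y with hB
  have hs : IsSmall (fun (r : ℝ) (k : Fin 4) => τ (e x + (r • (I ^ (k:ℕ) • ((1:ℂ) • Y)) +
      (e (a r k) - e x - r • (I ^ (k:ℕ) • ((1:ℂ) • Y))))) - τ (e x) -
        r • (I ^ (k:ℕ) • ((1:ℂ) • B))) :=
    isSmall_mapW e.open_target hτd hxt Y (w := fun _ => 1) (fun _ => norm_one) ha.2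
  -- comparison of the derivatives
  have hBc : c x * chartG e (e x) Y Y ≤ ‖B‖ ^ 2 := by
    have her := mem_maximalAtlas_real he
    have h1 : MDifferentiableAt 𝓘(ℝ, E) 𝓘(ℝ, E) e.symm (e x) :=
      ((contMDiffOn_symm_of_mem_maximalAtlas her).contMDiffAt
        (e.open_target.mem_nhds hxt)).mdifferentiableAt (by simp)
    have h2 : MDifferentiableAt 𝓘(ℝ, E) 𝓘(ℝ, H) F (e.symm (e x)) := by
      have h3 := (hF (e.symm (e x))).hasMFDerivAt
      have h4 : HasMFDerivAt 𝓘(ℝ, E) 𝓘(ℝ, H) F (e.symm (e x))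
          ((mfderiv 𝓘(ℂ, E) 𝓘(ℂ, H) F (e.symm (e x)) : E →L[ℂ] H).restrictScalars ℝ :
            E →L[ℝ] H) := ⟨h3.1, h3.2.restrictScalars ℝ⟩
      exact h4.mdifferentiableAt
    have h3 : mfderiv 𝓘(ℝ, E) 𝓘(ℝ, H) τ (e x) = (mfderiv 𝓘(ℝ, E) 𝓘(ℝ, H) F (e.symm (e x))).comp
        (mfderiv 𝓘(ℝ, E) 𝓘(ℝ, E) e.symm (e x)) := mfderiv_comp (e x) h2 h1
    have h4 : B = realDiff E F (e.symm (e x))
        (mfderiv 𝓘(ℝ, E) 𝓘(ℝ, E) e.symm (e x) Y) := by
      rw [hB, ← mfderiv_eq_fderiv, h3]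
      rfl
    have h5 := hc (e.symm (e x)) (mfderiv 𝓘(ℝ, E) 𝓘(ℝ, E) e.symm (e x) Y)
    rw [← h4] at h5
    have h6 : c (e.symm (e x)) = c x := by rw [e.left_inv hx]
    rw [h6] at h5
    rw [chartG_apply]
    exact h5
  have h7 := (four_normsq (F x) B hs).def hη
  filter_upwards [h7, ha.1] with r hr1 hr2
  have hr0 : 0 ≤ r ^ 2 := by positivity
  rw [Real.norm_of_nonneg hr0, Real.norm_eq_abs] at hr1
  have h8 := (abs_le.1 hr1).1
  have h9 : ∀ k : Fin 4, F x + (r • (I ^ (k:ℕ) • B) + (τ (e x + (r • (I ^ (k:ℕ) • ((1:ℂ) • Y)) +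
      (e (a r k) - e x - r • (I ^ (k:ℕ) • ((1:ℂ) • Y))))) - τ (e x) -
        r • (I ^ (k:ℕ) • ((1:ℂ) • B)))) = F (a r k) := by
    intro k
    have e1 : e x + (r • (I ^ (k:ℕ) • ((1:ℂ) • Y)) +
        (e (a r k) - e x - r • (I ^ (k:ℕ) • ((1:ℂ) • Y)))) = e (a r k) := by abel
    rw [e1, one_smul]
    simp only [hτ]
    rw [e.left_inv hx, e.left_inv (hr2 k)]
    abel
  simp only [h9] at h8
  have h10 := mul_le_mul_of_nonneg_left hBc hr0
  have e2 : r ^ 2 * (4 * c x * chartG e (e x) Y Y - η) =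
      4 * (r ^ 2 * (c x * chartG e (e x) Y Y)) - η * r ^ 2 := by ring
  rw [e2]
  linarith

variable [IsContMDiffRiemannianBundle 𝓘(ℝ, E) ∞ E (fun x : M => TangentSpace 𝓘(ℝ, E) x)]
  [IsRiemannianManifold 𝓘(ℝ, E) M]

/-- Criteria for the existence of strictly plurisubharmonic exhaustion functions. -/
theorem criteria (hK : IsKahler E M) [CompleteSpace M] [ConnectedSpace M]
    (hnn : ∀ x : M, NonnegBisectionalAt E x) (p : M) :
    (∀ (ψ : M → ℝ) (a C : ℝ), LeviGe E ψ (fun _ => 1) → a < 1 →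
      (∀ x, -C - a * dist p x ^ 2 ≤ ψ x) → HasSpshExhaustion E M) ∧
    (∀ (ψ : M → ℝ) (lam : ℝ → ℝ), Continuous lam → (∀ t, 0 ≤ t → 0 < lam t) →
      AntitoneOn lam (Ici 0) → LeviGe E ψ (fun x => lam (dist p x)) →
      Tendsto (fun x => ψ x + 1 / 320 * ∫ s in (0:ℝ)..dist p x, s * lam s) (cocompact M) atTop →
      HasSpshExhaustion E M) ∧
    (∀ (n : ℕ) (F : M → EuclideanSpace ℂ (Fin n)) (lam : ℝ → ℝ),
      MDifferentiable 𝓘(ℂ, E) 𝓘(ℂ, EuclideanSpace ℂ (Fin n)) F → Continuous lam →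
      (∀ t, 0 ≤ t → 0 < lam t) → AntitoneOn lam (Ici 0) →
      (∀ x (v : TangentSpace 𝓘(ℝ, E) x), lam (dist p x) * inner ℝ v v ≤ ‖realDiff E F x v‖ ^ 2) →
      Tendsto (fun r : ℝ => ∫ s in (0:ℝ)..r, s * lam s) atTop atTop →
      HasSpshExhaustion E M) := by
  have hprop : ProperSpace M := properSpace_riemannian E M
  refine ⟨fun ψ a C h ha hlow => ?_, fun ψ lam hlc hl0 hla h hgrow => ?_,
    fun n F lam hF hlc hl0 hla hc hgrow => ?_⟩
  · exact exhaustion_of_strong hK hnn p h.continuous h.fourGe ha hlow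
  · exact exhaustion_of_decay hK hnn p h.continuous hlc hl0 hla h.fourGe hgrow
  · have hcont : Continuous fun x => ‖F x‖ ^ 2 := hF.continuous.norm.pow 2
    refine exhaustion_of_decay (ψ := fun x => ‖F x‖ ^ 2) hK hnn p hcont hlc hl0 hla
      (fourGe_normsq hF hc) ?_
    have h1 : Tendsto (fun x => dist p x) (cocompact M) atTop := by
      simpa only [dist_comm p] using tendsto_dist_right_cocompact_atTop p
    have h2 : Tendsto (fun x => 1 / 320 * ∫ s in (0:ℝ)..dist p x, s * lam s)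
        (cocompact M) atTop := (hgrow.comp h1).const_mul_atTop (by norm_num)
    refine tendsto_atTop_mono (fun x => ?_) h2
    have h3 : 0 ≤ ‖F x‖ ^ 2 := by positivity
    linarith

end mfd

end Vale.Agent.P253.R2.H618
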