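import Mathlib

/-!
# Submodules of germs of `ℂⁿ`-valued holomorphic functions are closed

`P` is a property of germs at `0` of functions `ℂ → (Fin n → ℂ)`, closed under sums and under
multiplication by functions analytic at `0`.  If `F j` are holomorphic on `ball 0 r`, `P (F j)` for
all `j` and `F j → f` uniformly on `ball 0 r`, then `P f`.
-/

open Metric Set Filter Topology Function

namespace Vale.Agent.P253.R2.H618

/-- Division by `z`. -/
noncomputable abbrev D (g : ℂ → ℂ) : ℂ → ℂ := dslope g 0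

lemma D_differentiableOn {r : ℝ} (hr : 0 < r) {g : ℂ → ℂ}
    (hg : DifferentiableOn ℂ g (ball 0 r)) : DifferentiableOn ℂ (D g) (ball 0 r) :=
  (Complex.differentiableOn_dslope (ball_mem_nhds 0 hr)).2 hg

lemma D_sub {r : ℝ} (hr : 0 < r) {g h : ℂ → ℂ}
    (hg : DifferentiableOn ℂ g (ball 0 r)) (hh : DifferentiableOn ℂ h (ball 0 r)) (z : ℂ) :
    D (fun z => g z - h z) z = D g z - D h z := by
  by_cases hz : z = 0
  · subst hz
    have h1 := (hg.differentiableAt (ball_mem_nhds 0 hr))
    have h2 := (hh.differentiableAt (ball_mem_nhds 0 hr))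
    simpa [D] using deriv_fun_sub h1 h2
  · simp only [D, dslope_of_ne _ hz, slope_def_field]
    ring

lemma D_bound {r : ℝ} (hr : 0 < r) {g : ℂ → ℂ} {ε : ℝ}
    (hg : DifferentiableOn ℂ g (ball 0 r)) (hε : ∀ z ∈ ball (0 : ℂ) r, ‖g z‖ ≤ ε)
    {z : ℂ} (hz : z ∈ ball (0 : ℂ) r) : ‖D g z‖ ≤ 2 * ε / r := by
  refine Complex.norm_dslope_le_div_of_mapsTo_ball hg (fun w hw => ?_) hz
  rw [mem_closedBall, dist_eq_norm]
  have := norm_sub_le (g w) (g 0)
  have h1 := hε w hw
  have h2 := hε 0 (mem_ball_self hr)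
  linarith

lemma D_tendsto {r : ℝ} (hr : 0 < r) {F : ℕ → ℂ → ℂ} {f : ℂ → ℂ}
    (hF : ∀ j, DifferentiableOn ℂ (F j) (ball 0 r)) (hf : DifferentiableOn ℂ f (ball 0 r))
    (hlim : TendstoUniformlyOn F f atTop (ball 0 r)) :
    TendstoUniformlyOn (fun j => D (F j)) (D f) atTop (ball 0 r) := by
  rw [Metric.tendstoUniformlyOn_iff] at hlim ⊢
  intro ε hε
  have hε' : 0 < ε * r / 4 := by positivity
  filter_upwards [hlim _ hε'] with j hj z hz
  have hb := D_bound (ε := ε * r / 4) hr (hf.sub (hF j))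
    (fun w hw => by have := (hj w hw).le; rwa [dist_eq_norm] at this) hz
  have he : D (fun z => f z - F j z) z = D f z - D (F j) z := D_sub hr hf (hF j) z
  have he' : D (f - F j) z = D f z - D (F j) z := he
  rw [he'] at hb
  rw [dist_eq_norm]
  have : 2 * (ε * r / 4) / r = ε / 2 := by field_simp; ring
  rw [this] at hb
  linarith

lemma Diter_differentiableOn {r : ℝ} (hr : 0 < r) {g : ℂ → ℂ}
    (hg : DifferentiableOn ℂ g (ball 0 r)) (k : ℕ) :
    DifferentiableOn ℂ ((swap dslope 0)^[k] g) (ball 0 r) := by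
  induction k with
  | zero => simpa using hg
  | succ k ih => rw [iterate_succ_apply']; exact D_differentiableOn hr ih

lemma Diter_tendsto {r : ℝ} (hr : 0 < r) {F : ℕ → ℂ → ℂ} {f : ℂ → ℂ}
    (hF : ∀ j, DifferentiableOn ℂ (F j) (ball 0 r)) (hf : DifferentiableOn ℂ f (ball 0 r))
    (hlim : TendstoUniformlyOn F f atTop (ball 0 r)) (k : ℕ) :
    TendstoUniformlyOn (fun j => (swap dslope 0)^[k] (F j)) ((swap dslope 0)^[k] f) atTop
      (ball 0 r) := by
  induction k with
  | zero => simpa using hlim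
  | succ k ih =>
    simp only [iterate_succ_apply']
    exact D_tendsto hr (fun j => Diter_differentiableOn hr (hF j) k)
      (Diter_differentiableOn hr hf k) ih

lemma Diter_analyticAt {g : ℂ → ℂ} (hg : AnalyticAt ℂ g 0) (k : ℕ) :
    AnalyticAt ℂ ((swap dslope 0)^[k] g) 0 := by
  obtain ⟨p, hp⟩ := hg
  exact ⟨_, hp.has_fpower_series_iterate_dslope_fslope k⟩

lemma eventually_zero_of_Diter {g : ℂ → ℂ} (hg : AnalyticAt ℂ g 0)
    (h : ∀ k, (swap dslope 0)^[k] g 0 = 0) : ∀ᶠ z in 𝓝 (0 : ℂ), g z = 0 := by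
  obtain ⟨p, hp⟩ := hg
  rw [hp.locally_zero_iff]
  by_contra hne
  exact hp.iterate_dslope_fslope_ne_zero hne (h _)

lemma eqOn_zero_of_eventually {r : ℝ} (hr : 0 < r) {g : ℂ → ℂ}
    (hg : DifferentiableOn ℂ g (ball 0 r)) (h : ∀ᶠ z in 𝓝 (0 : ℂ), g z = 0) :
    ∀ z ∈ ball (0 : ℂ) r, g z = 0 := by
  have h1 : AnalyticOnNhd ℂ g (ball 0 r) := hg.analyticOnNhd isOpen_ball
  exact h1.eqOn_zero_of_preconnected_of_eventuallyEq_zero
    (convex_ball (0 : ℂ) r).isPreconnected (mem_ball_self hr) h

lemma analyticAt_pi' {n : ℕ} {g : ℂ → Fin n → ℂ} (hg : AnalyticAt ℂ g 0) (i : Fin n) :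
    AnalyticAt ℂ (fun z => g z i) 0 := by
  have := (ContinuousLinearMap.proj (R := ℂ) (φ := fun _ : Fin n => ℂ) i).analyticAt (g 0)
  exact this.comp hg

lemma differentiableOn_coord {n : ℕ} {s : Set ℂ} {g : ℂ → Fin n → ℂ}
    (hg : DifferentiableOn ℂ g s) (i : Fin n) : DifferentiableOn ℂ (fun z => g z i) s :=
  (differentiableOn_pi.1 hg) i

lemma tendsto_coord {n : ℕ} {s : Set ℂ} {F : ℕ → ℂ → Fin n → ℂ} {f : ℂ → Fin n → ℂ}
    (h : TendstoUniformlyOn F f atTop s) (i : Fin n) :
    TendstoUniformlyOn (fun j z => F j z i) (fun z => f z i) atTop s := by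
  rw [Metric.tendstoUniformlyOn_iff] at h ⊢
  intro ε hε
  filter_upwards [h ε hε] with j hj z hz
  exact lt_of_le_of_lt (dist_le_pi_dist _ _ i) (hj z hz)

/-- The induction. -/
theorem closed_aux {n : ℕ} (P : (ℂ → Fin n → ℂ) → Prop)
    (hgerm : ∀ f g : ℂ → Fin n → ℂ, f =ᶠ[𝓝 0] g → P f → P g)
    (hadd : ∀ f g : ℂ → Fin n → ℂ, P f → P g → P (fun z => f z + g z))
    (hmul : ∀ (a : ℂ → ℂ) (f : ℂ → Fin n → ℂ), AnalyticAt ℂ a 0 → P f → P (fun z => a z • f z))
    (m : ℕ) : ∀ (r : ℝ), 0 < r → ∀ (F : ℕ → ℂ → Fin n → ℂ) (f : ℂ → Fin n → ℂ),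
      (∀ j, DifferentiableOn ℂ (F j) (ball 0 r)) → (∀ j, P (F j)) →
      TendstoUniformlyOn F f atTop (ball 0 r) →
      (∀ j, ∀ i : Fin n, m ≤ (i : ℕ) → ∀ z ∈ ball (0 : ℂ) r, F j z i = 0) → P f := by
  induction m with
  | zero =>
    intro r hr F f hF hP hlim h0
    refine hgerm (F 0) f ?_ (hP 0)
    filter_upwards [ball_mem_nhds (0 : ℂ) hr] with z hz
    have h1 : F 0 z = 0 := by
      funext i; exact h0 0 i (Nat.zero_le _) z hz
    have h2 : Tendsto (fun j => F j z) atTop (𝓝 (f z)) := hlim.tendsto_at hz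
    have h3 : (fun j => F j z) = fun _ => (0 : Fin n → ℂ) := by
      funext j i; exact h0 j i (Nat.zero_le _) z hz
    rw [h3] at h2
    rw [h1]
    exact tendsto_nhds_unique tendsto_const_nhds h2
  | succ m ih =>
    intro r hr F f hF hP hlim h0
    by_cases hm : n ≤ m
    · refine ih r hr F f hF hP hlim (fun j i hi => ?_)
      exact absurd (lt_of_lt_of_le i.2 (hm.trans hi)) (lt_irrefl _)
    push Not at hm
    set i0 : Fin n := ⟨m, hm⟩ with hi0
    have hf : DifferentiableOn ℂ f (ball 0 r) :=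
      hlim.tendstoLocallyUniformlyOn.differentiableOn (Eventually.of_forall hF) isOpen_ball
    by_cases hS : ∃ k : ℕ, ∃ e : ℂ → Fin n → ℂ, P e ∧ AnalyticAt ℂ e 0 ∧
        (∀ i : Fin n, i0 < i → ∀ᶠ z in 𝓝 (0 : ℂ), e z i = 0) ∧
        (swap dslope 0)^[k] (fun z => e z i0) 0 ≠ 0
    · classical
      obtain ⟨e, heP, hea, hei, hek⟩ := Nat.find_spec hS
      set k := Nat.find hS with hk
      have hmin : ∀ l < k, ∀ e : ℂ → Fin n → ℂ, P e → AnalyticAt ℂ e 0 →
          (∀ i : Fin n, i0 < i → ∀ᶠ z in 𝓝 (0 : ℂ), e z i = 0) →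
          (swap dslope 0)^[l] (fun z => e z i0) 0 = 0 := by
        intro l hl e' h1 h2 h3
        by_contra h4
        exact Nat.find_min hS hl ⟨e', h1, h2, h3, h4⟩
      -- the unit
      set u : ℂ → ℂ := (swap dslope 0)^[k] (fun z => e z i0) with hu
      have hua : AnalyticAt ℂ u 0 := Diter_analyticAt (analyticAt_pi' hea i0) k
      have hezk : ∀ z, e z i0 = z ^ k * u z := by
        intro z
        have := pow_sub_smul_iterate_dslope_of_zero (f := fun z => e z i0) (a := (0 : ℂ)) k
          (fun l hl => hmin l hl e heP hea hei) z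
        rw [← this]; simp [u]
      set e' : ℂ → Fin n → ℂ := fun z => (u z)⁻¹ • e z with he'
      have he'P : P e' := hmul _ _ (hua.inv hek) heP
      have he'a : AnalyticAt ℂ e' 0 := (hua.inv hek).smul hea
      -- the quotients
      set h : ℕ → ℂ → ℂ := fun j => (swap dslope 0)^[k] (fun z => F j z i0) with hh
      set hI : ℂ → ℂ := (swap dslope 0)^[k] (fun z => f z i0) with hhI
      have hhd : ∀ j, DifferentiableOn ℂ (h j) (ball 0 r) := fun j =>
        Diter_differentiableOn hr (differentiableOn_coord (hF j) i0) k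
      have hhId : DifferentiableOn ℂ hI (ball 0 r) :=
        Diter_differentiableOn hr (differentiableOn_coord hf i0) k
      have hht : TendstoUniformlyOn h hI atTop (ball 0 r) :=
        Diter_tendsto hr (fun j => differentiableOn_coord (hF j) i0)
          (differentiableOn_coord hf i0) (tendsto_coord hlim i0) k
      have hFk : ∀ j z, F j z i0 = z ^ k * h j z := by
        intro j z
        have := pow_sub_smul_iterate_dslope_of_zero (f := fun z => F j z i0) (a := (0 : ℂ)) k
          (fun l hl => hmin l hl (F j) (hP j)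
            ((hF j).analyticAt (ball_mem_nhds 0 hr)) (fun i hi => by
              filter_upwards [ball_mem_nhds (0 : ℂ) hr] with z hz
              exact h0 j i (by
                have : (i0 : ℕ) < i := hi
                simpa [hi0] using this) z hz)) z
        rw [← this]; simp [h]
      -- a small ball
      have hev : ∀ᶠ z in 𝓝 (0 : ℂ), z ∈ ball (0 : ℂ) r ∧ AnalyticAt ℂ e' z ∧ u z ≠ 0 ∧
          ‖e' z‖ ≤ ‖e' 0‖ + 1 ∧ ∀ i : Fin n, i0 < i → e z i = 0 := by
        have a1 := ball_mem_nhds (0 : ℂ) hr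
        have a2 := he'a.eventually_analyticAt
        have a3 := hua.continuousAt.eventually_ne hek
        have a4 : ∀ᶠ z in 𝓝 (0 : ℂ), ‖e' z‖ < ‖e' 0‖ + 1 :=
          he'a.continuousAt.norm.eventually (gt_mem_nhds (lt_add_one _))
        have a5 : ∀ᶠ z in 𝓝 (0 : ℂ), ∀ i : Fin n, i0 < i → e z i = 0 := by
          rw [eventually_all]
          intro i
          by_cases hi : i0 < i
          · filter_upwards [hei i hi] with z hz _ using hz
          · exact Eventually.of_forall fun z hz => absurd hz hi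
        filter_upwards [a1, a2, a3, a4, a5] with z b1 b2 b3 b4 b5 using ⟨b1, b2, b3, b4.le, b5⟩
      obtain ⟨ρ, hρ, hball⟩ := Metric.eventually_nhds_iff_ball.1 hev
      have hsub : ball (0 : ℂ) ρ ⊆ ball 0 r := fun z hz => (hball z hz).1
      set C : ℝ := ‖e' 0‖ + 1 with hC
      have hCpos : 0 < C := by positivity
      set G : ℕ → ℂ → Fin n → ℂ := fun j z => F j z + (-h j z) • e' z with hG
      set GI : ℂ → Fin n → ℂ := fun z => f z + (-hI z) • e' z with hGI
      have hanh : ∀ j, AnalyticAt ℂ (h j) 0 := fun j =>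
        (hhd j).analyticAt (ball_mem_nhds 0 hr)
      have hGP : ∀ j, P (G j) := fun j => hadd _ _ (hP j) (hmul _ _ (hanh j).neg he'P)
      have hGd : ∀ j, DifferentiableOn ℂ (G j) (ball 0 ρ) := fun j =>
        ((hF j).mono hsub).add ((((hhd j).mono hsub).neg).smul
          (fun z hz => ((hball z hz).2.1.differentiableAt).differentiableWithinAt))
      have hGt : TendstoUniformlyOn G GI atTop (ball 0 ρ) := by
        rw [Metric.tendstoUniformlyOn_iff] at hlim hht ⊢
        intro ε hε
        filter_upwards [hlim (ε / 2) (by positivity), hht (ε / (2 * C)) (by positivity)] with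
          j h1 h2 z hz
        have h1' := h1 z (hsub hz)
        have h2' := h2 z (hsub hz)
        rw [dist_eq_norm] at h1' h2' ⊢
        have heq : GI z - G j z = (f z - F j z) - (hI z - h j z) • e' z := by
          simp only [GI, G]; module
        rw [heq]
        have h3 : ‖(hI z - h j z) • e' z‖ ≤ ε / (2 * C) * C := by
          rw [norm_smul]
          exact mul_le_mul h2'.le (hball z hz).2.2.2.1 (norm_nonneg _) (by positivity)
        have h4 : ε / (2 * C) * C = ε / 2 := by field_simp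
        have := norm_sub_le (f z - F j z) ((hI z - h j z) • e' z)
        linarith
      have hG0 : ∀ j, ∀ i : Fin n, m ≤ (i : ℕ) → ∀ z ∈ ball (0 : ℂ) ρ, G j z i = 0 := by
        intro j i hi z hz
        obtain ⟨-, -, hu0, -, he0⟩ := hball z hz
        rcases eq_or_lt_of_le hi with hi' | hi'
        · have : i = i0 := by ext; simp [hi0, ← hi']
          subst this
          simp only [G, e', Pi.add_apply, Pi.smul_apply, smul_eq_mul]
          rw [hFk j z, hezk z]
          field_simp
          ring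
        · have hlt : i0 < i := by
            show (i0 : ℕ) < i
            simpa [hi0] using hi'
          simp only [G, e', Pi.add_apply, Pi.smul_apply, smul_eq_mul]
          rw [h0 j i hi' z (hsub hz), he0 i hlt]
          simp
      have hPG : P GI := ih ρ hρ G GI hGd hGP hGt hG0
      have hfin := hadd _ _ hPG (hmul hI e' (hhId.analyticAt (ball_mem_nhds 0 hr)) he'P)
      refine hgerm _ _ (Eventually.of_forall fun z => ?_) hfin
      simp only [GI]
      module
    · push Not at hS
      refine ih r hr F f hF hP hlim (fun j i hi z hz => ?_)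
      rcases eq_or_lt_of_le hi with hi' | hi'
      · have : i = i0 := by ext; simp [hi0, ← hi']
        subst this
        refine eqOn_zero_of_eventually hr (differentiableOn_coord (hF j) i0) ?_ z hz
        have hFa : AnalyticAt ℂ (F j) 0 := (hF j).analyticAt (ball_mem_nhds 0 hr)
        refine eventually_zero_of_Diter (analyticAt_pi' hFa i0) (fun k => ?_)
        exact hS k (F j) (hP j) hFa (fun i hi => by
          filter_upwards [ball_mem_nhds (0 : ℂ) hr] with z hz
          exact h0 j i (by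
            have : (i0 : ℕ) < i := hi
            simpa [hi0] using this) z hz)
      · exact h0 j i hi' z hz

/-- **M3.**  A property of germs at `0` of functions `ℂ → (Fin n → ℂ)` that is closed under sums
and under multiplication by functions analytic at `0` passes to uniform limits of holomorphic
functions on a ball. -/
theorem closed_of_submodule {n : ℕ} (P : (ℂ → Fin n → ℂ) → Prop)
    (hgerm : ∀ f g : ℂ → Fin n → ℂ, f =ᶠ[𝓝 0] g → P f → P g)
    (hadd : ∀ f g : ℂ → Fin n → ℂ, P f → P g → P (fun z => f z + g z))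
    (hmul : ∀ (a : ℂ → ℂ) (f : ℂ → Fin n → ℂ), AnalyticAt ℂ a 0 → P f → P (fun z => a z • f z))
    {r : ℝ} (hr : 0 < r) {F : ℕ → ℂ → Fin n → ℂ} {f : ℂ → Fin n → ℂ}
    (hF : ∀ j, DifferentiableOn ℂ (F j) (ball 0 r)) (hP : ∀ j, P (F j))
    (hlim : TendstoUniformlyOn F f atTop (ball 0 r)) : P f :=
  closed_aux P hgerm hadd hmul n r hr F f hF hP hlim
    (fun _ i hi => absurd (lt_of_lt_of_le i.2 hi) (lt_irrefl _))

end Vale.Agent.P253.R2.H618
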