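import Vale.Agent.P253.R2.H618.Rad
import Vale.Agent.P253.R2.H380.Touch
import Vale.Agent.P253.R2.H922.Dom

/-! P253: plurisubharmonicity from four point sums; functions of class `C²`. -/

open scoped Manifold ContDiff Topology Bundle
open Set Metric Complex Filter Bundle IsManifold Asymptotics

set_option maxSynthPendingDepth 3
set_option linter.unusedSectionVars false

noncomputable section

namespace Vale.Agent.P253.R2.H618

open Vale.Agent.P253.Mfd Vale.Agent.P253.Mfd.LocalKahler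

section taylor

variable {F : Type*} [NormedAddCommGroup F] [NormedSpace ℂ F] [FiniteDimensional ℂ F]

/-- four point sums of a real function of class `C²` -/
theorem four_taylor {V : Set F} (hV : IsOpen V) {q : F → ℝ} (hq : ContDiffOn ℝ 2 q V) {z : F}
    (hz : z ∈ V) (Y : F) {ξ : ℝ → Fin 4 → F} (hξ : IsSmall ξ) :
    (fun r : ℝ => ∑ k : Fin 4, q (z + (r • (I ^ (k:ℕ) • Y) + ξ r k)) - 4 * q z
      - r ^ 2 * (fderiv ℝ (fderiv ℝ q) z Y Y + fderiv ℝ (fderiv ℝ q) z (I • Y) (I • Y)))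
      =o[𝓝[>] (0:ℝ)] (fun r => r ^ 2) := by
  obtain ⟨hO, ho⟩ := isSmall_iff.1 hξ
  set T := fderiv ℝ q z with hT
  set Q := fderiv ℝ (fderiv ℝ q) z with hQ
  have htay : (fun h : F => q (z + h) - q z - T h - (2⁻¹ : ℝ) • Q h h) =o[𝓝 0]
      (fun h => ‖h‖ ^ 2) := by
    rw [isLittleO_iff]
    intro c hc
    obtain ⟨δ, hδ, H⟩ := uniform_taylor_vec hV (isCompact_singleton (x := z))
      (singleton_subset_iff.2 hz) hq hc
    filter_upwards [closedBall_mem_nhds (0:F) hδ] with h hh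
    have := (H z rfl h (by simpa using hh)).2
    rwa [Real.norm_of_nonneg (show 0 ≤ ‖h‖ ^ 2 by positivity)]
  set h : Fin 4 → ℝ → F := fun k r => r • (I ^ (k:ℕ) • Y) + ξ r k with hh
  have hid : (fun r : ℝ => r) =o[𝓝[>] (0:ℝ)] (fun _ => (1:ℝ)) := by
    rw [isLittleO_one_iff]
    exact tendsto_id.mono_left nhdsWithin_le_nhds
  have hr2 : (fun r : ℝ => r ^ 2) =O[𝓝[>] (0:ℝ)] (fun r => r) := by
    have := (isBigO_refl (fun r : ℝ => r) (𝓝[>] (0:ℝ))).mul hid.isBigO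
    simpa [sq] using this
  have hr3 : (fun r : ℝ => r * r ^ 2) =o[𝓝[>] (0:ℝ)] (fun r => r ^ 2) := by
    have := hid.mul_isBigO (isBigO_refl (fun r : ℝ => r ^ 2) (𝓝[>] (0:ℝ)))
    simpa using this
  have hlin : ∀ k : Fin 4, (fun r : ℝ => r • (I ^ (k:ℕ) • Y)) =O[𝓝[>] (0:ℝ)] (fun r => r) := by
    intro k
    refine IsBigO.of_bound ‖Y‖ (Eventually.of_forall fun r => ?_)
    rw [norm_smul, LocalKahler.norm_I_pow_smul, mul_comm]
  have hhO : ∀ k, h k =O[𝓝[>] (0:ℝ)] (fun r => r) := fun k =>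
    (hlin k).add ((hO k).trans hr2)
  have hht : ∀ k, Tendsto (h k) (𝓝[>] (0:ℝ)) (𝓝 0) := by
    intro k
    rw [← isLittleO_one_iff ℝ]
    exact (hhO k).trans_isLittleO hid
  have hrem : ∀ k, (fun r => q (z + h k r) - q z - T (h k r) - (2⁻¹ : ℝ) • Q (h k r) (h k r))
      =o[𝓝[>] (0:ℝ)] (fun r => r ^ 2) := by
    intro k
    have h1 := htay.comp_tendsto (hht k)
    refine h1.trans_isBigO ?_
    have := ((hhO k).norm_left).pow 2
    exact this
  have hBil : ∀ (u v : ℝ → F) (f g : ℝ → ℝ), u =O[𝓝[>] (0:ℝ)] f → v =O[𝓝[>] (0:ℝ)] g →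
      (fun r => Q (u r) (v r)) =O[𝓝[>] (0:ℝ)] (fun r => f r * g r) := by
    intro u v f g hu hv
    have h1 : (fun r => Q (u r) (v r)) =O[𝓝[>] (0:ℝ)] (fun r => ‖u r‖ * ‖v r‖) := by
      refine IsBigO.of_bound ‖Q‖ (Eventually.of_forall fun r => ?_)
      rw [Real.norm_of_nonneg (show 0 ≤ ‖u r‖ * ‖v r‖ by positivity), ← mul_assoc]
      exact Q.le_opNorm₂ _ _
    exact h1.trans (hu.norm_left.mul hv.norm_left)
  -- the quadratic part
  have hquad : ∀ r : ℝ, ∑ k : Fin 4, Q (r • (I ^ (k:ℕ) • Y)) (r • (I ^ (k:ℕ) • Y)) =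
      2 * (r ^ 2 * (Q Y Y + Q (I • Y) (I • Y))) := by
    intro r
    rw [Fin.sum_univ_four]
    have h3 : (I : ℂ) ^ 3 = -I := by rw [pow_succ, I_sq]; ring
    simp only [Fin.val_zero, Fin.val_one, Fin.val_two, pow_zero, pow_one, I_sq,
      show ((3 : Fin 4) : ℕ) = 3 from rfl, h3, neg_smul, one_smul, map_smul, map_neg,
      smul_apply, neg_apply, neg_neg, smul_neg, smul_eq_mul]
    ring
  have hdec : ∀ r : ℝ, ∑ k : Fin 4, q (z + (r • (I ^ (k:ℕ) • Y) + ξ r k)) - 4 * q z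
      - r ^ 2 * (Q Y Y + Q (I • Y) (I • Y)) =
      (T (∑ k, ξ r k) + (2⁻¹ : ℝ) * ∑ k : Fin 4,
          (Q (r • (I ^ (k:ℕ) • Y)) (ξ r k) + (Q (ξ r k) (r • (I ^ (k:ℕ) • Y))
            + Q (ξ r k) (ξ r k))))
        + ∑ k, (q (z + h k r) - q z - T (h k r) - (2⁻¹ : ℝ) • Q (h k r) (h k r)) := by
    intro r
    have e1 : ∀ k : Fin 4, q (z + (r • (I ^ (k:ℕ) • Y) + ξ r k)) = (q (z + h k r) - q z - T (h k r)
        - (2⁻¹ : ℝ) • Q (h k r) (h k r)) + q z + T (r • (I ^ (k:ℕ) • Y)) + T (ξ r k)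
        + (2⁻¹ : ℝ) * (Q (r • (I ^ (k:ℕ) • Y)) (r • (I ^ (k:ℕ) • Y)))
        + (2⁻¹ : ℝ) * (Q (r • (I ^ (k:ℕ) • Y)) (ξ r k) + (Q (ξ r k) (r • (I ^ (k:ℕ) • Y))
            + Q (ξ r k) (ξ r k))) := by
      intro k
      simp only [hh, map_add, add_apply, smul_eq_mul]
      ring
    have e2 : ∑ k : Fin 4, T (r • (I ^ (k:ℕ) • Y)) = 0 := by
      rw [← map_sum, ← Finset.smul_sum, Vale.Agent.P253.Mfd.sum_I_pow_smul, smul_zero, map_zero]
    simp only [e1, Finset.sum_add_distrib, e2, ← Finset.mul_sum, hquad, map_sum]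
    simp only [Finset.sum_const, Finset.card_univ, Fintype.card_fin, nsmul_eq_mul]
    push_cast
    ring
  simp only [hdec]
  refine (IsLittleO.add ?_ ?_).add (IsLittleO.fun_sum fun k _ => hrem k)
  · exact (T.isBigO_comp _ _).trans_isLittleO ho
  · refine IsLittleO.const_mul_left (IsLittleO.fun_sum fun k _ => ?_) _
    refine IsLittleO.add ?_ (IsLittleO.add ?_ ?_)
    · exact (hBil _ _ _ _ (hlin k) (hO k)).trans_isLittleO hr3
    · have := hBil _ _ _ _ (hO k) (hlin k)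
      refine this.trans_isLittleO ?_
      simpa [mul_comm] using hr3
    · have := hBil _ _ _ _ (hO k) ((hO k).trans hr2)
      refine this.trans_isLittleO ?_
      simpa [mul_comm] using hr3

end taylor

section plane

theorem smul_I_pow_one (k : ℕ) : (I ^ k • ((1:ℂ) • (1:ℂ))) = I ^ k := by simp

/-- four point sums of polynomials -/
theorem four_poly (p : Polynomial ℂ) (z₀ : ℂ) {η : ℝ} (hη : 0 < η) :
    ∀ᶠ r in 𝓝[>] (0:ℝ), ∑ k : Fin 4, (p.eval (z₀ + r • (I ^ (k:ℕ)))).re ≤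
      4 * (p.eval z₀).re + η * r ^ 2 := by
  have h1 := isSmall_mapW (E := ℂ) isOpen_univ (τ := fun z => p.eval z)
    p.differentiable.differentiableOn (mem_univ z₀) (1:ℂ) (w := fun _ => 1)
    (fun _ => norm_one) (isSmall_zero (E := ℂ))
  obtain ⟨-, ho⟩ := isSmall_iff.1 h1
  have h2 := ho.def hη
  filter_upwards [h2] with r hr
  rw [Finset.sum_sub_distrib, Finset.sum_sub_distrib, ← Finset.smul_sum,
    Vale.Agent.P253.Mfd.sum_I_pow_smul, smul_zero, sub_zero] at hr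
  simp only [smul_I_pow_one, add_zero, Finset.sum_const, Finset.card_univ, Fintype.card_fin,
    nsmul_eq_mul] at hr
  rw [Real.norm_of_nonneg (show 0 ≤ r ^ 2 by positivity)] at hr
  have h3 := (Complex.abs_re_le_norm _).trans hr
  have h4 := (abs_le.1 h3).2
  rw [sub_re, re_sum] at h4
  have h5 : (((4:ℕ):ℂ) * Polynomial.eval z₀ p).re = 4 * (Polynomial.eval z₀ p).re := by
    simp
  rw [h5] at h4
  linarith

/-- **Four point sums and the sub-mean value inequality.** -/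
theorem four_submean {u : ℂ → ℝ} {c : ℂ} {R : ℝ} (hR : 0 < R)
    (hu : ContinuousOn u (closedBall c R))
    (h : ∀ z₀ ∈ ball c R, ∀ η > 0, ∀ᶠ r in 𝓝[>] (0:ℝ),
      4 * u z₀ - η * r ^ 2 ≤ ∑ k : Fin 4, u (z₀ + r • (I ^ (k:ℕ)))) :
    u c ≤ Real.circleAverage u c R := by
  by_contra hcon
  push Not at hcon
  obtain ⟨p, h1, h2⟩ := H380.exists_poly_majorant hR (hu.mono sphere_subset_closedBall) hcon
  obtain ⟨k, ε, z0, hε, hz0, hk0, hk⟩ := H380.touch_of_majorant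
    (u := fun z => ((u z : ℝ) : EReal)) (c := c) (r := R)
    (continuous_coe_real_ereal.comp_continuousOn hu).upperSemicontinuousOn
    (fun z _ => EReal.coe_ne_top _) p (fun z hz => by exact_mod_cast (h1 z hz).le)
    (mem_ball_self hR) (by exact_mod_cast h2)
  have hk0' : u z0 = (k.eval z0).re := by exact_mod_cast hk0
  have hk' : ∀ z ∈ closedBall c R, u z ≤ (k.eval z).re - ε * ‖z - z0‖ ^ 2 := fun z hz => by
    exact_mod_cast hk z hz
  obtain ⟨ρ₀, hρ₀, hsub⟩ := Metric.isOpen_iff.1 isOpen_ball z0 hz0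
  obtain ⟨r, hr1, hr2, hr3, hr4⟩ := ((h z0 hz0 ε hε).and ((four_poly k z0 hε).and
    ((eventually_lt_nhds hρ₀).filter_mono nhdsWithin_le_nhds |>.and self_mem_nhdsWithin))).exists
  have hr0 : 0 < r := hr4
  have hn : ∀ j : ℕ, ‖r • (I ^ j : ℂ)‖ = r := by
    intro j
    rw [norm_smul, norm_pow, norm_I, one_pow, mul_one, Real.norm_of_nonneg hr0.le]
  have h5 : ∑ j : Fin 4, u (z0 + r • (I ^ (j:ℕ))) ≤
      ∑ j : Fin 4, ((k.eval (z0 + r • (I ^ (j:ℕ)))).re - ε * r ^ 2) := by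
    refine Finset.sum_le_sum fun j _ => ?_
    have h6 : z0 + r • (I ^ (j:ℕ) : ℂ) ∈ closedBall c R := by
      apply ball_subset_closedBall
      apply hsub
      rw [mem_ball, dist_eq_norm, add_sub_cancel_left, hn]
      exact hr3
    have h7 := hk' _ h6
    rw [add_sub_cancel_left, hn] at h7
    exact h7
  rw [Finset.sum_sub_distrib] at h5
  simp only [Finset.sum_const, Finset.card_univ, Fintype.card_fin, nsmul_eq_mul] at h5
  push_cast at h5
  have h8 : 0 < ε * r ^ 2 := by positivity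
  rw [hk0'] at hr1
  linarith

end plane

end Vale.Agent.P253.R2.H618
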