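import Vale.Agent.P253.R2.H618.Exh1

/-! P253: lower bounds for Levi forms in the sense of four point sums, on manifolds. -/

open scoped Manifold ContDiff Topology Bundle
open Set Metric Complex Filter Bundle IsManifold Asymptotics

set_option maxSynthPendingDepth 3
set_option linter.unusedSectionVars false

noncomputable section

namespace Vale.Agent.P253.R2.H618

open Vale.Agent.P253.Mfd Vale.Agent.P253.Mfd.LocalKahler

section levi

variable {E : Type*} [NormedAddCommGroup E] [NormedSpace ℂ E] [FiniteDimensional ℂ E]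
  {M : Type*} [MetricSpace M] [ChartedSpace E M]
  [IsManifold 𝓘(ℂ, E) 1 M]

/-- the Levi form (four times the complex Hessian) of the function `ψ` in the chart `e`:
`D²ψ(v, v) + D²ψ(iv, iv)` -/
def leviForm (e : OpenPartialHomeomorph M E) (ψ : M → ℝ) (z v : E) : ℝ :=
  fderiv ℝ (fderiv ℝ (fun y => ψ (e.symm y))) z v v
    + fderiv ℝ (fderiv ℝ (fun y => ψ (e.symm y))) z (I • v) (I • v)

/-- the four points of a holomorphic disc -/
theorem harmW_disc {f : ℂ → M} {U : Set ℂ} (hU : IsOpen U)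
    (hf : MDifferentiableOn 𝓘(ℂ, ℂ) 𝓘(ℂ, E) f U) {z₀ : ℂ} (hz : z₀ ∈ U)
    {e : OpenPartialHomeomorph M E} (he : e ∈ maximalAtlas 𝓘(ℂ, E) 1 M) (hs : f z₀ ∈ e.source) :
    HarmW e (f z₀) (fderiv ℝ (fun z => e (f z)) z₀ 1) (fun _ => 1)
      (fun r k => f (z₀ + r • (I ^ (k:ℕ)))) := by
  have hcont : ContinuousOn f U := hf.continuousOn
  have hV : IsOpen (U ∩ f ⁻¹' e.source) := hcont.isOpen_inter_preimage hU e.open_source
  have hzV : z₀ ∈ U ∩ f ⁻¹' e.source := ⟨hz, hs⟩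
  have hd : DifferentiableOn ℂ (fun z => e (f z)) (U ∩ f ⁻¹' e.source) := by
    intro z hz
    have h1 : MDifferentiableAt 𝓘(ℂ, E) 𝓘(ℂ, E) e (f z) :=
      ((contMDiffOn_of_mem_maximalAtlas he).contMDiffAt
        (e.open_source.mem_nhds hz.2)).mdifferentiableAt (by simp)
    have h2 : MDifferentiableAt 𝓘(ℂ, ℂ) 𝓘(ℂ, E) f z :=
      (hf z hz.1).mdifferentiableAt (hU.mem_nhds hz.1)
    exact (h1.comp z h2).differentiableAt.differentiableWithinAt
  have h1 := isSmall_mapW hV hd hzV (1:ℂ) (w := fun _ => 1) (fun _ => norm_one)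
    (isSmall_zero (E := ℂ))
  refine ⟨?_, ?_⟩
  · apply eventually_all.2
    intro k
    have h2 : Tendsto (fun r : ℝ => z₀ + r • (I ^ (k:ℕ) : ℂ)) (𝓝[>] (0:ℝ)) (𝓝 z₀) := by
      have h3 : Continuous (fun r : ℝ => z₀ + r • (I ^ (k:ℕ) : ℂ)) := by fun_prop
      have := (h3.tendsto 0).mono_left (nhdsWithin_le_nhds (s := Ioi (0:ℝ)))
      simpa using this
    exact (h2.eventually (hV.mem_nhds hzV)).mono fun r hr => hr.2
  · refine h1.congr (Eventually.of_forall fun r k => ?_)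
    simp only [smul_I_pow_one, add_zero]

/-- the Levi form of `ψ` at `x` is at least `c` times the metric, in the sense of four point
sums -/
def FourGe [RiemannianBundle (fun x : M => TangentSpace 𝓘(ℝ, E) x)] (ψ : M → ℝ) (x : M) (c : ℝ) :
    Prop :=
  ∀ e ∈ maximalAtlas 𝓘(ℂ, E) 1 M, x ∈ e.source → ∀ (Y : E) (a : ℝ → Fin 4 → M),
    HarmW e x Y (fun _ => 1) a → ∀ η > 0, ∀ᶠ r in 𝓝[>] (0:ℝ),
      4 * ψ x + r ^ 2 * (4 * c * chartG e (e x) Y Y - η) ≤ ∑ k, ψ (a r k)

variable [IsManifold 𝓘(ℝ, E) ∞ M]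
  [RiemannianBundle (fun x : M => TangentSpace 𝓘(ℝ, E) x)]

/-- functions of class `C²` -/
theorem fourGe_of_C2 {ψ : M → ℝ} {x : M} {c : ℝ}
    (h : ∀ e ∈ maximalAtlas 𝓘(ℂ, E) 1 M, x ∈ e.source →
      ContDiffOn ℝ 2 (fun y => ψ (e.symm y)) e.target ∧
      ∀ v, 4 * c * chartMetric e (e x) v v ≤ leviForm e ψ (e x) v) : FourGe (E := E) ψ x c := by
  intro e he hx Y a ha η hη
  obtain ⟨h1, h2⟩ := h e he hx
  have hxt := e.map_source hx
  set ξ : ℝ → Fin 4 → E := fun r k => e (a r k) - e x - r • (I ^ (k:ℕ) • ((1:ℂ) • Y)) with hξ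
  have hξs : IsSmall ξ := ha.2
  have h3 := (four_taylor e.open_target h1 hxt Y hξs).def hη
  filter_upwards [h3, ha.1] with r hr1 hr2
  rw [Real.norm_of_nonneg (show 0 ≤ r ^ 2 by positivity)] at hr1
  have h4 := (abs_le.1 (by rwa [Real.norm_eq_abs] at hr1)).1
  have h5 : ∀ k : Fin 4, ψ (e.symm (e x + (r • (I ^ (k:ℕ) • Y) + ξ r k))) = ψ (a r k) := by
    intro k
    have h6 : e x + (r • (I ^ (k:ℕ) • Y) + ξ r k) = e (a r k) := by
      simp only [hξ, one_smul]
      abel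
    rw [h6, e.left_inv (hr2 k)]
  simp only [h5] at h4
  rw [e.left_inv hx] at h4
  have h6 := h2 Y
  unfold leviForm at h6
  rw [← chartG_apply] at h6
  have h7 : 0 ≤ r ^ 2 := by positivity
  have h8 := mul_le_mul_of_nonneg_left h6 h7
  linarith

variable [IsContMDiffRiemannianBundle 𝓘(ℝ, E) ∞ E (fun x : M => TangentSpace 𝓘(ℝ, E) x)]
  [IsRiemannianManifold 𝓘(ℝ, E) M]

theorem leviSq_self (hK : IsKahler E M) (x : M) : LeviSq (E := E) x x := by
  intro e he hx Y w hw a ha η hη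
  have hLK := localKahler_chartG hK he
  have hxt := e.map_source hx
  set N := chartG e (e x) Y Y with hN
  have hN0 : 0 ≤ N := G_nonneg hLK hxt Y
  set B := chartG e (e x) with hB
  obtain ⟨η', hη', hη2⟩ : ∃ η' > 0, (1 + η') ^ 2 * (N + η') ≤ N + η / 4 := by
    have h1 : Continuous (fun t : ℝ => (1 + t) ^ 2 * (N + t)) := by fun_prop
    have h2 : ∀ᶠ t in 𝓝 (0:ℝ), (1 + t) ^ 2 * (N + t) < N + η / 4 := by
      apply h1.continuousAt.eventually (gt_mem_nhds _)
      simp only [add_zero, one_pow, one_mul]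
      linarith
    obtain ⟨t, h3, h4⟩ := ((h2.filter_mono (nhdsWithin_le_nhds (s := Ioi (0:ℝ)))).and
      self_mem_nhdsWithin).exists
    exact ⟨t, h4, h3.le⟩
  obtain ⟨δ, hδ, -, hd⟩ := dist_le_near hK he hx hη'
  obtain ⟨hO, -⟩ := isSmall_iff.1 ha.2
  have hid : (fun r : ℝ => r) =o[𝓝[>] (0:ℝ)] (fun _ => (1:ℝ)) := by
    rw [isLittleO_one_iff]
    exact tendsto_id.mono_left nhdsWithin_le_nhds
  have hr3 : (fun r : ℝ => r * r ^ 2) =o[𝓝[>] (0:ℝ)] (fun r => r ^ 2) := by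
    have := hid.mul_isBigO (isBigO_refl (fun r : ℝ => r ^ 2) (𝓝[>] (0:ℝ)))
    simpa using this
  have hr2 : (fun r : ℝ => r ^ 2) =O[𝓝[>] (0:ℝ)] (fun r => r) := by
    have := (isBigO_refl (fun r : ℝ => r) (𝓝[>] (0:ℝ))).mul hid.isBigO
    simpa [sq] using this
  have hBil : ∀ (u v : ℝ → E) (f g : ℝ → ℝ), u =O[𝓝[>] (0:ℝ)] f → v =O[𝓝[>] (0:ℝ)] g →
      (fun r => B (u r) (v r)) =O[𝓝[>] (0:ℝ)] (fun r => f r * g r) := by
    intro u v f g hu hv
    have h1 : (fun r => B (u r) (v r)) =O[𝓝[>] (0:ℝ)] (fun r => ‖u r‖ * ‖v r‖) := by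
      refine IsBigO.of_bound ‖B‖ (Eventually.of_forall fun r => ?_)
      rw [Real.norm_of_nonneg (show 0 ≤ ‖u r‖ * ‖v r‖ by positivity), ← mul_assoc]
      exact B.le_opNorm₂ _ _
    exact h1.trans (hu.norm_left.mul hv.norm_left)
  have hlin : ∀ k : Fin 4, (fun r : ℝ => r • (I ^ (k:ℕ) • (w r • Y))) =O[𝓝[>] (0:ℝ)]
      (fun r => r) := by
    intro k
    refine IsBigO.of_bound ‖Y‖ (Eventually.of_forall fun r => ?_)
    rw [norm_smul, LocalKahler.norm_I_pow_smul, norm_smul, hw r, one_mul, mul_comm]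
  have hk : ∀ k : Fin 4, ∀ᶠ r in 𝓝[>] (0:ℝ), dist (a r k) x ^ 2 ≤ r ^ 2 * (N + η / 4) := by
    intro k
    set s : ℝ → E := fun r => e (a r k) - e x - r • (I ^ (k:ℕ) • (w r • Y)) with hs
    set v : ℝ → E := fun r => r • (I ^ (k:ℕ) • (w r • Y)) with hv
    have hvv : ∀ r, B (v r) (v r) = r ^ 2 * N := by
      intro r
      have e1 : v r = ((r:ℂ) * (I ^ (k:ℕ) * w r)) • Y := by
        simp only [hv]
        rw [mul_smul, mul_smul, Complex.coe_smul]
      rw [e1, hB, G_smul_complex hLK hxt Y]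
      rw [norm_mul, norm_mul, norm_pow, norm_I, one_pow, one_mul, hw r, mul_one, norm_real,
        Real.norm_eq_abs, sq_abs]
    have hdec : ∀ r, B (e (a r k) - e x) (e (a r k) - e x) - r ^ 2 * N =
        B (v r) (s r) + (B (s r) (v r) + B (s r) (s r)) := by
      intro r
      have e2 : e (a r k) - e x = v r + s r := by
        simp only [hs, hv]
        abel
      rw [e2]
      simp only [map_add, add_apply]
      rw [hvv]
      ring
    have ho : (fun r => B (e (a r k) - e x) (e (a r k) - e x) - r ^ 2 * N) =o[𝓝[>] (0:ℝ)]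
        (fun r => r ^ 2) := by
      simp only [hdec]
      refine IsLittleO.add ?_ (IsLittleO.add ?_ ?_)
      · exact (hBil _ _ _ _ (hlin k) (hO k)).trans_isLittleO hr3
      · have := hBil _ _ _ _ (hO k) (hlin k)
        refine this.trans_isLittleO ?_
        simpa [mul_comm] using hr3
      · have := hBil _ _ _ _ (hO k) ((hO k).trans hr2)
        refine this.trans_isLittleO ?_
        simpa [mul_comm] using hr3
    have h1 := ho.def hη'
    have h2 := ha.tendsto hw hx k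
    have h3 : ∀ᶠ r in 𝓝[>] (0:ℝ), e (a r k) ∈ ball (e x) δ := by
      have h4 : Tendsto (fun r => e (a r k)) (𝓝[>] (0:ℝ)) (𝓝 (e x)) :=
        (e.continuousAt hx).tendsto.comp h2
      exact h4.eventually (ball_mem_nhds _ hδ)
    filter_upwards [h1, h3, ha.1] with r hr1 hr3 hr4
    rw [Real.norm_of_nonneg (show 0 ≤ r ^ 2 by positivity), Real.norm_eq_abs] at hr1
    have h5 := (abs_le.1 hr1).2
    have h6 := hd (e x) (mem_ball_self hδ) (e (a r k)) hr3
    rw [e.left_inv hx, e.left_inv (hr4 k)] at h6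
    have h7 : 0 ≤ B (e (a r k) - e x) (e (a r k) - e x) := G_nonneg hLK hxt _
    rw [dist_comm]
    calc dist x (a r k) ^ 2 ≤ ((1 + η') * √(B (e (a r k) - e x) (e (a r k) - e x))) ^ 2 := by
          gcongr
      _ = (1 + η') ^ 2 * B (e (a r k) - e x) (e (a r k) - e x) := by
          rw [mul_pow, Real.sq_sqrt h7]
      _ ≤ (1 + η') ^ 2 * (r ^ 2 * (N + η')) := by
          gcongr
          linarith
      _ = r ^ 2 * ((1 + η') ^ 2 * (N + η')) := by ring
      _ ≤ r ^ 2 * (N + η / 4) := by gcongr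
  have hall : ∀ᶠ r in 𝓝[>] (0:ℝ), ∀ k : Fin 4, dist (a r k) x ^ 2 ≤ r ^ 2 * (N + η / 4) :=
    eventually_all.2 hk
  filter_upwards [hall] with r hr
  rw [dist_self]
  calc ∑ k, dist (a r k) x ^ 2 ≤ ∑ k : Fin 4, r ^ 2 * (N + η / 4) :=
        Finset.sum_le_sum fun k _ => hr k
    _ = 4 * 0 ^ 2 + r ^ 2 * (4 * N + η) := by
        rw [Finset.sum_const, Finset.card_univ, Fintype.card_fin, nsmul_eq_mul]
        push_cast
        ring

theorem leviSq_all (hK : IsKahler E M) [ProperSpace M]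
    (hnn : ∀ x : M, NonnegBisectionalAt E x) (q x : M) : LeviSq (E := E) q x := by
  by_cases h : x = q
  · rw [h]; exact leviSq_self hK q
  · exact leviSq hK hnn h

/-- subtracting squared distances -/
theorem fourGe_sub (hK : IsKahler E M) [ProperSpace M]
    (hnn : ∀ x : M, NonnegBisectionalAt E x) {ψ : M → ℝ} {x : M} {c : ℝ}
    (h : FourGe (E := E) ψ x c) {K P C : ℝ} (hKnn : 0 ≤ K) (hP : 0 ≤ P) (q : M) :
    FourGe (E := E) (fun y => K * ψ y - P * dist y q ^ 2 + C) x (K * c - P) := by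
  intro e he hx Y a ha η hη
  have h1 := h e he hx Y a ha (η / (2 * (K + 1))) (by positivity)
  have h2 := leviSq_all hK hnn q x e he hx Y (fun _ => 1) (fun _ => norm_one) a ha
    (η / (2 * (P + 1))) (by positivity)
  filter_upwards [h1, h2] with r hr1 hr2
  have h3 := mul_le_mul_of_nonneg_left hr1 hKnn
  have h4 := mul_le_mul_of_nonneg_left hr2 hP
  rw [Finset.sum_add_distrib, Finset.sum_sub_distrib, ← Finset.mul_sum, ← Finset.mul_sum]
  simp only [Finset.sum_const, Finset.card_univ, Fintype.card_fin, nsmul_eq_mul]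
  push_cast
  have h5 : K * (η / (2 * (K + 1))) ≤ η / 2 := by
    rw [mul_div_assoc', div_le_div_iff₀ (by positivity) (by positivity)]
    nlinarith
  have h6 : P * (η / (2 * (P + 1))) ≤ η / 2 := by
    rw [mul_div_assoc', div_le_div_iff₀ (by positivity) (by positivity)]
    nlinarith
  have h7 : 0 ≤ r ^ 2 := by positivity
  have h8 := mul_le_mul_of_nonneg_left h5 h7
  have h9 := mul_le_mul_of_nonneg_left h6 h7
  set N := chartG e (e x) Y Y
  have e1 : K * (4 * ψ x + r ^ 2 * (4 * c * N - η / (2 * (K + 1)))) =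
      K * (4 * ψ x) + r ^ 2 * (K * (4 * c * N)) - r ^ 2 * (K * (η / (2 * (K + 1)))) := by ring
  have e2 : P * (4 * dist x q ^ 2 + r ^ 2 * (4 * N + η / (2 * (P + 1)))) =
      P * (4 * dist x q ^ 2) + r ^ 2 * (P * (4 * N)) + r ^ 2 * (P * (η / (2 * (P + 1)))) := by ring
  rw [e1] at h3
  rw [e2] at h4
  have e3 : 4 * (K * ψ x - P * dist x q ^ 2 + C) + r ^ 2 * (4 * (K * c - P) * N - η) =
      (K * (4 * ψ x) + r ^ 2 * (K * (4 * c * N)) - r ^ 2 * (η / 2)) -
      (P * (4 * dist x q ^ 2) + r ^ 2 * (P * (4 * N)) + r ^ 2 * (η / 2)) + 4 * C := by ring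
  rw [e3]
  linarith

/-- the sub-mean value inequality on holomorphic discs -/
theorem submean_disc (hK : IsKahler E M) {θ : M → ℝ} (hθ : Continuous θ) {f : ℂ → M} {c : ℂ}
    {R : ℝ} (hR : 0 < R) (hf : ContinuousOn f (closedBall c R))
    (hf' : MDifferentiableOn 𝓘(ℂ, ℂ) 𝓘(ℂ, E) f (ball c R))
    (h4 : ∀ z ∈ ball c R, ∃ b : ℝ, 0 ≤ b ∧ FourGe (E := E) θ (f z) b) :
    θ (f c) ≤ Real.circleAverage (fun z => θ (f z)) c R := by
  refine four_submean (u := fun z => θ (f z)) hR (hθ.comp_continuousOn hf) fun z₀ hz η hη => ?_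
  have he : chartAt E (f z₀) ∈ maximalAtlas 𝓘(ℂ, E) 1 M := chart_mem_maximalAtlas _
  have hs : f z₀ ∈ (chartAt E (f z₀)).source := mem_chart_source E _
  obtain ⟨b, hb, h5⟩ := h4 z₀ hz
  have h1 := h5 _ he hs _ _ (harmW_disc isOpen_ball hf' hz he hs) η hη
  have hN := G_nonneg (localKahler_chartG hK he) ((chartAt E (f z₀)).map_source hs)
    (fderiv ℝ (fun z => (chartAt E (f z₀)) (f z)) z₀ 1)
  filter_upwards [h1] with r hr
  refine le_trans ?_ hr
  have h7 : 0 ≤ r ^ 2 := by positivity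
  have h8 : 0 ≤ 4 * b * (chartG (chartAt E (f z₀)) ((chartAt E (f z₀)) (f z₀))
    (fderiv ℝ (fun z => (chartAt E (f z₀)) (f z)) z₀ 1))
      (fderiv ℝ (fun z => (chartAt E (f z₀)) (f z)) z₀ 1) := by positivity
  have h9 := mul_nonneg h7 h8
  linarith

end levi

end Vale.Agent.P253.R2.H618
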