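import Vale.Agent.P253.R2.H618.Exh2

/-! P253: sup-convolutions of functions with large Levi form with squared distances. -/

open scoped Manifold ContDiff Topology Bundle
open Set Metric Complex Filter Bundle IsManifold Asymptotics

set_option maxSynthPendingDepth 3
set_option linter.unusedSectionVars false

noncomputable section

namespace Vale.Agent.P253.R2.H618

open Vale.Agent.P253.Mfd Vale.Agent.P253.Mfd.LocalKahler

section conv

variable {M : Type*} [MetricSpace M]

/-- the values entering the sup-convolution -/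
def sv (P N : M → ℝ) (x y : M) : ℝ := N y - P y * dist x y ^ 2

/-- the sup-convolution with variable radius -/
def sc (P N ρ : M → ℝ) (x : M) : ℝ := sSup (sv P N x '' closedBall x (ρ x))

variable [ProperSpace M] {P N ρ : M → ℝ}

theorem continuous_sv (hP : Continuous P) (hN : Continuous N) :
    Continuous (fun q : M × M => sv P N q.1 q.2) := by
  unfold sv
  fun_prop

theorem bdd_sv (hP : Continuous P) (hN : Continuous N) (x : M) {S : Set M} (hS : IsCompact S) :
    BddAbove (sv P N x '' S) := by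
  have h1 : Continuous (sv P N x) := (continuous_sv hP hN).comp (by fun_prop : Continuous fun y => (x, y))
  exact (hS.image h1).bddAbove

theorem sv_self (x : M) : sv P N x x = N x := by
  simp [sv]

/-- near `x₀` the supremum can be taken over a fixed compact set -/
theorem sc_eq_local (hP : Continuous P) (hN : Continuous N) (hρ : Continuous ρ)
    (hρ0 : ∀ x, 0 < ρ x)
    (h2 : ∀ x y, ρ x / 2 ≤ dist x y → dist x y ≤ ρ x → N y - P y * dist x y ^ 2 ≤ N x) (x₀ : M) :
    ∀ᶠ x in 𝓝 x₀, sc P N ρ x = sSup (sv P N x '' closedBall x₀ (3 / 4 * ρ x₀)) ∧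
      closedBall x₀ (3 / 4 * ρ x₀) ⊆ closedBall x (ρ x) := by
  have h0 := hρ0 x₀
  have e1 : ∀ᶠ x in 𝓝 x₀, dist x x₀ < ρ x₀ / 16 := Metric.ball_mem_nhds x₀ (by positivity)
  have e2 : ∀ᶠ x in 𝓝 x₀, |ρ x - ρ x₀| < ρ x₀ / 16 := by
    have h1 : ∀ᶠ x in 𝓝 x₀, dist (ρ x) (ρ x₀) < ρ x₀ / 16 :=
      hρ.continuousAt.eventually (Metric.ball_mem_nhds _ (by positivity))
    simpa only [Real.dist_eq] using h1
  filter_upwards [e1, e2] with x h3 h4
  rw [abs_lt] at h4
  have hsub : closedBall x₀ (3 / 4 * ρ x₀) ⊆ closedBall x (ρ x) := by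
    intro y hy
    rw [mem_closedBall] at hy ⊢
    have := dist_triangle y x₀ x
    rw [dist_comm x₀ x] at this
    linarith
  have hsub2 : closedBall x (ρ x / 2) ⊆ closedBall x₀ (3 / 4 * ρ x₀) := by
    intro y hy
    rw [mem_closedBall] at hy ⊢
    have := dist_triangle y x x₀
    linarith
  refine ⟨le_antisymm ?_ ?_, hsub⟩
  · refine csSup_le ((nonempty_closedBall.2 (hρ0 x).le).image _) ?_
    rintro _ ⟨y, hy, rfl⟩
    by_cases hy2 : dist x y ≤ ρ x / 2
    · exact le_csSup (bdd_sv hP hN x (isCompact_closedBall _ _)) ⟨y, hsub2 (by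
        rw [mem_closedBall']; exact hy2), rfl⟩
    · push Not at hy2
      have h5 := h2 x y hy2.le (by rwa [mem_closedBall'] at hy)
      have h6 : sv P N x x ≤ sSup (sv P N x '' closedBall x₀ (3 / 4 * ρ x₀)) :=
        le_csSup (bdd_sv hP hN x (isCompact_closedBall _ _)) ⟨x, hsub2 (mem_closedBall_self
          (by have := hρ0 x; positivity)), rfl⟩
      rw [sv_self] at h6
      exact h5.trans h6
  · refine csSup_le_csSup (bdd_sv hP hN x (isCompact_closedBall _ _))
      ((nonempty_closedBall.2 (by positivity)).image _) (image_mono hsub)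

theorem le_sc (hP : Continuous P) (hN : Continuous N) {x y : M} (hy : y ∈ closedBall x (ρ x)) :
    sv P N x y ≤ sc P N ρ x :=
  le_csSup (bdd_sv hP hN x (isCompact_closedBall _ _)) ⟨y, hy, rfl⟩

theorem N_le_sc (hP : Continuous P) (hN : Continuous N) (hρ0 : ∀ x, 0 < ρ x) (x : M) :
    N x ≤ sc P N ρ x := by
  have := le_sc (P := P) (N := N) (ρ := ρ) hP hN (mem_closedBall_self (x := x) (hρ0 x).le)
  rwa [sv_self] at this

theorem continuous_sc (hP : Continuous P) (hN : Continuous N) (hρ : Continuous ρ)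
    (hρ0 : ∀ x, 0 < ρ x)
    (h2 : ∀ x y, ρ x / 2 ≤ dist x y → dist x y ≤ ρ x → N y - P y * dist x y ^ 2 ≤ N x) :
    Continuous (sc P N ρ) := by
  rw [continuous_iff_continuousAt]
  intro x₀
  have h1 : Continuous fun x => sSup (sv P N x '' closedBall x₀ (3 / 4 * ρ x₀)) :=
    (isCompact_closedBall _ _).continuous_sSup (f := sv P N) (continuous_sv hP hN)
  exact h1.continuousAt.congr ((sc_eq_local hP hN hρ hρ0 h2 x₀).mono fun x hx => hx.1.symm)

end conv

section mfd

variable {E : Type*} [NormedAddCommGroup E] [NormedSpace ℂ E] [FiniteDimensional ℂ E]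
  {M : Type*} [MetricSpace M] [ChartedSpace E M]
  [IsManifold 𝓘(ℂ, E) 1 M] [IsManifold 𝓘(ℝ, E) ∞ M]
  [RiemannianBundle (fun x : M => TangentSpace 𝓘(ℝ, E) x)]
  [IsContMDiffRiemannianBundle 𝓘(ℝ, E) ∞ E (fun x : M => TangentSpace 𝓘(ℝ, E) x)]
  [IsRiemannianManifold 𝓘(ℝ, E) M]

theorem FourGe.mono (hK : IsKahler E M) {ψ : M → ℝ} {x : M} {c c' : ℝ}
    (h : FourGe (E := E) ψ x c) (hc : c' ≤ c) : FourGe (E := E) ψ x c' := by
  intro e he hx Y a ha η hη
  filter_upwards [h e he hx Y a ha η hη] with r hr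
  refine le_trans ?_ hr
  have hN := G_nonneg (localKahler_chartG hK he) (e.map_source hx) Y
  gcongr

/-- the sum of a function with large Levi form and a sup-convolution -/
theorem fourGe_sc (hK : IsKahler E M) [ProperSpace M]
    (hnn : ∀ x : M, NonnegBisectionalAt E x) {ψ c μ P N ρ : M → ℝ}
    (hψ : ∀ x, FourGe (E := E) ψ x (c x)) (hP : Continuous P) (hN : Continuous N)
    (hρ : Continuous ρ) (hρ0 : ∀ x, 0 < ρ x) (hP0 : ∀ x, 0 ≤ P x)
    (h1 : ∀ x y, dist x y ≤ ρ x → P y ≤ c x - μ x)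
    (h2 : ∀ x y, ρ x / 2 ≤ dist x y → dist x y ≤ ρ x → N y - P y * dist x y ^ 2 ≤ N x) (x : M) :
    FourGe (E := E) (fun x => ψ x + sc P N ρ x) x (μ x) := by
  -- the supremum is attained
  have hc : ContinuousOn (sv P N x) (closedBall x (3 / 4 * ρ x)) :=
    ((continuous_sv hP hN).comp (by fun_prop : Continuous fun y => (x, y))).continuousOn
  have h0 := hρ0 x
  obtain ⟨y, hy, hmax⟩ := (isCompact_closedBall x (3 / 4 * ρ x)).exists_sSup_image_eq
    (nonempty_closedBall.2 (by positivity)) hc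
  have hloc := sc_eq_local hP hN hρ hρ0 h2 x
  have hx := hloc.self_of_nhds
  rw [← hx.1] at hmax
  have hyx : dist x y ≤ ρ x := by
    have := hx.2 hy
    rwa [mem_closedBall'] at this
  have h3 : FourGe (E := E) (fun z => 1 * ψ z - P y * dist z y ^ 2 + N y) x (1 * c x - P y) :=
    fourGe_sub hK hnn (hψ x) zero_le_one (hP0 y) y
  have h4 := h3.mono hK (c' := μ x) (by have := h1 x y hyx; linarith)
  intro e he hxe Y a ha η hη
  have h5 := h4 e he hxe Y a ha η hη
  have h6 : ∀ᶠ r in 𝓝[>] (0:ℝ), ∀ k, closedBall x (3 / 4 * ρ x) ⊆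
      closedBall (a r k) (ρ (a r k)) := by
    apply eventually_all.2
    intro k
    exact (ha.tendsto (fun _ => norm_one) hxe k).eventually (hloc.mono fun z hz => hz.2)
  filter_upwards [h5, h6] with r hr1 hr2
  have h7 : ψ x + sc P N ρ x = 1 * ψ x - P y * dist x y ^ 2 + N y := by
    rw [hmax]
    unfold sv
    ring
  rw [h7]
  refine hr1.trans (Finset.sum_le_sum fun k _ => ?_)
  have h8 := le_sc (P := P) (N := N) (ρ := ρ) hP hN (hr2 k hy)
  unfold sv at h8
  linarith

end mfd

end Vale.Agent.P253.R2.H618
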