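import Vale.Agent.P253.R2.H618.Exh3
import Vale.Agent.P253.R2.H380.Stein.Main

/-! P253: strictly plurisubharmonic exhaustion functions from four point sums. -/

open scoped Manifold ContDiff Topology Bundle InnerProductSpace
open Set Metric Complex Filter Bundle IsManifold Asymptotics

set_option maxSynthPendingDepth 3
set_option linter.unusedSectionVars false

noncomputable section

namespace Vale.Agent.P253.R2.H618

open Vale.Agent.P253.Mfd Vale.Agent.P253.Mfd.LocalKahler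

section normsq

variable {H : Type*} [NormedAddCommGroup H] [InnerProductSpace ℂ H] [FiniteDimensional ℂ H]

/-- four point sums of the squared norm -/
theorem four_normsq (A B : H) {ζ : ℝ → Fin 4 → H} (hζ : IsSmall ζ) :
    (fun r : ℝ => ∑ k : Fin 4, ‖A + (r • (I ^ (k:ℕ) • B) + ζ r k)‖ ^ 2 - 4 * ‖A‖ ^ 2
      - r ^ 2 * (4 * ‖B‖ ^ 2)) =o[𝓝[>] (0:ℝ)] (fun r => r ^ 2) := by
  let : InnerProductSpace ℝ H := InnerProductSpace.complexToReal
  have h0 : ContDiffOn ℝ 2 (fun x : H => ‖x‖ ^ 2) univ := (contDiff_norm_sq ℝ).contDiffOn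
  have h1 := four_taylor isOpen_univ h0 (mem_univ A) B hζ
  have h2 : fderiv ℝ (fun x : H => ‖x‖ ^ 2) = fun x : H => (2:ℝ) • (innerSL ℝ x) := by
    funext x
    have := (hasStrictFDerivAt_norm_sq x).hasFDerivAt.fderiv
    rw [this]
    rw [two_smul, two_smul]
  have h3 : ∀ v : H, fderiv ℝ (fderiv ℝ (fun x : H => ‖x‖ ^ 2)) A v v = 2 * ‖v‖ ^ 2 := by
    intro v
    rw [h2]
    have h4 : HasFDerivAt (fun x : H => (2:ℝ) • (innerSL ℝ x)) ((2:ℝ) • (innerSL ℝ : H →L[ℝ] _)) A :=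
      (innerSL ℝ : H →L[ℝ] _).hasFDerivAt.const_smul (2:ℝ)
    rw [h4.fderiv]
    have h5 : ((2:ℝ) • (innerSL ℝ : H →L[ℝ] _)) v v = 2 * ⟪v, v⟫_ℝ := rfl
    rw [h5, real_inner_self_eq_norm_sq]
  have h5 : ‖I • B‖ = ‖B‖ := by rw [norm_smul, norm_I, one_mul]
  refine h1.congr_left fun r => ?_
  rw [h3, h3, h5]
  ring

end normsq

section mfd

variable {E : Type*} [NormedAddCommGroup E] [NormedSpace ℂ E] [FiniteDimensional ℂ E]
  {M : Type*} [MetricSpace M] [ChartedSpace E M]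
  [IsManifold 𝓘(ℂ, E) 1 M] [IsManifold 𝓘(ℝ, E) ∞ M]
  [RiemannianBundle (fun x : M => TangentSpace 𝓘(ℝ, E) x)]
  [IsContMDiffRiemannianBundle 𝓘(ℝ, E) ∞ E (fun x : M => TangentSpace 𝓘(ℝ, E) x)]
  [IsRiemannianManifold 𝓘(ℝ, E) M]

/-- a continuous exhaustion function whose Levi form is locally bounded from below is strictly
plurisubharmonic -/
theorem hasSpshExhaustion_of_fourGe (hK : IsKahler E M) {v μ : M → ℝ} (hv : Continuous v)
    (hμ : Continuous μ) (hμ0 : ∀ x, 0 < μ x) (hcpt : ∀ t : ℝ, IsCompact {x | v x ≤ t})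
    (h4 : ∀ x, FourGe (E := E) v x (μ x)) : H380.Stein.HasSpshExhaustion E M := by
  refine ⟨v, hv, hcpt, fun x₀ => ?_⟩
  have he : chartAt E x₀ ∈ maximalAtlas 𝓘(ℂ, E) 1 M := chart_mem_maximalAtlas _
  have hx₀ : x₀ ∈ (chartAt E x₀).source := mem_chart_source E _
  set e := chartAt E x₀ with hedef
  have hLK := localKahler_chartG hK he
  -- a small closed ball
  obtain ⟨δ, hδ, hδt⟩ := Metric.isOpen_iff.1 e.open_target _ (e.map_source hx₀)
  have hcb : closedBall (e x₀) (δ / 2) ⊆ e.target :=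
    (closedBall_subset_ball (by linarith)).trans hδt
  have hprop : ProperSpace E := FiniteDimensional.proper ℂ E
  obtain ⟨m, hm, hlow⟩ := hLK.exists_lower (isCompact_closedBall (e x₀) (δ / 2)) hcb
  have hμc : ContinuousOn (fun z => μ (e.symm z)) (closedBall (e x₀) (δ / 2)) :=
    hμ.comp_continuousOn (e.continuousOn_symm.mono hcb)
  obtain ⟨z₁, hz₁, hmin⟩ := (isCompact_closedBall (e x₀) (δ / 2)).exists_isMinOn
    (nonempty_closedBall.2 (by positivity)) hμc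
  set μ₀ := μ (e.symm z₁) with hμ₀
  have hμ₀0 : 0 < μ₀ := hμ0 _
  obtain ⟨n, L, -⟩ := H380.Stein.exists_coord E
  set C : ℝ := ‖(L : E →L[ℂ] EuclideanSpace ℂ (Fin n))‖ + 1 with hC
  have hC0 : 0 < C := by positivity
  have hLC : ∀ w : E, ‖L w‖ ^ 2 ≤ C ^ 2 * ‖w‖ ^ 2 := by
    intro w
    have h1 := (L : E →L[ℂ] EuclideanSpace ℂ (Fin n)).le_opNorm w
    rw [← mul_pow]
    have h2 : ‖L w‖ ≤ C * ‖w‖ := by
      refine h1.trans ?_
      gcongr
      rw [hC]; linarith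
    gcongr
  set s : Set M := e.source ∩ e ⁻¹' ball (e x₀) (δ / 2) with hs
  have hso : IsOpen s := e.continuousOn.isOpen_inter_preimage e.open_source isOpen_ball
  have hxs : x₀ ∈ s := ⟨hx₀, mem_ball_self (by positivity)⟩
  refine ⟨e.restr s, restr_mem_maximalAtlas _ he hso, ?_, n, L, μ₀ * m / C ^ 2, by positivity, ?_⟩
  · rw [e.restr_source' s hso]
    exact ⟨hx₀, hxs⟩
  intro f c R hR hf hf' hfe
  have hfe' : ∀ z ∈ closedBall c R, f z ∈ s := by
    intro z hz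
    have := hfe z hz
    rw [e.restr_source' s hso] at this
    exact this.2
  have hre : ∀ x, (e.restr s) x = e x := fun x => rfl
  simp only [hre]
  have hcont : ContinuousOn (fun z => v (f z) - μ₀ * m / C ^ 2 * ‖L (e (f z))‖ ^ 2)
      (closedBall c R) := by
    have h1 : ContinuousOn (fun z => e (f z)) (closedBall c R) :=
      e.continuousOn.comp hf (fun z hz => (hfe' z hz).1)
    exact (hv.comp_continuousOn hf).sub (continuousOn_const.mul
      ((L.continuous.comp_continuousOn h1).norm.pow 2))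
  refine four_submean (u := fun z => v (f z) - μ₀ * m / C ^ 2 * ‖L (e (f z))‖ ^ 2) hR hcont
    fun z₀ hz₀ η hη => ?_
  have hz₀' := ball_subset_closedBall hz₀
  have hfs := (hfe' z₀ hz₀').1
  have hfb : e (f z₀) ∈ closedBall (e x₀) (δ / 2) := ball_subset_closedBall (hfe' z₀ hz₀').2
  set x := f z₀ with hx
  have hH := harmW_disc isOpen_ball hf' hz₀ he hfs
  set Y := fderiv ℝ (fun z => e (f z)) z₀ 1 with hY
  have h5 := h4 x e he hfs Y _ hH (η / 2) (by positivity)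
  -- the squared norm
  set ξ : ℝ → Fin 4 → E := fun r k => e (f (z₀ + r • (I ^ (k:ℕ)))) - e x
    - r • (I ^ (k:ℕ) • ((1:ℂ) • Y)) with hξ
  have hξs : IsSmall ξ := hH.2
  have hζs : IsSmall (fun r k => L (ξ r k)) := by
    obtain ⟨hO, ho⟩ := isSmall_iff.1 hξs
    rw [isSmall_iff]
    refine ⟨fun k => ((L : E →L[ℂ] EuclideanSpace ℂ (Fin n)).isBigO_comp _ _).trans (hO k), ?_⟩
    have h6 : (fun r => ∑ k, L (ξ r k)) = fun r => L (∑ k, ξ r k) := by
      funext r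
      rw [map_sum]
    rw [h6]
    exact ((L : E →L[ℂ] EuclideanSpace ℂ (Fin n)).isBigO_comp _ _).trans_isLittleO ho
  have h7 := (four_normsq (L (e x)) (L Y) hζs).def
    (show 0 < η / (2 * (μ₀ * m / C ^ 2 + 1)) by positivity)
  filter_upwards [h5, h7] with r hr1 hr2
  have hr0 : 0 ≤ r ^ 2 := by positivity
  rw [Real.norm_of_nonneg hr0, Real.norm_eq_abs] at hr2
  have h8 := (abs_le.1 hr2).2
  have h9 : ∀ k : Fin 4, L (e x) + (r • (I ^ (k:ℕ) • L Y) + L (ξ r k)) =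
      L (e (f (z₀ + r • (I ^ (k:ℕ))))) := by
    intro k
    have h10 : L (r • (I ^ (k:ℕ) • Y)) = r • (I ^ (k:ℕ) • L Y) := by
      rw [← Complex.coe_smul, map_smul, map_smul, Complex.coe_smul]
    rw [← h10, ← map_add, ← map_add]
    congr 1
    simp only [hξ, one_smul]
    abel
  simp only [h9] at h8
  -- comparison of the Levi forms
  have hμx : μ₀ ≤ μ x := by
    have h16 : μ (e.symm z₁) ≤ μ (e.symm (e x)) := hmin hfb
    rwa [e.left_inv hfs] at h16
  have hgx : m * ‖Y‖ ^ 2 ≤ chartG e (e x) Y Y := hlow _ hfb Y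
  have h11 : μ₀ * m / C ^ 2 * ‖L Y‖ ^ 2 ≤ μ x * chartG e (e x) Y Y := by
    calc μ₀ * m / C ^ 2 * ‖L Y‖ ^ 2 ≤ μ₀ * m / C ^ 2 * (C ^ 2 * ‖Y‖ ^ 2) := by
          gcongr
          exact hLC Y
      _ = μ₀ * (m * ‖Y‖ ^ 2) := by field_simp
      _ ≤ μ x * chartG e (e x) Y Y := by
          gcongr
          exact (hμ0 x).le
  rw [Finset.sum_sub_distrib, ← Finset.mul_sum]
  set κ := μ₀ * m / C ^ 2 with hκ
  have hκ0 : 0 < κ := by positivity
  have h12 : κ * (η / (2 * (κ + 1))) ≤ η / 2 := by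
    rw [mul_div_assoc', div_le_div_iff₀ (by positivity) (by positivity)]
    nlinarith
  have h13 := mul_le_mul_of_nonneg_left h8 hκ0.le
  have h14 := mul_le_mul_of_nonneg_left h12 hr0
  have h15 := mul_le_mul_of_nonneg_left h11 hr0
  set S := ∑ k : Fin 4, ‖L (e (f (z₀ + r • (I ^ (k:ℕ)))))‖ ^ 2
  have e1 : κ * (S - 4 * ‖L (e x)‖ ^ 2 - r ^ 2 * (4 * ‖L Y‖ ^ 2)) =
      κ * S - 4 * (κ * ‖L (e x)‖ ^ 2) - 4 * (r ^ 2 * (κ * ‖L Y‖ ^ 2)) := by ring
  have e2 : κ * (η / (2 * (κ + 1)) * r ^ 2) = r ^ 2 * (κ * (η / (2 * (κ + 1)))) := by ring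
  rw [e1, e2] at h13
  have e3 : r ^ 2 * (4 * μ x * chartG e (e x) Y Y - η / 2) =
      4 * (r ^ 2 * (μ x * chartG e (e x) Y Y)) - r ^ 2 * (η / 2) := by ring
  rw [e3] at hr1
  have e4 : 4 * (v x - κ * ‖L (e x)‖ ^ 2) - η * r ^ 2 = 4 * v x - 4 * (κ * ‖L (e x)‖ ^ 2)
      - r ^ 2 * (η / 2) - r ^ 2 * (η / 2) := by ring
  rw [e4]
  linarith

end mfd

end Vale.Agent.P253.R2.H618
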