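import Vale.Agent.P253.R2.H618.Exh4

/-! P253: on a complete Kähler manifold of nonnegative bisectional curvature, functions with large
Levi form (not assumed to be exhaustion functions) give strictly plurisubharmonic exhaustion
functions. -/

open scoped Manifold ContDiff Topology Bundle InnerProductSpace
open Set Metric Complex Filter Bundle IsManifold Asymptotics

set_option maxSynthPendingDepth 3
set_option linter.unusedSectionVars false

noncomputable section

namespace Vale.Agent.P253.R2.H618

open Vale.Agent.P253.Mfd Vale.Agent.P253.Mfd.LocalKahler H380.Stein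

section mfd

variable {E : Type*} [NormedAddCommGroup E] [NormedSpace ℂ E] [FiniteDimensional ℂ E]
  {M : Type*} [MetricSpace M] [ChartedSpace E M]
  [IsManifold 𝓘(ℂ, E) 1 M] [IsManifold 𝓘(ℝ, E) ∞ M]
  [RiemannianBundle (fun x : M => TangentSpace 𝓘(ℝ, E) x)]
  [IsContMDiffRiemannianBundle 𝓘(ℝ, E) ∞ E (fun x : M => TangentSpace 𝓘(ℝ, E) x)]
  [IsRiemannianManifold 𝓘(ℝ, E) M]

/-- bounded closed sets of a proper space: sublevel sets of functions tending to infinity -/
theorem isCompact_sublevel [ProperSpace M] {v : M → ℝ} (hv : Continuous v)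
    (h : Tendsto v (cocompact M) atTop) (t : ℝ) : IsCompact {x | v x ≤ t} := by
  have h1 : ∀ᶠ x in cocompact M, t < v x := h.eventually (eventually_gt_atTop t)
  obtain ⟨K, hK, hsub⟩ := mem_cocompact.1 h1
  refine hK.of_isClosed_subset (isClosed_le hv continuous_const) ?_
  intro x hx
  by_contra hxK
  have h2 : t < v x := hsub hxK
  exact absurd (show v x ≤ t from hx) (not_le.2 h2)

/-- the general criterion -/
theorem exhaustion_of_conv (hK : IsKahler E M) [ProperSpace M]
    (hnn : ∀ x : M, NonnegBisectionalAt E x) {ψ c μ P N ρ : M → ℝ} (hψc : Continuous ψ)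
    (hψ : ∀ x, FourGe (E := E) ψ x (c x)) (hμ : Continuous μ) (hμ0 : ∀ x, 0 < μ x)
    (hP : Continuous P) (hN : Continuous N)
    (hρ : Continuous ρ) (hρ0 : ∀ x, 0 < ρ x) (hP0 : ∀ x, 0 ≤ P x)
    (h1 : ∀ x y, dist x y ≤ ρ x → P y ≤ c x - μ x)
    (h2 : ∀ x y, ρ x / 2 ≤ dist x y → dist x y ≤ ρ x → N y - P y * dist x y ^ 2 ≤ N x)
    (h3 : Tendsto (fun x => ψ x + N x) (cocompact M) atTop) : HasSpshExhaustion E M := by
  have hcont : Continuous fun x => ψ x + sc P N ρ x :=
    hψc.add (continuous_sc hP hN hρ hρ0 h2)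
  refine hasSpshExhaustion_of_fourGe hK hcont hμ hμ0 (isCompact_sublevel hcont ?_)
    (fourGe_sc hK hnn hψ hP hN hρ hρ0 hP0 h1 h2)
  refine tendsto_atTop_mono (fun x => ?_) h3
  have := N_le_sc (P := P) (N := N) (ρ := ρ) hP hN hρ0 x
  linarith

/-- **First criterion.** `i∂∂̄ψ ≥ ω` and `ψ ≥ -C - a d(p, x)²` with `a < 1`. -/
theorem exhaustion_of_strong (hK : IsKahler E M) [ProperSpace M]
    (hnn : ∀ x : M, NonnegBisectionalAt E x) (p : M) {ψ : M → ℝ} (hψc : Continuous ψ)
    (hψ : ∀ x, FourGe (E := E) ψ x 1) {a C : ℝ} (ha : a < 1)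
    (hlow : ∀ x, -C - a * dist p x ^ 2 ≤ ψ x) : HasSpshExhaustion E M := by
  set a' := max a 0 with ha'
  have ha'1 : a' < 1 := max_lt ha one_pos
  have ha'0 : 0 ≤ a' := le_max_right _ _
  set b := a' + (1 - a') / 3 with hb
  set Q := a' + 2 * (1 - a') / 3 with hQ
  have hbQ : 0 < Q - b := by rw [hb, hQ]; linarith
  have hb1 : b < 1 := by rw [hb]; linarith
  have hQ1 : Q < 1 := by rw [hQ]; linarith
  have hb0 : 0 < b := by rw [hb]; linarith
  refine exhaustion_of_conv hK hnn (c := fun _ => 1) (μ := fun _ => 1 - Q) (P := fun _ => Q)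
    (N := fun x => b * dist p x ^ 2) (ρ := fun x => 4 / (Q - b) * (1 + dist p x)) hψc hψ
    continuous_const (fun _ => by linarith) continuous_const (by fun_prop) (by fun_prop)
    (fun x => by positivity) (fun _ => by linarith) (fun x y _ => by linarith) ?_ ?_
  · intro x y h1 _
    have h2 : dist p y ≤ dist p x + dist x y := dist_triangle _ _ _
    have h3 : 2 * (1 + dist p x) ≤ (Q - b) * dist x y := by
      have h4 : 4 / (Q - b) * (1 + dist p x) / 2 = 2 * (1 + dist p x) / (Q - b) := by ring
      rw [h4, div_le_iff₀ hbQ] at h1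
      linarith
    have hd : 0 ≤ dist x y := dist_nonneg
    have hpx : 0 ≤ dist p x := dist_nonneg
    have hpy : 0 ≤ dist p y := dist_nonneg
    have h5 : dist p y ^ 2 ≤ (dist p x + dist x y) ^ 2 := by gcongr
    have h6 : b * dist p y ^ 2 ≤ b * (dist p x + dist x y) ^ 2 := by gcongr
    have h7 : 2 * (1 + dist p x) * dist x y ≤ (Q - b) * dist x y * dist x y := by gcongr
    have h8 : 2 * b * (dist p x * dist x y) ≤ 2 * 1 * (dist p x * dist x y) := by gcongr
    nlinarith
  · have h1 : Tendsto (fun x => -C + (b - a') * dist p x ^ 2) (cocompact M) atTop := by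
      have h2 : Tendsto (fun x => dist p x) (cocompact M) atTop := by
        simpa only [dist_comm p] using tendsto_dist_right_cocompact_atTop p
      have h3 : Tendsto (fun x => dist p x ^ 2) (cocompact M) atTop :=
        (tendsto_pow_atTop two_ne_zero).comp h2
      exact tendsto_atTop_add_const_left _ _ (h3.const_mul_atTop (by rw [hb]; linarith))
    refine tendsto_atTop_mono (fun x => ?_) h1
    have h2 := hlow x
    have h3 : a * dist p x ^ 2 ≤ a' * dist p x ^ 2 := by
      gcongr
      exact le_max_left _ _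
    linarith

/-- **Second criterion.** `i∂∂̄ψ ≥ lam(d(p, x)) ω` with a positive nonincreasing function `lam`, and
`ψ + (1/320) ∫ s lam(s) ds → ∞`. -/
theorem exhaustion_of_decay (hK : IsKahler E M) [ProperSpace M]
    (hnn : ∀ x : M, NonnegBisectionalAt E x) (p : M) {ψ : M → ℝ} (hψc : Continuous ψ)
    {lam : ℝ → ℝ} (hlc : Continuous lam) (hl0 : ∀ t, 0 ≤ t → 0 < lam t)
    (hla : AntitoneOn lam (Ici 0))
    (hψ : ∀ x, FourGe (E := E) ψ x (lam (dist p x)))
    (hgrow : Tendsto (fun x => ψ x + 1 / 320 * ∫ s in (0:ℝ)..dist p x, s * lam s)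
      (cocompact M) atTop) : HasSpshExhaustion E M := by
  have hint : ∀ a b : ℝ, IntervalIntegrable (fun s => s * lam s) MeasureTheory.volume a b :=
    fun a b => (by fun_prop : Continuous fun s => s * lam s).intervalIntegrable a b
  have hcI : Continuous fun t : ℝ => ∫ s in (0:ℝ)..t, s * lam s :=
    intervalIntegral.continuous_primitive hint 0
  have hnonneg : ∀ a b : ℝ, 0 ≤ a → a ≤ b → 0 ≤ ∫ s in a..b, s * lam s := by
    intro a b ha hab
    refine intervalIntegral.integral_nonneg hab fun s hs => ?_
    exact mul_nonneg (ha.trans hs.1) (hl0 s (ha.trans hs.1)).le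
  refine exhaustion_of_conv hK hnn (c := fun x => lam (dist p x))
    (μ := fun x => lam (dist p x) / 2) (P := fun y => lam (2 + 2 * dist p y) / 2)
    (N := fun y => 1 / 320 * ∫ s in (0:ℝ)..(4 + 4 * dist p y), s * lam s)
    (ρ := fun x => (1 + dist p x) / 4) hψc hψ
    (by fun_prop) (fun x => half_pos (hl0 _ dist_nonneg)) (by fun_prop)
    (continuous_const.mul (hcI.comp (by fun_prop : Continuous fun y => 4 + 4 * dist p y)))
    (by fun_prop) (fun x => by positivity)
    (fun x => (half_pos (hl0 _ (by positivity))).le) ?_ ?_ ?_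
  · intro x y hxy
    have hpx : 0 ≤ dist p x := dist_nonneg
    have hpy : 0 ≤ dist p y := dist_nonneg
    have h1 : dist p x ≤ dist p y + dist x y := by
      have := dist_triangle p y x
      rwa [dist_comm y x] at this
    have h2 : lam (2 + 2 * dist p y) ≤ lam (dist p x) :=
      hla hpx (show (0:ℝ) ≤ 2 + 2 * dist p y by positivity) (by linarith)
    linarith
  · intro x y h1 h2
    have hpx : 0 ≤ dist p x := dist_nonneg
    have hpy : 0 ≤ dist p y := dist_nonneg
    have hd : 0 ≤ dist x y := dist_nonneg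
    have hP0 : 0 < lam (2 + 2 * dist p y) := hl0 _ (by positivity)
    rcases le_total (dist p y) (dist p x) with h3 | h3
    · have h4 : ∫ s in (0:ℝ)..(4 + 4 * dist p x), s * lam s =
          (∫ s in (0:ℝ)..(4 + 4 * dist p y), s * lam s) +
            ∫ s in (4 + 4 * dist p y)..(4 + 4 * dist p x), s * lam s :=
        (intervalIntegral.integral_add_adjacent_intervals (hint _ _) (hint _ _)).symm
      have h5 := hnonneg (4 + 4 * dist p y) (4 + 4 * dist p x) (by positivity) (by linarith)
      have h6 : 0 ≤ lam (2 + 2 * dist p y) / 2 * dist x y ^ 2 := by positivity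
      rw [h4]
      linarith
    · have h4 : ∫ s in (0:ℝ)..(4 + 4 * dist p y), s * lam s =
          (∫ s in (0:ℝ)..(4 + 4 * dist p x), s * lam s) +
            ∫ s in (4 + 4 * dist p x)..(4 + 4 * dist p y), s * lam s :=
        (intervalIntegral.integral_add_adjacent_intervals (hint _ _) (hint _ _)).symm
      have htri : dist p y ≤ dist p x + dist x y := dist_triangle _ _ _
      set L := lam (4 + 4 * dist p x) with hL
      have hL0 : 0 < L := hl0 _ (by positivity)
      have h5 : ∫ s in (4 + 4 * dist p x)..(4 + 4 * dist p y), s * lam s ≤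
          ∫ s in (4 + 4 * dist p x)..(4 + 4 * dist p y), (4 + 4 * dist p y) * L := by
        refine intervalIntegral.integral_mono_on (by linarith) (hint _ _) (by simp) fun s hs => ?_
        have h6 : lam s ≤ L := hla (show (0:ℝ) ≤ 4 + 4 * dist p x by positivity)
          (show (0:ℝ) ≤ s from (by positivity : (0:ℝ) ≤ 4 + 4 * dist p x).trans hs.1) hs.1
        have h7 : 0 ≤ s := (by positivity : (0:ℝ) ≤ 4 + 4 * dist p x).trans hs.1
        calc s * lam s ≤ s * L := by gcongr
          _ ≤ _ := by
            gcongr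
            exact hs.2
      rw [intervalIntegral.integral_const, smul_eq_mul] at h5
      have h6 : L ≤ lam (2 + 2 * dist p y) :=
        hla (show (0:ℝ) ≤ 2 + 2 * dist p y by positivity)
          (show (0:ℝ) ≤ 4 + 4 * dist p x by positivity) (by linarith)
      have h7 : L / 2 * dist x y ^ 2 ≤ lam (2 + 2 * dist p y) / 2 * dist x y ^ 2 := by gcongr
      -- main comparison
      have h8 : (4 + 4 * dist p y - (4 + 4 * dist p x)) * ((4 + 4 * dist p y) * L) ≤
          (4 * dist x y) * ((5 * (1 + dist p x)) * L) := by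
        gcongr
        · linarith
        · linarith
      have h9 : (1 + dist p x) ≤ 8 * dist x y := by linarith
      have h10 : (4 * dist x y) * ((5 * (1 + dist p x)) * L) ≤
          (4 * dist x y) * ((5 * (8 * dist x y)) * L) := by gcongr
      have h11 : (4 * dist x y) * ((5 * (8 * dist x y)) * L) = 320 * (L / 2 * dist x y ^ 2) := by
        ring
      rw [h4]
      linarith
  · refine tendsto_atTop_mono (fun x => ?_) hgrow
    have hpx : 0 ≤ dist p x := dist_nonneg
    have h4 : ∫ s in (0:ℝ)..(4 + 4 * dist p x), s * lam s =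
        (∫ s in (0:ℝ)..(dist p x), s * lam s) +
          ∫ s in (dist p x)..(4 + 4 * dist p x), s * lam s :=
      (intervalIntegral.integral_add_adjacent_intervals (hint _ _) (hint _ _)).symm
    have h5 := hnonneg (dist p x) (4 + 4 * dist p x) (by positivity) (by linarith)
    rw [h4]
    linarith

end mfd

end Vale.Agent.P253.R2.H618
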