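import Mathlib

/-! P253, module M9 (Liouville), part 4: the scalar inequality for the barrier
`log s - 1 / s`, `s` the squared distance. -/

noncomputable section

namespace Vale.Agent.P253.R2.H618

/-- the barrier as a function of the squared distance -/
def gb (s : ℝ) : ℝ := Real.log s - 1 / s

theorem gb_mono {s t : ℝ} (hs : 0 < s) (hst : s ≤ t) : gb s ≤ gb t := by
  unfold gb
  have h1 := Real.log_le_log hs hst
  have h2 := one_div_le_one_div_of_le hs hst
  linarith only [h1, h2]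

theorem gb_upper {s₀ τ : ℝ} (hs : 0 < s₀) (hτ : |τ| ≤ 1 / 2) :
    gb (s₀ * (1 + τ)) ≤ gb s₀ + (1 + 1 / s₀) * τ - (1 / 2 + 1 / s₀) * τ ^ 2
      + (2 + 2 / s₀) * |τ| ^ 3 := by
  have h1 : 0 < 1 + τ := by
    have := (abs_le.1 hτ).1
    linarith only [this]
  unfold gb
  rw [Real.log_mul hs.ne' h1.ne']
  have h2 := Real.abs_log_sub_add_sum_range_le (x := -τ) (by rw [abs_neg]; linarith only [hτ]) 2
  rw [abs_neg, sub_neg_eq_add] at h2
  simp only [Finset.sum_range_succ, Finset.sum_range_zero] at h2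
  norm_num at h2
  have h3 : |τ| ^ 3 / (1 - |τ|) ≤ 2 * |τ| ^ 3 := by
    rw [div_le_iff₀ (by linarith only [hτ])]
    have : 0 ≤ |τ| ^ 3 := by positivity
    nlinarith only [this, hτ]
  have h4 := (abs_le.1 (h2.trans h3)).2
  have h5 : 1 / (s₀ * (1 + τ)) = 1 / s₀ * (1 - τ + τ ^ 2 - τ ^ 3 / (1 + τ)) := by
    field_simp
    ring
  rw [h5]
  have h6 : τ ^ 3 / (1 + τ) ≤ 2 * |τ| ^ 3 := by
    rw [div_le_iff₀ h1]
    have h7 : τ ^ 3 ≤ |τ| ^ 3 := by
      rw [← abs_pow]; exact le_abs_self _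
    have h8 : 0 ≤ |τ| ^ 3 := by positivity
    have h9 : 1 / 2 ≤ 1 + τ := by
      have := (abs_le.1 hτ).1
      linarith only [this]
    nlinarith only [h7, h8, h9]
  have h7 : 1 / s₀ * (τ ^ 3 / (1 + τ)) ≤ 1 / s₀ * (2 * |τ| ^ 3) := by gcongr
  have h8 : 2 / s₀ = 2 * (1 / s₀) := by ring
  rw [h8]
  linarith only [h4, h7]

theorem scalar_main {D C : ℝ} (hD : 0 < D) (hC : 0 ≤ C) :
    ∃ η > 0, ∃ c > 0, ∃ r₀ > 0, ∀ r, 0 < r → r < r₀ → ∀ (u S : Fin 4 → ℝ),
      ∑ k, u k = 0 → ∑ k, u k ^ 2 = 2 → (∀ k, |u k| ≤ 1) →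
      ∑ k, S k ≤ 4 * D ^ 2 + r ^ 2 * (4 + η) →
      (∀ k, S k ≤ D ^ 2 + 2 * D * r * u k + η * r) → (∀ k, |S k - D ^ 2| ≤ C * r) →
      ∑ k, gb (S k) ≤ 4 * gb (D ^ 2) - c * r ^ 2 := by
  set s₀ := D ^ 2 with hs₀def
  have hs : 0 < s₀ := by positivity
  set A := 1 + 1 / s₀ with hA
  set B := 1 / 2 + 1 / s₀ with hB
  set C₃ := 2 + 2 / s₀ with hC₃
  have hA1 : 1 ≤ A := by
    have : 0 < 1 / s₀ := by positivity
    rw [hA]; linarith only [this]
  have hB0 : 0 < B := by positivity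
  set C' := C / s₀ with hC'
  have hC'0 : 0 ≤ C' := by positivity
  set E₃ := C₃ * (4 * C' ^ 3) with hE₃
  have hE₃0 : 0 ≤ E₃ := by positivity
  set η := (1 / s₀ ^ 2) / (A / s₀ + 64 * B / (D * s₀)) with hη
  have hη0 : 0 < η := by positivity
  have hηeq : η * (A / s₀ + 64 * B / (D * s₀)) = 1 / s₀ ^ 2 := by
    rw [hη]; field_simp
  refine ⟨η, hη0, min (1 / 2) (2 / s₀ ^ 2), by positivity,
    min (min (1 / (4 * (E₃ + 1))) (1 / (s₀ ^ 2 * (E₃ + 1)))) (min (η / s₀) (1 / (2 * (C' + 1)))),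
    by positivity, ?_⟩
  intro r hr hrr u S hu1 hu2 hu3 hS1 hS2 hS3
  have hr1 : r < 1 / (4 * (E₃ + 1)) := hrr.trans_le ((min_le_left _ _).trans (min_le_left _ _))
  have hr2 : r < 1 / (s₀ ^ 2 * (E₃ + 1)) := hrr.trans_le ((min_le_left _ _).trans (min_le_right _ _))
  have hr3 : r < η / s₀ := hrr.trans_le ((min_le_right _ _).trans (min_le_left _ _))
  have hr4 : r < 1 / (2 * (C' + 1)) := hrr.trans_le ((min_le_right _ _).trans (min_le_right _ _))
  have hE1 : E₃ * r ≤ 1 / 4 := by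
    rw [lt_div_iff₀ (by positivity)] at hr1
    nlinarith only [hr1, hr, hE₃0]
  have hE2 : E₃ * r ≤ 1 / s₀ ^ 2 := by
    rw [lt_div_iff₀ (by positivity)] at hr2
    rw [le_div_iff₀ (by positivity)]
    have : 0 < s₀ ^ 2 * r := by positivity
    nlinarith only [hr2, this]
  have hC2 : C' * r ≤ 1 / 2 := by
    rw [lt_div_iff₀ (by positivity)] at hr4
    nlinarith only [hr4, hr, hC'0]
  set τ : Fin 4 → ℝ := fun k => (S k - s₀) / s₀ with hτ
  have hSτ : ∀ k, S k = s₀ * (1 + τ k) := by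
    intro k
    simp only [hτ]
    field_simp
    ring
  have hτC : ∀ k, |τ k| ≤ C' * r := by
    intro k
    simp only [hτ, hC']
    rw [abs_div, abs_of_pos hs, div_le_iff₀ hs]
    refine (hS3 k).trans (le_of_eq ?_)
    field_simp
  have hg : ∀ k, gb (S k) ≤ gb s₀ + A * τ k - B * τ k ^ 2 + C₃ * (C' * r) ^ 3 := by
    intro k
    rw [hSτ k]
    refine (gb_upper hs ((hτC k).trans hC2)).trans ?_
    have : |τ k| ^ 3 ≤ (C' * r) ^ 3 := by
      gcongr
      exact hτC k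
    have h2 : C₃ * |τ k| ^ 3 ≤ C₃ * (C' * r) ^ 3 := by gcongr
    rw [← hA, ← hB, ← hC₃]
    linarith only [h2]
  have hsum : ∑ k, gb (S k) ≤ 4 * gb s₀ + A * ∑ k, τ k - B * ∑ k, τ k ^ 2 + E₃ * r * r ^ 2 := by
    refine (Finset.sum_le_sum fun k _ => hg k).trans (le_of_eq ?_)
    simp only [Finset.sum_add_distrib, Finset.sum_sub_distrib, ← Finset.mul_sum,
      Finset.sum_const, Finset.card_univ, Fintype.card_fin, nsmul_eq_mul]
    rw [hE₃]
    push_cast
    ring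
  have hsq : 0 ≤ ∑ k, τ k ^ 2 := Finset.sum_nonneg fun k _ => sq_nonneg _
  have hr2' : 0 < r ^ 2 := by positivity
  by_cases hcase : ∑ k, τ k ≤ -r ^ 2
  · have h1 : A * ∑ k, τ k ≤ -r ^ 2 := by nlinarith only [hcase, hA1, hr2']
    have h2 : 0 ≤ B * ∑ k, τ k ^ 2 := by positivity
    have h3 : E₃ * r * r ^ 2 ≤ 1 / 4 * r ^ 2 := by gcongr
    have h4 : min (1 / 2) (2 / s₀ ^ 2) * r ^ 2 ≤ 1 / 2 * r ^ 2 := by
      gcongr
      exact min_le_left _ _
    linarith only [hsum, h1, h2, h3, h4, hr2']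
  · push Not at hcase
    have hup : ∀ k, τ k ≤ 2 * r * u k / D + η * r / s₀ := by
      intro k
      simp only [hτ]
      rw [div_le_iff₀ hs]
      have h1 := hS2 k
      have h2 : (2 * r * u k / D + η * r / s₀) * s₀ = 2 * D * r * u k + η * r := by
        rw [hs₀def]; field_simp
      rw [h2]
      linarith only [h1]
    have hsumτ : ∑ k, τ k ≤ (4 + η) * r ^ 2 / s₀ := by
      have h1 : ∑ k, τ k = (∑ k, S k - 4 * s₀) / s₀ := by
        simp only [hτ]
        rw [← Finset.sum_div, Finset.sum_sub_distrib]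
        simp
      rw [h1]
      gcongr
      linarith only [hS1]
    have hlo : ∀ k, 2 * r * u k / D - (3 * (η * r / s₀) + r ^ 2) ≤ τ k := by
      intro k
      rw [Fin.sum_univ_four] at hcase hu1
      have h0 := hup 0
      have h1 := hup 1
      have h2 := hup 2
      have h3 := hup 3
      have e : 2 * r * u 0 / D + 2 * r * u 1 / D + 2 * r * u 2 / D + 2 * r * u 3 / D = 0 := by
        have : 2 * r * u 0 / D + 2 * r * u 1 / D + 2 * r * u 2 / D + 2 * r * u 3 / D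
          = 2 * r / D * (u 0 + u 1 + u 2 + u 3) := by ring
        rw [this, hu1, mul_zero]
      fin_cases k
      · simp only [Fin.zero_eta]; linarith only [hcase, h1, h2, h3, e]
      · simp only [Fin.mk_one]; linarith only [hcase, h0, h2, h3, e]
      · simp only [Fin.reduceFinMk]; linarith only [hcase, h0, h1, h3, e]
      · simp only [Fin.reduceFinMk]; linarith only [hcase, h0, h1, h2, e]
    have hr3' : r ≤ η / s₀ := hr3.le
    have hr3'' : r ^ 2 ≤ η * r / s₀ := by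
      calc r ^ 2 = r * r := by ring
        _ ≤ η / s₀ * r := by gcongr
        _ = _ := by ring
    have he : ∀ k, |τ k - 2 * r * u k / D| ≤ 4 * (η * r / s₀) := by
      intro k
      rw [abs_le]
      have h1 := hup k
      have h2 := hlo k
      have h3 : 0 ≤ η * r / s₀ := by positivity
      constructor <;> linarith only [h1, h2, h3, hr3'']
    have hsqk : ∀ k, 4 * r ^ 2 / s₀ * u k ^ 2 - 16 * η * r ^ 2 / (D * s₀) ≤ τ k ^ 2 := by
      intro k
      set ek := τ k - 2 * r * u k / D with hek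
      have h1 : τ k = 2 * r * u k / D + ek := by rw [hek]; ring
      rw [h1]
      have h2 : (2 * r * u k / D + ek) ^ 2 = 4 * r ^ 2 / s₀ * u k ^ 2 + 4 * r / D * (u k * ek)
          + ek ^ 2 := by
        rw [hs₀def]; field_simp; ring
      rw [h2]
      have h3 : |u k * ek| ≤ 1 * (4 * (η * r / s₀)) := by
        rw [abs_mul]
        gcongr
        · exact hu3 k
        · exact he k
      have h4 := (abs_le.1 h3).1
      have h5 : 4 * r / D * (-(1 * (4 * (η * r / s₀)))) ≤ 4 * r / D * (u k * ek) := by gcongr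
      have h6 : 4 * r / D * (-(1 * (4 * (η * r / s₀)))) = -(16 * η * r ^ 2 / (D * s₀)) := by
        field_simp; norm_num
      have h7 : 0 ≤ ek ^ 2 := sq_nonneg _
      linarith only [h5, h6, h7]
    have hsumsq : 8 * r ^ 2 / s₀ - 64 * η * r ^ 2 / (D * s₀) ≤ ∑ k, τ k ^ 2 := by
      refine le_trans (le_of_eq ?_) (Finset.sum_le_sum fun k _ => hsqk k)
      rw [Finset.sum_sub_distrib, ← Finset.mul_sum, hu2]
      simp only [Finset.sum_const, Finset.card_univ, Fintype.card_fin, nsmul_eq_mul]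
      push_cast
      ring
    have h1 : A * ∑ k, τ k ≤ A * ((4 + η) * r ^ 2 / s₀) := by gcongr
    have h2 : B * (8 * r ^ 2 / s₀ - 64 * η * r ^ 2 / (D * s₀)) ≤ B * ∑ k, τ k ^ 2 := by gcongr
    have h3 : E₃ * r * r ^ 2 ≤ 1 / s₀ ^ 2 * r ^ 2 := by gcongr
    have h4 : min (1 / 2) (2 / s₀ ^ 2) * r ^ 2 ≤ 2 / s₀ ^ 2 * r ^ 2 := by
      gcongr
      exact min_le_right _ _
    have h5 : A * ((4 + η) * r ^ 2 / s₀) - B * (8 * r ^ 2 / s₀ - 64 * η * r ^ 2 / (D * s₀))
        = (-4 / s₀ ^ 2 + η * (A / s₀ + 64 * B / (D * s₀))) * r ^ 2 := by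
      have e1 : A * ((4 + η) * r ^ 2 / s₀) - B * (8 * r ^ 2 / s₀ - 64 * η * r ^ 2 / (D * s₀))
          = ((4 * A - 8 * B) / s₀ + η * (A / s₀ + 64 * B / (D * s₀))) * r ^ 2 := by
        field_simp
        ring
      have e2 : 4 * A - 8 * B = -4 / s₀ := by rw [hA, hB]; field_simp; ring
      rw [e1, e2]
      congr 2
      field_simp
    rw [hηeq] at h5
    have h6 : (-4 / s₀ ^ 2 + 1 / s₀ ^ 2) * r ^ 2 + 1 / s₀ ^ 2 * r ^ 2 = -(2 / s₀ ^ 2 * r ^ 2) := by
      ring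
    linarith only [hsum, h1, h2, h3, h4, h5, h6]

end Vale.Agent.P253.R2.H618
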