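import Vale.Agent.P253.R2.H618.Rad
import Vale.Agent.P253.R2.H618.Scal

/-! P253, module M9 (Liouville), part 5: the barrier at a point and the Liouville theorem. -/

open scoped Manifold ContDiff Topology Bundle ENNReal
open Set Metric Complex Filter Bundle IsManifold Asymptotics MeasureTheory

set_option maxSynthPendingDepth 3
set_option linter.unusedSectionVars false

noncomputable section

namespace Vale.Agent.P253.R2.H618

open Vale.Agent.P253.Mfd Vale.Agent.P253.Mfd.LocalKahler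

section bar

variable {E : Type*} [NormedAddCommGroup E] [NormedSpace ℂ E] [FiniteDimensional ℂ E]
  {M : Type*} [MetricSpace M] [ChartedSpace E M]
  [IsManifold 𝓘(ℂ, E) 1 M] [IsManifold 𝓘(ℝ, E) ∞ M]
  [RiemannianBundle (fun x : M => TangentSpace 𝓘(ℝ, E) x)]
  [IsContMDiffRiemannianBundle 𝓘(ℝ, E) ∞ E (fun x : M => TangentSpace 𝓘(ℝ, E) x)]
  [IsRiemannianManifold 𝓘(ℝ, E) M]

/-- the four point in direction `w Y` -/
def pt (e : OpenPartialHomeomorph M E) (x : M) (Y : E) (r : ℝ) (w : ℂ) : M :=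
  e.symm (e x + r • (w • Y))

theorem re_I_pow (w : ℂ) : ∑ k : Fin 4, (I ^ (k:ℕ) * w).re = 0 := by
  rw [Fin.sum_univ_four]
  have h3 : (I : ℂ) ^ 3 = -I := by rw [pow_succ, I_sq]; ring
  simp [h3]

theorem re_I_pow_sq {w : ℂ} (hw : ‖w‖ = 1) : ∑ k : Fin 4, (I ^ (k:ℕ) * w).re ^ 2 = 2 := by
  have h5 : w.re ^ 2 + w.im ^ 2 = 1 := by
    have := Complex.sq_norm w
    rw [hw, Complex.normSq_apply] at this
    linarith only [this]
  rw [Fin.sum_univ_four]
  have h3 : (I : ℂ) ^ 3 = -I := by rw [pow_succ, I_sq]; ring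
  simp [h3]
  linarith only [h5]

theorem norm_I_pow_mul {w : ℂ} (hw : ‖w‖ = 1) (k : ℕ) : ‖I ^ k * w‖ = 1 := by
  rw [norm_mul, norm_pow, norm_I, one_pow, one_mul, hw]

/-- At every point `x ≠ p` there is a complex direction in which the barrier `gb (dist² (·, p))` is
strictly superharmonic, in the sense of four point sums. -/
theorem barrier_sum (hK : IsKahler E M) [ProperSpace M]
    (hnn : ∀ x : M, NonnegBisectionalAt E x) {e : OpenPartialHomeomorph M E}
    (he : e ∈ maximalAtlas 𝓘(ℂ, E) 1 M) {x p : M} (hx : x ∈ e.source) (hne : x ≠ p) :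
    ∃ Y : E, ∃ c > 0, ∃ᶠ r in 𝓝[>] (0:ℝ), ∀ w : ℂ, ‖w‖ = 1 →
      ∑ k : Fin 4, gb (dist (pt e x Y r (I ^ (k:ℕ) * w)) p ^ 2)
        ≤ 4 * gb (dist x p ^ 2) - c * r ^ 2 := by
  have hLK := localKahler_chartG hK he
  have hxt := e.map_source hx
  obtain ⟨Y, hY1, hY2⟩ := exists_radial hK he hx hne
  set D := dist x p with hDdef
  have hD : 0 < D := dist_pos.2 hne
  obtain ⟨η, hη, c, hc, r₀, hr₀, hsc⟩ := scalar_main hD (C := 4 * D + 4) (by positivity)
  refine ⟨Y, c, hc, ?_⟩
  by_contra hcon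
  rw [not_frequently] at hcon
  push Not at hcon
  -- choose bad directions
  have hch : ∃ w : ℝ → ℂ, (∀ r, ‖w r‖ = 1) ∧ ∀ᶠ r in 𝓝[>] (0:ℝ),
      4 * gb (D ^ 2) - c * r ^ 2 < ∑ k : Fin 4, gb (dist (pt e x Y r (I ^ (k:ℕ) * w r)) p ^ 2) := by
    classical
    choose! w hw using fun (r : ℝ) (hr : ∃ w : ℂ, ‖w‖ = 1 ∧ 4 * gb (D ^ 2) - c * r ^ 2 <
      ∑ k : Fin 4, gb (dist (pt e x Y r (I ^ (k:ℕ) * w)) p ^ 2)) => hr
    refine ⟨fun r => if (∃ w : ℂ, ‖w‖ = 1 ∧ 4 * gb (D ^ 2) - c * r ^ 2 <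
      ∑ k : Fin 4, gb (dist (pt e x Y r (I ^ (k:ℕ) * w)) p ^ 2)) then w r else 1, ?_, ?_⟩
    · intro r
      simp only
      split_ifs with h
      · exact (hw r h).1
      · simp
    · filter_upwards [hcon] with r hr
      rw [if_pos hr]
      exact (hw r hr).2
  obtain ⟨w, hw, hbad⟩ := hch
  have hlevi := leviSq hK hnn hne e he hx Y w hw _ (exists_harmW hx Y hw) η hη
  -- small radii
  obtain ⟨δ, hδ, hδt, hδd⟩ := dist_le_near hK he hx (η := 1) one_pos
  have hsmall1 : ∀ᶠ r in 𝓝[>] (0:ℝ), r * ‖Y‖ < δ := by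
    have h1 : Tendsto (fun r : ℝ => r * ‖Y‖) (𝓝[>] 0) (𝓝 0) := by
      have h3 : Continuous (fun r : ℝ => r * ‖Y‖) := by fun_prop
      have := (h3.tendsto 0).mono_left (nhdsWithin_le_nhds (s := Ioi (0:ℝ)))
      simpa using this
    exact h1.eventually (gt_mem_nhds hδ)
  have hsmall2 : ∀ᶠ r in 𝓝[>] (0:ℝ), 0 < r ∧ r < min r₀ 1 := Ioo_mem_nhdsGT (by positivity)
  set η₁ := min 1 (η / (4 * D)) with hη₁
  have hη₁0 : 0 < η₁ := by positivity
  have hsmall3 : ∀ᶠ r in 𝓝[>] (0:ℝ), r ≤ η / 8 := by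
    filter_upwards [Ioo_mem_nhdsGT (show (0:ℝ) < η / 8 by positivity)] with r hr using hr.2.le
  obtain ⟨r, hr1, hr2, hr3, hr4, ⟨hr5, hr6⟩, hr7⟩ := ((hY2 η₁ hη₁0).and_eventually
    (hbad.and (hlevi.and (hsmall1.and (hsmall2.and hsmall3))))).exists
  have hr6' : r < r₀ := hr6.trans_le (min_le_left _ _)
  have hr6'' : r < 1 := hr6.trans_le (min_le_right _ _)
  have hpt : ∀ k : Fin 4, e.symm (e x + r • (I ^ (k:ℕ) • (w r • Y))) = pt e x Y r (I ^ (k:ℕ) * w r) := by
    intro k
    simp only [pt, mul_smul]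
  set u : Fin 4 → ℝ := fun k => (I ^ (k:ℕ) * w r).re with hu
  set S : Fin 4 → ℝ := fun k => dist (pt e x Y r (I ^ (k:ℕ) * w r)) p ^ 2 with hS
  have hkey := hsc r hr5 hr6' u S (re_I_pow _) (re_I_pow_sq (hw r))
    (fun k => by
      have := Complex.abs_re_le_norm (I ^ (k:ℕ) * w r)
      rwa [norm_I_pow_mul (hw r)] at this)
    (by
      simp only [hpt, hY1, mul_one] at hr3
      exact hr3)
    (fun k => by
      have h1 := hr1 (I ^ (k:ℕ) * w r) (norm_I_pow_mul (hw r) k)
      have hre := Complex.abs_re_le_norm (I ^ (k:ℕ) * w r)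
      rw [norm_I_pow_mul (hw r)] at hre
      have h2 : dist (pt e x Y r (I ^ (k:ℕ) * w r)) p ^ 2
          ≤ (D + r * u k + η₁ * r) ^ 2 := by
        gcongr
        exact h1
      refine h2.trans ?_
      have e1 : (D + r * u k + η₁ * r) ^ 2 = D ^ 2 + 2 * D * r * u k + 2 * D * η₁ * r
          + r ^ 2 * (u k + η₁) ^ 2 := by ring
      have e2 : 2 * D * η₁ ≤ η / 2 := by
        have : η₁ ≤ η / (4 * D) := min_le_right _ _
        calc 2 * D * η₁ ≤ 2 * D * (η / (4 * D)) := by gcongr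
          _ = η / 2 := by field_simp; norm_num
      have e3 : (u k + η₁) ^ 2 ≤ 4 := by
        have h3 : η₁ ≤ 1 := min_le_left _ _
        have h4 := abs_le.1 hre
        have h5 : u k ≤ 1 := h4.2
        have h6 : -1 ≤ u k := h4.1
        nlinarith only [h3, h5, h6, hη₁0]
      have e4 : r ^ 2 * (u k + η₁) ^ 2 ≤ η / 2 * r := by
        calc r ^ 2 * (u k + η₁) ^ 2 ≤ r ^ 2 * 4 := by gcongr
          _ = 4 * r * r := by ring
          _ ≤ 4 * (η / 8) * r := by gcongr
          _ = _ := by ring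
      have e5 : 2 * D * η₁ * r ≤ η / 2 * r := by gcongr
      rw [e1]
      linarith only [e4, e5])
    (fun k => by
      have h1 : dist (pt e x Y r (I ^ (k:ℕ) * w r)) x ≤ 2 * r := by
        have hin : e x + r • ((I ^ (k:ℕ) * w r) • Y) ∈ ball (e x) δ := by
          rw [mem_ball, dist_eq_norm, add_sub_cancel_left, norm_smul, norm_smul,
            norm_I_pow_mul (hw r), one_mul, Real.norm_of_nonneg hr5.le]
          exact hr4
        have h2 := hδd _ (mem_ball_self hδ) _ hin
        rw [e.left_inv hx, add_sub_cancel_left] at h2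
        rw [dist_comm]
        refine h2.trans (le_of_eq ?_)
        have h3 : r • ((I ^ (k:ℕ) * w r) • Y) = ((r : ℂ) * (I ^ (k:ℕ) * w r)) • Y := by
          rw [← Complex.coe_smul r, smul_smul]
        rw [h3, G_smul_complex hLK hxt, hY1, mul_one, norm_mul, norm_I_pow_mul (hw r), mul_one,
          Complex.norm_real, Real.norm_of_nonneg hr5.le, Real.sqrt_sq hr5.le]
        ring
      set dk := dist (pt e x Y r (I ^ (k:ℕ) * w r)) p with hdk
      have h2 : |dk - D| ≤ 2 * r := by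
        refine le_trans ?_ h1
        exact abs_dist_sub_le _ _ _
      have h3 : 0 ≤ dk := dist_nonneg
      have h4 := abs_le.1 h2
      have h5 : |dk ^ 2 - D ^ 2| = |dk - D| * (dk + D) := by
        rw [← abs_of_nonneg (by positivity : 0 ≤ dk + D), ← abs_mul]
        congr 1
        ring
      rw [h5]
      have h6 : dk + D ≤ 2 * D + 2 := by linarith only [h4.2, hr6'']
      calc |dk - D| * (dk + D) ≤ 2 * r * (2 * D + 2) := by gcongr
        _ = _ := by ring)
  exact absurd hkey (not_le.2 hr2)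

theorem circ_small {e : OpenPartialHomeomorph M E} {x : M} (hx : x ∈ e.source) (Y : E) {V : Set M}
    (hV : V ∈ 𝓝 x) : ∀ᶠ r in 𝓝[>] (0:ℝ), ∀ w : ℂ, ‖w‖ ≤ 1 → e x + r • (w • Y) ∈ e.target ∧
      pt e x Y r w ∈ V := by
  have h1 : ∀ᶠ z in 𝓝 (e x), z ∈ e.target ∧ e.symm z ∈ V := by
    refine Filter.Eventually.and (e.open_target.mem_nhds (e.map_source hx)) ?_
    have h2 := e.continuousAt_symm (e.map_source hx)
    have h3 : V ∈ 𝓝 (e.symm (e x)) := by rwa [e.left_inv hx]
    exact h2.eventually h3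
  obtain ⟨δ, hδ, hball⟩ := Metric.eventually_nhds_iff_ball.1 h1
  have h2 : ∀ᶠ r in 𝓝[>] (0:ℝ), r * ‖Y‖ < δ := by
    have h1 : Tendsto (fun r : ℝ => r * ‖Y‖) (𝓝[>] 0) (𝓝 0) := by
      have h3 : Continuous (fun r : ℝ => r * ‖Y‖) := by fun_prop
      have := (h3.tendsto 0).mono_left (nhdsWithin_le_nhds (s := Ioi (0:ℝ)))
      simpa using this
    exact h1.eventually (gt_mem_nhds hδ)
  filter_upwards [h2, self_mem_nhdsWithin] with r hr hr0 w hw
  apply hball
  rw [mem_ball, dist_eq_norm, add_sub_cancel_left, norm_smul, norm_smul,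
    Real.norm_of_nonneg (le_of_lt hr0)]
  refine lt_of_le_of_lt ?_ hr
  have h3 : (0:ℝ) < r := hr0
  have h4 : ‖w‖ * ‖Y‖ ≤ 1 * ‖Y‖ := by gcongr
  calc r * (‖w‖ * ‖Y‖) ≤ r * (1 * ‖Y‖) := by gcongr
    _ = _ := by ring

theorem norm_exp_I (θ : ℝ) : ‖exp (θ * I)‖ = 1 := Complex.norm_exp_ofReal_mul_I θ

theorem circ_cont {e : OpenPartialHomeomorph M E} {x : M} {Y : E} {r : ℝ}
    (h : ∀ w : ℂ, ‖w‖ ≤ 1 → e x + r • (w • Y) ∈ e.target) :
    Continuous (fun θ : ℝ => pt e x Y r (exp (θ * I))) := by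
  unfold pt
  refine e.continuousOn_symm.comp_continuous (by fun_prop) (fun θ => ?_)
  exact h _ (norm_exp_I θ).le

theorem continuousAt_gb {s : ℝ} (hs : s ≠ 0) : ContinuousAt gb s := by
  unfold gb
  exact (Real.continuousAt_log hs).sub (continuousAt_const.div continuousAt_id hs)

/-- At every point `x ≠ p` there is a complex direction in which the barrier `gb (dist² (·, p))` is
strictly superharmonic, in the sense of circle means. -/
theorem barrier_avg (hK : IsKahler E M) [ProperSpace M]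
    (hnn : ∀ x : M, NonnegBisectionalAt E x) {e : OpenPartialHomeomorph M E}
    (he : e ∈ maximalAtlas 𝓘(ℂ, E) 1 M) {x p : M} (hx : x ∈ e.source) (hne : x ≠ p) :
    ∃ Y : E, ∃ᶠ r in 𝓝[>] (0:ℝ),
      ∫ θ in (0:ℝ)..(2 * Real.pi), gb (dist (pt e x Y r (exp (θ * I))) p ^ 2)
        < 2 * Real.pi * gb (dist x p ^ 2) := by
  obtain ⟨Y, c, hc, hfreq⟩ := barrier_sum hK hnn he hx hne
  refine ⟨Y, ?_⟩
  have hV : {y : M | y ≠ p} ∈ 𝓝 x := isOpen_ne.mem_nhds hne
  refine (hfreq.and_eventually ((circ_small hx Y hV).and self_mem_nhdsWithin)).mono ?_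
  rintro r ⟨hr1, hr2, hr3⟩
  have hr0 : (0:ℝ) < r := hr3
  set F : ℝ → ℝ := fun θ => gb (dist (pt e x Y r (exp (θ * I))) p ^ 2) with hF
  have hcont : Continuous F := by
    have h1 := circ_cont (e := e) (x := x) (Y := Y) (r := r) (fun w hw => (hr2 w hw).1)
    have h2 : Continuous (fun θ : ℝ => dist (pt e x Y r (exp (θ * I))) p ^ 2) := by fun_prop
    rw [continuous_iff_continuousAt]
    intro θ
    have h3 : dist (pt e x Y r (exp (θ * I))) p ^ 2 ≠ 0 := by
      have := (hr2 _ (norm_exp_I θ).le).2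
      have h4 : 0 < dist (pt e x Y r (exp (θ * I))) p := dist_pos.2 this
      positivity
    exact (continuousAt_gb h3).comp (f := fun θ : ℝ => dist (pt e x Y r (exp (θ * I))) p ^ 2)
      h2.continuousAt
  have hper : Function.Periodic F (2 * Real.pi) := by
    intro θ
    simp only [hF]
    congr 4
    push_cast
    rw [add_mul, Complex.exp_add, Complex.exp_two_pi_mul_I, mul_one]
  have hrot : ∀ (k : ℕ) (θ : ℝ), I ^ k * exp (θ * I) = exp (((θ + k * (Real.pi / 2) : ℝ) : ℂ) * I) := by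
    intro k θ
    push_cast
    rw [add_mul, Complex.exp_add, mul_assoc (k:ℂ), Complex.exp_nat_mul,
      Complex.exp_pi_div_two_mul_I, mul_comm]
  have hsum : ∀ θ : ℝ, ∑ k : Fin 4, F (θ + (k:ℕ) * (Real.pi / 2)) ≤ 4 * gb (dist x p ^ 2) - c * r ^ 2 := by
    intro θ
    have := hr1 (exp (θ * I)) (norm_exp_I θ)
    simp only [hrot] at this
    exact this
  have hint : ∀ k : ℕ, ∫ θ in (0:ℝ)..(2 * Real.pi), F (θ + k * (Real.pi / 2))
      = ∫ θ in (0:ℝ)..(2 * Real.pi), F θ := by
    intro k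
    rw [intervalIntegral.integral_comp_add_right (fun θ => F θ)]
    have := hper.intervalIntegral_add_eq (0 + k * (Real.pi / 2)) 0
    rw [zero_add (2 * Real.pi)] at this
    rw [← this]
    congr 1
    ring
  have h4 : 4 * ∫ θ in (0:ℝ)..(2 * Real.pi), F θ
      = ∫ θ in (0:ℝ)..(2 * Real.pi), ∑ k : Fin 4, F (θ + (k:ℕ) * (Real.pi / 2)) := by
    rw [intervalIntegral.integral_finsetSum]
    · simp only [hint]
      simp
    · intro k _
      exact (hcont.comp (by fun_prop : Continuous fun θ : ℝ => θ + (k:ℕ) * (Real.pi / 2))).intervalIntegrable _ _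
  have h5 : ∫ θ in (0:ℝ)..(2 * Real.pi), ∑ k : Fin 4, F (θ + (k:ℕ) * (Real.pi / 2))
      ≤ ∫ θ in (0:ℝ)..(2 * Real.pi), (4 * gb (dist x p ^ 2) - c * r ^ 2) := by
    have hc2 : Continuous (fun θ : ℝ => ∑ k : Fin 4, F (θ + (k:ℕ) * (Real.pi / 2))) :=
      continuous_finsetSum _ fun k _ =>
        (hcont.comp (by fun_prop : Continuous fun θ : ℝ => θ + (k:ℕ) * (Real.pi / 2)))
    exact intervalIntegral.integral_mono_on (by positivity) (hc2.intervalIntegrable _ _) (by simp)
      (fun θ _ => hsum θ)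
  rw [← h4] at h5
  simp only [intervalIntegral.integral_const, sub_zero, smul_eq_mul] at h5
  have h6 : 0 < 2 * Real.pi * (c * r ^ 2) := by positivity
  linarith only [h5, h6]

/-- `f` has the super mean value property at `x` in the chart `e`, on all small circles. -/
def SuperMeanAt (e : OpenPartialHomeomorph M E) (f : M → ℝ≥0∞) (x : M) : Prop :=
  ∀ Y : E, ∀ᶠ r in 𝓝[>] (0:ℝ),
    ∫⁻ θ in Icc (0:ℝ) (2 * Real.pi), f (pt e x Y r (exp (θ * I))) ≤
      ENNReal.ofReal (2 * Real.pi) * f x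

variable (E) in
/-- `f : M → [0, ∞]` has locally (near every point, in a suitable holomorphic chart) the super mean
value property on all small circles of affine complex lines. -/
def SuperMean (f : M → ℝ≥0∞) : Prop :=
  ∀ x : M, ∃ e ∈ maximalAtlas 𝓘(ℂ, E) 1 M, x ∈ e.source ∧ ∀ y ∈ e.source, SuperMeanAt e f y

theorem ofReal_integral_le {F : ℝ → ℝ} {a b : ℝ} (hab : a ≤ b) (hF : Continuous F) :
    ENNReal.ofReal (∫ θ in a..b, F θ) ≤ ∫⁻ θ in Icc a b, ENNReal.ofReal (F θ) := by
  have hF2 : Continuous (fun θ => max (F θ) 0) := hF.max continuous_const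
  have h1 : ∫ θ in a..b, F θ ≤ ∫ θ in a..b, max (F θ) 0 :=
    intervalIntegral.integral_mono_on hab (hF.intervalIntegrable a b)
      (hF2.intervalIntegrable a b) (fun θ _ => le_max_left _ _)
  refine (ENNReal.ofReal_le_ofReal h1).trans (le_of_eq ?_)
  have hi : IntegrableOn (fun θ => max (F θ) 0) (Icc a b) volume :=
    hF2.integrableOn_Icc
  rw [intervalIntegral.integral_of_le hab, ← integral_Icc_eq_integral_Ioc,
    ofReal_integral_eq_lintegral_ofReal hi (ae_of_all _ fun θ => le_max_right _ _)]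
  apply lintegral_congr
  intro θ
  rcases le_total (F θ) 0 with h | h
  · rw [max_eq_right h, ENNReal.ofReal_of_nonpos h, ENNReal.ofReal_zero]
  · rw [max_eq_left h]

/-- The minimum over the closed unit ball is a global minimum. -/
theorem global_min (hK : IsKahler E M) [ProperSpace M]
    (hnn : ∀ x : M, NonnegBisectionalAt E x) {f : M → ℝ≥0∞} (hf : LowerSemicontinuous f)
    (hs : SuperMean E f) (p : M) : ∃ a : M, ∀ y, f a ≤ f y := by
  obtain ⟨a, ha, hmin⟩ := LowerSemicontinuousOn.exists_isMinOn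
    (s := closedBall p 1) ⟨p, mem_closedBall_self zero_le_one⟩ (isCompact_closedBall p 1)
    (hf.lowerSemicontinuousOn _)
  refine ⟨a, fun y => ?_⟩
  by_contra hcon
  push Not at hcon
  have hyd : 1 < dist y p := by
    by_contra h
    push Not at h
    exact absurd (hmin (show y ∈ closedBall p 1 from h)) (not_le.2 hcon)
  have hfy : f y ≠ ⊤ := hcon.ne_top
  -- choose ε
  have hgy : 0 ≤ gb (dist y p ^ 2) - gb 1 := by
    have := gb_mono one_pos (show (1:ℝ) ≤ dist y p ^ 2 by nlinarith only [hyd])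
    linarith only [this]
  obtain ⟨ε, hε, hεy⟩ : ∃ ε > 0, f y + ENNReal.ofReal (ε * (gb (dist y p ^ 2) - gb 1)) < f a := by
    have h1 : Tendsto (fun ε : ℝ => f y + ENNReal.ofReal (ε * (gb (dist y p ^ 2) - gb 1)))
        (𝓝[>] 0) (𝓝 (f y + ENNReal.ofReal (0 * (gb (dist y p ^ 2) - gb 1)))) := by
      refine (tendsto_const_nhds.add (ENNReal.tendsto_ofReal ?_))
      have h3 : Continuous (fun ε : ℝ => ε * (gb (dist y p ^ 2) - gb 1)) := by fun_prop
      exact (h3.tendsto 0).mono_left nhdsWithin_le_nhds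
    rw [zero_mul, ENNReal.ofReal_zero, add_zero] at h1
    obtain ⟨ε, h2, h3⟩ := ((h1.eventually (gt_mem_nhds hcon)).and self_mem_nhdsWithin).exists
    exact ⟨ε, h3, h2⟩
  set v : M → ℝ≥0∞ := fun z => f z + ENNReal.ofReal (ε * (gb (dist z p ^ 2) - gb 1)) with hv
  have hvy : v y ≠ ⊤ := by
    simp only [hv]
    exact ENNReal.add_ne_top.2 ⟨hfy, ENNReal.ofReal_ne_top⟩
  -- choose R
  obtain ⟨R, hR1, hR2⟩ : ∃ R : ℝ, dist y p < R ∧ v y < ENNReal.ofReal (ε * (gb (R ^ 2) - gb 1)) := by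
    have h1 : Tendsto (fun R : ℝ => ε * (gb (R ^ 2) - gb 1)) atTop atTop := by
      apply Tendsto.const_mul_atTop hε
      apply tendsto_atTop_add_const_right
      have h2 : Tendsto (fun R : ℝ => Real.log (R ^ 2) - 1 / R ^ 2) atTop atTop := by
        have h3 : Tendsto (fun R : ℝ => R ^ 2) atTop atTop := tendsto_pow_atTop (by norm_num)
        have h4 : Tendsto (fun R : ℝ => Real.log (R ^ 2)) atTop atTop := Real.tendsto_log_atTop.comp h3
        have h5 : Tendsto (fun R : ℝ => -(1 / R ^ 2)) atTop (𝓝 (-0)) :=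
          ((tendsto_const_nhds (x := (1:ℝ))).div_atTop h3).neg
        exact h4.atTop_add h5
      exact h2
    obtain ⟨R, h2, h3⟩ := ((h1.eventually (eventually_gt_atTop (v y).toReal)).and
      (eventually_gt_atTop (dist y p))).exists
    refine ⟨R, h3, ?_⟩
    rw [← ENNReal.ofReal_toReal hvy]
    exact (ENNReal.ofReal_lt_ofReal_iff (lt_of_le_of_lt ENNReal.toReal_nonneg h2)).2 h2
  have hR1' : 1 < R := hyd.trans hR1
  -- the compact region
  set K : Set M := {z | 1 ≤ dist z p ∧ dist z p ≤ R} with hKdef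
  have hKc : IsCompact K := by
    refine (isCompact_closedBall p R).of_isClosed_subset ?_ (fun z hz => hz.2)
    have hdc : Continuous (fun z : M => dist z p) := by fun_prop
    exact (isClosed_le continuous_const hdc).inter (isClosed_le hdc continuous_const)
  have hpen : ContinuousOn (fun z : M => ENNReal.ofReal (ε * (gb (dist z p ^ 2) - gb 1))) K := by
    intro z hz
    have h1 : dist z p ^ 2 ≠ 0 := by
      have : 0 < dist z p := lt_of_lt_of_le one_pos hz.1
      positivity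
    have h2 : ContinuousAt (fun z : M => gb (dist z p ^ 2)) z :=
      (continuousAt_gb h1).comp (f := fun z : M => dist z p ^ 2) (by fun_prop)
    exact (ENNReal.continuous_ofReal.continuousAt.comp
      ((h2.sub continuousAt_const).const_mul ε)).continuousWithinAt
  have hvl : LowerSemicontinuousOn v K :=
    (hf.lowerSemicontinuousOn K).add hpen.lowerSemicontinuousOn
  obtain ⟨x₀, hx₀K, hx₀min⟩ := LowerSemicontinuousOn.exists_isMinOn (s := K)
    ⟨y, hyd.le, hR1.le⟩ hKc hvl
  have hv0 : v x₀ ≤ v y := hx₀min (show y ∈ K from ⟨hyd.le, hR1.le⟩)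
  -- x₀ is interior
  have hx1 : 1 < dist x₀ p := by
    rcases hx₀K.1.lt_or_eq with h | h
    · exact h
    · exfalso
      have h1 : v x₀ = f x₀ := by
        simp only [hv]
        rw [← h]
        simp
      have h2 : f a ≤ f x₀ := hmin (show x₀ ∈ closedBall p 1 from h.symm.le)
      exact absurd ((h1 ▸ h2).trans hv0) (not_le.2 hεy)
  have hx2 : dist x₀ p < R := by
    rcases hx₀K.2.lt_or_eq with h | h
    · exact h
    · exfalso
      have h1 : ENNReal.ofReal (ε * (gb (R ^ 2) - gb 1)) ≤ v x₀ := by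
        simp only [hv]
        rw [h]
        exact le_add_self
      exact absurd (h1.trans hv0) (not_le.2 hR2)
  have hKn : K ∈ 𝓝 x₀ := by
    have hdc : Continuous (fun z : M => dist z p) := by fun_prop
    have : {z : M | 1 < dist z p ∧ dist z p < R} ∈ 𝓝 x₀ :=
      ((isOpen_lt continuous_const hdc).inter (isOpen_lt hdc continuous_const)).mem_nhds
        ⟨hx1, hx2⟩
    exact mem_of_superset this (fun z hz => ⟨hz.1.le, hz.2.le⟩)
  have hne : x₀ ≠ p := by
    rw [← dist_pos]; linarith only [hx1]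
  obtain ⟨e, he, hxe, hsm⟩ := hs x₀
  obtain ⟨Y, hY⟩ := barrier_avg hK hnn he hxe hne
  obtain ⟨r, hr1, hr2, hr3⟩ := (hY.and_eventually ((hsm x₀ hxe Y).and (circ_small hxe Y hKn))).exists
  have hfx₀ : f x₀ ≠ ⊤ := by
    intro h
    have h1 : v x₀ = ⊤ := by simp only [hv]; rw [h, top_add]
    exact hvy (top_le_iff.1 (h1 ▸ hv0))
  set H : ℝ → ℝ := fun θ => (f x₀).toReal + ε * gb (dist x₀ p ^ 2)
    - ε * gb (dist (pt e x₀ Y r (exp (θ * I))) p ^ 2) with hH
  have hHle : ∀ θ : ℝ, ENNReal.ofReal (H θ) ≤ f (pt e x₀ Y r (exp (θ * I))) := by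
    intro θ
    set z := pt e x₀ Y r (exp (θ * I)) with hz
    have hzK : z ∈ K := (hr3 _ (norm_exp_I θ).le).2
    by_cases hzt : f z = ⊤
    · rw [hzt]; exact le_top
    have h1 : v x₀ ≤ v z := hx₀min hzK
    simp only [hv] at h1
    rw [← ENNReal.ofReal_toReal hfx₀, ← ENNReal.ofReal_toReal hzt] at h1
    have hp0 : 0 ≤ ε * (gb (dist x₀ p ^ 2) - gb 1) := by
      have := gb_mono one_pos (show (1:ℝ) ≤ dist x₀ p ^ 2 by nlinarith only [hx1])
      have h2 : 0 ≤ gb (dist x₀ p ^ 2) - gb 1 := by linarith only [this]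
      positivity
    have hpz : 0 ≤ ε * (gb (dist z p ^ 2) - gb 1) := by
      have := gb_mono one_pos (show (1:ℝ) ≤ dist z p ^ 2 by
        have := hzK.1
        nlinarith only [this])
      have h2 : 0 ≤ gb (dist z p ^ 2) - gb 1 := by linarith only [this]
      positivity
    rw [← ENNReal.ofReal_add ENNReal.toReal_nonneg hp0,
      ← ENNReal.ofReal_add ENNReal.toReal_nonneg hpz,
      ENNReal.ofReal_le_ofReal_iff (by positivity)] at h1
    rw [← ENNReal.ofReal_toReal hzt]
    apply ENNReal.ofReal_le_ofReal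
    simp only [hH]
    rw [← hz]
    linarith only [h1]
  have hcont : Continuous (fun θ : ℝ => gb (dist (pt e x₀ Y r (exp (θ * I))) p ^ 2)) := by
    have h1 := circ_cont (e := e) (x := x₀) (Y := Y) (r := r) (fun w hw => (hr3 w hw).1)
    have h2 : Continuous (fun θ : ℝ => dist (pt e x₀ Y r (exp (θ * I))) p ^ 2) := by fun_prop
    rw [continuous_iff_continuousAt]
    intro θ
    have h3 : dist (pt e x₀ Y r (exp (θ * I))) p ^ 2 ≠ 0 := by
      have := (hr3 _ (norm_exp_I θ).le).2.1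
      have h4 : 0 < dist (pt e x₀ Y r (exp (θ * I))) p := lt_of_lt_of_le one_pos this
      positivity
    exact (continuousAt_gb h3).comp (f := fun θ : ℝ => dist (pt e x₀ Y r (exp (θ * I))) p ^ 2)
      h2.continuousAt
  have hHc : Continuous H := continuous_const.sub (hcont.const_mul ε)
  have h2π : (0:ℝ) ≤ 2 * Real.pi := by positivity
  have h1 : ENNReal.ofReal (∫ θ in (0:ℝ)..(2 * Real.pi), H θ) ≤
      ENNReal.ofReal (2 * Real.pi * (f x₀).toReal) := by
    rw [ENNReal.ofReal_mul h2π, ENNReal.ofReal_toReal hfx₀]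
    exact ((ofReal_integral_le h2π hHc).trans (lintegral_mono fun θ => hHle θ)).trans hr2
  rw [ENNReal.ofReal_le_ofReal_iff (by positivity)] at h1
  have h2 : ∫ θ in (0:ℝ)..(2 * Real.pi), H θ = 2 * Real.pi * ((f x₀).toReal + ε * gb (dist x₀ p ^ 2))
      - ε * ∫ θ in (0:ℝ)..(2 * Real.pi), gb (dist (pt e x₀ Y r (exp (θ * I))) p ^ 2) := by
    simp only [hH]
    rw [intervalIntegral.integral_sub (by simp) ((hcont.const_mul ε).intervalIntegrable _ _),
      intervalIntegral.integral_const_mul, intervalIntegral.integral_const, sub_zero,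
      smul_eq_mul]
  rw [h2] at h1
  have h3 := mul_lt_mul_of_pos_left hr1 hε
  linarith only [h1, h3]

/-- at a global minimum the super mean value property forces the value on small circles. -/
theorem min_propagate {e : OpenPartialHomeomorph M E} {f : M → ℝ≥0∞}
    (hf : LowerSemicontinuous f) {x : M} (hx : x ∈ e.source) (hs : SuperMeanAt e f x)
    (hfx : f x ≠ ⊤) (hmin : ∀ y, f x ≤ f y) (Y : E) :
    ∀ᶠ r in 𝓝[>] (0:ℝ), f (pt e x Y r 1) ≤ f x := by
  filter_upwards [hs Y, circ_small hx Y univ_mem] with r hr1 hr2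
  by_contra hcon
  push Not at hcon
  obtain ⟨m', hm1, hm2⟩ := exists_between hcon
  have hcont := circ_cont (e := e) (x := x) (Y := Y) (r := r) (fun w hw => (hr2 w hw).1)
  have h0 : pt e x Y r (exp ((0:ℝ) * I)) = pt e x Y r 1 := by simp
  have hev : ∀ᶠ θ : ℝ in 𝓝 (0:ℝ), m' < f (pt e x Y r (exp (θ * I))) := by
    have h1 := hf (pt e x Y r (exp ((0:ℝ) * I))) m' (by rw [h0]; exact hm2)
    exact hcont.continuousAt.eventually h1
  obtain ⟨δ, hδ, hball⟩ := Metric.eventually_nhds_iff_ball.1 hev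
  set δ' := min δ (2 * Real.pi) with hδ'
  have hδ'0 : 0 < δ' := by positivity
  have hlow : ∀ θ ∈ Ioo 0 δ', m' < f (pt e x Y r (exp (θ * I))) := by
    intro θ hθ
    apply hball
    rw [mem_ball, Real.dist_eq, sub_zero, abs_of_pos hθ.1]
    exact hθ.2.trans_le (min_le_left _ _)
  have h1 : ∫⁻ θ in Icc (0:ℝ) (2 * Real.pi), (f x + (Ioo 0 δ').indicator (fun _ => m' - f x) θ)
      ≤ ∫⁻ θ in Icc (0:ℝ) (2 * Real.pi), f (pt e x Y r (exp (θ * I))) := by
    refine lintegral_mono fun θ => ?_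
    by_cases hθ : θ ∈ Ioo 0 δ'
    · rw [indicator_of_mem hθ, add_tsub_cancel_of_le hm1.le]
      exact (hlow θ hθ).le
    · rw [indicator_of_notMem hθ, add_zero]
      exact hmin _
  have h2 : ∫⁻ θ in Icc (0:ℝ) (2 * Real.pi), (f x + (Ioo 0 δ').indicator (fun _ => m' - f x) θ)
      = ENNReal.ofReal (2 * Real.pi) * f x + (m' - f x) * ENNReal.ofReal δ' := by
    rw [lintegral_add_left measurable_const, setLIntegral_const, Real.volume_Icc, sub_zero,
      mul_comm (f x), lintegral_indicator measurableSet_Ioo, setLIntegral_const,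
      Measure.restrict_apply measurableSet_Ioo]
    congr 2
    have : Ioo 0 δ' ∩ Icc (0:ℝ) (2 * Real.pi) = Ioo 0 δ' := by
      apply inter_eq_left.2
      intro θ hθ
      exact ⟨hθ.1.le, hθ.2.le.trans (min_le_right _ _)⟩
    rw [this, Real.volume_Ioo, sub_zero]
  rw [h2] at h1
  have h3 := h1.trans hr1
  have h4 : ENNReal.ofReal (2 * Real.pi) * f x ≠ ⊤ := ENNReal.mul_ne_top ENNReal.ofReal_ne_top hfx
  have h5 : (m' - f x) * ENNReal.ofReal δ' ≤ 0 := by
    have h6 : ENNReal.ofReal (2 * Real.pi) * f x + (m' - f x) * ENNReal.ofReal δ'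
      ≤ ENNReal.ofReal (2 * Real.pi) * f x + 0 := by rw [add_zero]; exact h3
    exact (ENNReal.add_le_add_iff_left h4).1 h6
  have h6 : (m' - f x) * ENNReal.ofReal δ' = 0 := le_antisymm h5 zero_le
  rcases mul_eq_zero.1 h6 with h | h
  · exact absurd (tsub_eq_zero_iff_le.1 h) (not_le.2 hm1)
  · exact absurd (ENNReal.ofReal_eq_zero.1 h) (not_le.2 hδ'0)

/-- **Liouville theorem.** Let `M` be a connected complete Kähler manifold of nonnegative
holomorphic bisectional curvature and `f : M → [0, ∞]` lower semicontinuous with the super mean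
value property on small affine circles of holomorphic charts (i.e. `-f` is plurisubharmonic, with
values in `[-∞, 0]`). Then `f` is constant. -/
theorem liouville (hK : IsKahler E M) [CompleteSpace M] [ConnectedSpace M]
    (hnn : ∀ x : M, NonnegBisectionalAt E x) {f : M → ℝ≥0∞} (hf : LowerSemicontinuous f)
    (hs : SuperMean E f) (x y : M) : f x = f y := by
  have hprop : ProperSpace M := properSpace_riemannian E M
  obtain ⟨a, ha⟩ := global_min hK hnn hf hs x
  by_cases hat : f a = ⊤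
  · have h1 : ∀ z, f z = ⊤ := fun z => top_le_iff.1 (hat ▸ ha z)
    rw [h1 x, h1 y]
  set A : Set M := {z | f z ≤ f a} with hA
  have hAc : IsClosed A := hf.isClosed_preimage (f a)
  have hAo : IsOpen A := by
    rw [isOpen_iff_mem_nhds]
    intro z₀ hz₀
    obtain ⟨e, he, hze, hsm⟩ := hs z₀
    obtain ⟨δ, hδ, hball⟩ := Metric.isOpen_iff.1 e.open_target (e z₀) (e.map_source hze)
    have h1 : ∀ᶠ z in 𝓝 z₀, z ∈ e.source ∧ e z ∈ ball (e z₀) δ :=
      Filter.Eventually.and (e.open_source.mem_nhds hze)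
        ((e.continuousAt hze).eventually (ball_mem_nhds _ hδ))
    filter_upwards [h1] with z hz
    obtain ⟨hz1, hz2⟩ := hz
    set Y := e z - e z₀ with hY
    set c : ℝ → E := fun t => e z₀ + t • Y with hc
    have hcb : ∀ t ∈ Icc (0:ℝ) 1, c t ∈ ball (e z₀) δ := fun t ht =>
      (convex_ball (e z₀) δ).add_smul_sub_mem (mem_ball_self hδ) hz2 ht
    have hct : ∀ t ∈ Icc (0:ℝ) 1, c t ∈ e.target := fun t ht => hball (hcb t ht)
    set T : Set ℝ := {t | f (e.symm (c t)) ≤ f a} with hT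
    have hcc : ContinuousOn (fun t => e.symm (c t)) (Icc (0:ℝ) 1) :=
      e.continuousOn_symm.comp (by fun_prop) hct
    have hTc : IsClosed (T ∩ Icc (0:ℝ) 1) := by
      have := hcc.preimage_isClosed_of_isClosed isClosed_Icc hAc
      rw [inter_comm]
      exact this
    have h0T : (0:ℝ) ∈ T := by
      simp only [hT, mem_ofPred_eq, hc, zero_smul, add_zero]
      rw [e.left_inv hze]
      exact hz₀
    have hsub := hTc.Icc_subset_of_forall_mem_nhdsWithin h0T (by
      rintro t ⟨ht1, ht2⟩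
      have ht3 : t ∈ Icc (0:ℝ) 1 := Ico_subset_Icc_self ht2
      set x' := e.symm (c t) with hx'
      have hx's : x' ∈ e.source := e.map_target (hct t ht3)
      have hex' : e x' = c t := e.right_inv (hct t ht3)
      have hfx' : f x' = f a := le_antisymm ht1 (ha _)
      have h2 := min_propagate hf hx's (hsm x' hx's) (by rw [hfx']; exact hat)
        (fun y => by rw [hfx']; exact ha y) Y
      have h3 : Tendsto (fun s : ℝ => s - t) (𝓝[>] t) (𝓝[>] 0) := by
        rw [tendsto_nhdsWithin_iff]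
        constructor
        · have h4 : Continuous (fun s : ℝ => s - t) := by fun_prop
          have := (h4.tendsto t).mono_left (nhdsWithin_le_nhds (s := Ioi t))
          simpa using this
        · filter_upwards [self_mem_nhdsWithin] with s hs
          exact sub_pos.2 (mem_Ioi.1 hs)
      filter_upwards [h3.eventually h2] with s hs
      rw [hfx'] at hs
      have h5 : pt e x' Y (s - t) 1 = e.symm (c s) := by
        simp only [pt, hex', hc, one_smul]
        congr 1
        module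
      rw [h5] at hs
      exact hs)
    have h1T : (1:ℝ) ∈ T := hsub ⟨zero_le_one, le_rfl⟩
    simp only [hT, mem_ofPred_eq, hc, one_smul, hY, add_sub_cancel] at h1T
    rw [e.left_inv hz1] at h1T
    exact h1T
  have hAu : A = univ := IsClopen.eq_univ ⟨hAc, hAo⟩ ⟨a, le_refl (f a)⟩
  have h1 : ∀ z, f z = f a := fun z => le_antisymm (by
    have : z ∈ A := hAu ▸ mem_univ z
    exact this) (ha z)
  rw [h1 x, h1 y]

end bar

end Vale.Agent.P253.R2.H618

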