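import Vale.Agent.P253.Bdl.B1

/-!
P253: a local biholomorphism tangent to the identity which commutes with a contraction with narrow
spectrum is the identity.
-/

open scoped Topology ContDiff
open Set Metric Filter

set_option maxSynthPendingDepth 3

noncomputable section

namespace Vale.Agent.P253.R2.H618

variable {E : Type*} [NormedAddCommGroup E] [NormedSpace ℂ E]

/-- the iteration -/
theorem iter_bound {f g : E → E} {z₀ : E} {a b C r : ℝ} (ha0 : 0 ≤ a) (ha1 : a ≤ 1) (hb : 0 < b)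
    (hf : ∀ z ∈ ball z₀ r, ‖f z - z₀‖ ≤ a * ‖z - z₀‖)
    (hfb : ∀ x ∈ ball z₀ r, b * ‖g x - x‖ ≤ ‖f (g x) - f x‖)
    (hg : ∀ z ∈ ball z₀ r, ‖g z - z‖ ≤ C * ‖z - z₀‖ ^ 2)
    (hc : ∀ z ∈ ball z₀ r, g (f z) = f (g z)) (n : ℕ) :
    ∀ z ∈ ball z₀ r, b ^ n * ‖g z - z‖ ≤ C * (a ^ n * ‖z - z₀‖) ^ 2 := by
  induction n with
  | zero => intro z hz; simpa using hg z hz
  | succ n ih =>
    intro z hz
    have hfz : f z ∈ ball z₀ r := by
      rw [mem_ball_iff_norm] at hz ⊢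
      have := hf z (by rwa [mem_ball_iff_norm])
      have h2 : a * ‖z - z₀‖ ≤ 1 * ‖z - z₀‖ := by gcongr
      linarith
    have h1 := ih (f z) hfz
    rw [hc z hz] at h1
    have h2 := hfb z hz
    have h3 := hf z hz
    have hC : 0 ≤ C ∨ ‖z - z₀‖ = 0 := by
      by_contra hcon
      push Not at hcon
      have h4 := hg z hz
      have h5 : 0 < ‖z - z₀‖ ^ 2 :=
        pow_pos (lt_of_le_of_ne (norm_nonneg _) (Ne.symm hcon.2)) 2
      have h6 : C * ‖z - z₀‖ ^ 2 < 0 := mul_neg_of_neg_of_pos hcon.1 h5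
      have := norm_nonneg (g z - z)
      linarith
    calc b ^ (n+1) * ‖g z - z‖ = b ^ n * (b * ‖g z - z‖) := by ring
      _ ≤ b ^ n * ‖f (g z) - f z‖ := by gcongr
      _ ≤ C * (a ^ n * ‖f z - z₀‖) ^ 2 := h1
      _ ≤ C * (a ^ n * (a * ‖z - z₀‖)) ^ 2 := by
          rcases hC with hC | hC
          · gcongr
          · have h7 : ‖f z - z₀‖ = 0 := le_antisymm (by rw [hC, mul_zero] at h3; exact h3)
              (norm_nonneg _)
            rw [h7, hC]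
            simp
      _ = C * (a ^ (n+1) * ‖z - z₀‖) ^ 2 := by ring

theorem eq_of_iter {f g : E → E} {z₀ : E} {a b C r : ℝ} (ha0 : 0 ≤ a) (ha1 : a ≤ 1) (hb : 0 < b)
    (hab : a ^ 2 < b)
    (hf : ∀ z ∈ ball z₀ r, ‖f z - z₀‖ ≤ a * ‖z - z₀‖)
    (hfb : ∀ x ∈ ball z₀ r, b * ‖g x - x‖ ≤ ‖f (g x) - f x‖)
    (hg : ∀ z ∈ ball z₀ r, ‖g z - z‖ ≤ C * ‖z - z₀‖ ^ 2)
    (hc : ∀ z ∈ ball z₀ r, g (f z) = f (g z)) :
    ∀ z ∈ ball z₀ r, g z = z := by
  intro z hz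
  have h1 : ∀ n : ℕ, ‖g z - z‖ ≤ (a ^ 2 / b) ^ n * (C * ‖z - z₀‖ ^ 2) := by
    intro n
    have h2 := iter_bound ha0 ha1 hb hf hfb hg hc n z hz
    rw [div_pow, div_mul_eq_mul_div, le_div_iff₀ (by positivity)]
    calc ‖g z - z‖ * b ^ n = b ^ n * ‖g z - z‖ := by ring
      _ ≤ _ := h2
      _ = (a ^ 2) ^ n * (C * ‖z - z₀‖ ^ 2) := by ring
  have h2 : Tendsto (fun n : ℕ => (a ^ 2 / b) ^ n * (C * ‖z - z₀‖ ^ 2)) atTop
      (𝓝 (0 * (C * ‖z - z₀‖ ^ 2))) := by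
    apply Tendsto.mul_const
    exact tendsto_pow_atTop_nhds_zero_of_lt_one (by positivity) ((div_lt_one hb).2 hab)
  rw [zero_mul] at h2
  have h3 : ‖g z - z‖ ≤ 0 := ge_of_tendsto' h2 h1
  exact sub_eq_zero.1 (norm_le_zero_iff.1 h3)

/-- second order contact of a map tangent to the identity -/
theorem quad_bound {g : E → E} {z₀ : E} (hg : ContDiffAt ℂ 2 g z₀)
    (hgd : fderiv ℂ g z₀ = ContinuousLinearMap.id ℂ E) (hg0 : g z₀ = z₀) :
    ∃ C r, 0 < r ∧ ∀ z ∈ ball z₀ r, ‖g z - z‖ ≤ C * ‖z - z₀‖ ^ 2 := by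
  have h1 : ContDiffAt ℂ 1 (fderiv ℂ g) z₀ := hg.fderiv_right (by norm_num)
  obtain ⟨K, t, ht, hK⟩ := h1.restrict_scalars ℝ |>.exists_lipschitzOnWith
  have h2 : ∀ᶠ z in 𝓝 z₀, DifferentiableAt ℂ g z := by
    have := hg.eventually (by simp)
    filter_upwards [this] with z hz
    exact hz.differentiableAt (by simp)
  obtain ⟨r, hr, hball⟩ := Metric.eventually_nhds_iff_ball.1 ((show ∀ᶠ z in 𝓝 z₀, z ∈ t from ht).and h2)
  refine ⟨K, r, hr, fun z hz => ?_⟩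
  have hz' : ‖z - z₀‖ < r := by rwa [mem_ball_iff_norm] at hz
  have h3 : ∀ w ∈ closedBall z₀ ‖z - z₀‖,
      HasFDerivWithinAt (fun w => g w - w) (fderiv ℂ g w - ContinuousLinearMap.id ℂ E)
        (closedBall z₀ ‖z - z₀‖) w := by
    intro w hw
    have hw' : w ∈ ball z₀ r := (mem_closedBall.1 hw).trans_lt hz'
    exact ((hball w hw').2.hasFDerivAt.sub (hasFDerivAt_id w)).hasFDerivWithinAt
  have h4 : ∀ w ∈ closedBall z₀ ‖z - z₀‖, ‖fderiv ℂ g w - ContinuousLinearMap.id ℂ E‖ ≤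
      K * ‖z - z₀‖ := by
    intro w hw
    have hw' : w ∈ ball z₀ r := (mem_closedBall.1 hw).trans_lt hz'
    rw [← hgd]
    have h5 := hK.norm_sub_le (hball w hw').1 (hball z₀ (mem_ball_self hr)).1
    refine h5.trans ?_
    gcongr
    rwa [mem_closedBall, dist_eq_norm] at hw
  have h5 := (convex_closedBall z₀ ‖z - z₀‖).norm_image_sub_le_of_norm_hasFDerivWithin_le h3 h4
    (mem_closedBall_self (norm_nonneg _)) (show z ∈ closedBall z₀ ‖z - z₀‖ by
      rw [mem_closedBall, dist_eq_norm])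
  simp only [hg0, sub_self, sub_zero] at h5
  calc ‖g z - z‖ ≤ K * ‖z - z₀‖ * ‖z - z₀‖ := h5
    _ = _ := by ring

/-- a map tangent to the identity which commutes with a contraction whose derivative `A` satisfies
`b ‖v‖ ≤ ‖A v‖ ≤ a ‖v‖`, `a ^ 2 < b`, `a < 1`, is the identity -/
theorem eventually_eq_self {f g : E → E} {z₀ : E} {A : E →L[ℂ] E} {a b : ℝ}
    (hf : HasStrictFDerivAt f A z₀) (hf0 : f z₀ = z₀) (ha : ∀ v, ‖A v‖ ≤ a * ‖v‖)
    (hb : ∀ v, b * ‖v‖ ≤ ‖A v‖) (ha0 : 0 < a) (ha1 : a < 1) (hab : a ^ 2 < b)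
    (hg : ContDiffAt ℂ 2 g z₀) (hgd : fderiv ℂ g z₀ = ContinuousLinearMap.id ℂ E)
    (hg0 : g z₀ = z₀) (hc : ∀ᶠ z in 𝓝 z₀, g (f z) = f (g z)) : ∀ᶠ z in 𝓝 z₀, g z = z := by
  -- choice of the error
  have hb0 : 0 < b := by nlinarith
  obtain ⟨ε, hε, hε1, hε2, hε3⟩ : ∃ ε > 0, a + ε < 1 ∧ 0 < b - ε ∧ (a + ε) ^ 2 < b - ε := by
    refine ⟨min (1 - a) (min b (b - a ^ 2)) / 4, ?_, ?_, ?_, ?_⟩
    · have h1 : 0 < 1 - a := by linarith
      have h2 : 0 < b - a ^ 2 := by linarith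
      positivity
    · have := min_le_left (1 - a) (min b (b - a ^ 2))
      linarith
    · have := (min_le_right (1 - a) (min b (b - a ^ 2))).trans (min_le_left _ _)
      linarith
    · have h1 := min_le_left (1 - a) (min b (b - a ^ 2))
      have h2 := (min_le_right (1 - a) (min b (b - a ^ 2))).trans (min_le_right b _)
      have h3 : 0 < min (1 - a) (min b (b - a ^ 2)) := by
        have h1 : 0 < 1 - a := by linarith
        have h2 : 0 < b - a ^ 2 := by linarith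
        positivity
      set t := min (1 - a) (min b (b - a ^ 2))
      nlinarith [mul_pos h3 h3]
  -- the linear approximation
  have h1 := hf.isLittleO.def hε
  rw [nhds_prod_eq] at h1
  obtain ⟨P, hP, Q, hQ, hPQ⟩ := Filter.eventually_prod_iff.1 h1
  have hgc : ContinuousAt g z₀ := hg.continuousAt
  have hgP : ∀ᶠ z in 𝓝 z₀, P (g z) := by
    apply hgc.eventually
    rwa [hg0]
  obtain ⟨C, r₀, hr₀, hquad⟩ := quad_bound hg hgd hg0
  obtain ⟨r₁, hr₁, hball⟩ := Metric.eventually_nhds_iff_ball.1 (hP.and (hQ.and (hgP.and hc)))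
  have key := eq_of_iter (f := f) (g := g) (z₀ := z₀) (a := a + ε) (b := b - ε) (C := C)
    (r := min r₀ r₁) (by positivity) hε1.le hε2 hε3 (fun z hz => ?_) (fun z hz => ?_)
    (fun z hz => hquad z (ball_subset_ball (min_le_left _ _) hz))
    (fun z hz => (hball z (ball_subset_ball (min_le_right _ _) hz)).2.2.2)
  · filter_upwards [ball_mem_nhds z₀ (lt_min hr₀ hr₁)] with z hz
    exact key z hz
  · have hz' := hball z (ball_subset_ball (min_le_right _ _) hz)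
    have hz₀' := hball z₀ (mem_ball_self hr₁)
    have h2 := hPQ hz'.1 hz₀'.2.1
    simp only [hf0] at h2
    calc ‖f z - z₀‖ = ‖(f z - z₀ - A (z - z₀)) + A (z - z₀)‖ := by rw [sub_add_cancel]
      _ ≤ ‖f z - z₀ - A (z - z₀)‖ + ‖A (z - z₀)‖ := norm_add_le _ _
      _ ≤ ε * ‖z - z₀‖ + a * ‖z - z₀‖ := add_le_add h2 (ha _)
      _ = (a + ε) * ‖z - z₀‖ := by ring
  · have hz' := hball z (ball_subset_ball (min_le_right _ _) hz)
    have h2 := hPQ hz'.2.2.1 hz'.2.1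
    have h3 := hb (g z - z)
    have h4 : ‖A (g z - z)‖ ≤ ‖f (g z) - f z‖ + ‖f (g z) - f z - A (g z - z)‖ := by
      have : A (g z - z) = (f (g z) - f z) - (f (g z) - f z - A (g z - z)) := by abel
      calc ‖A (g z - z)‖ = ‖(f (g z) - f z) - (f (g z) - f z - A (g z - z))‖ := by rw [← this]
        _ ≤ _ := norm_sub_le _ _
    calc (b - ε) * ‖g z - z‖ = b * ‖g z - z‖ - ε * ‖g z - z‖ := by ring
      _ ≤ ‖f (g z) - f z‖ := by linarith

end Vale.Agent.P253.R2.H618
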