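import Vale.Agent.P253.R2.H445.VF.Inst
import Vale.Agent.P253.R2.H618.PLa
import Vale.Agent.P253.H577.Rig

/-!
P253: the derivative at a zero of a complete holomorphic vector field of its flow.
-/

open scoped Manifold ContDiff Topology Bundle
open Set Metric Complex Filter IsManifold Vale.Agent.P253.Mfd

set_option maxSynthPendingDepth 3
set_option linter.unusedSectionVars false

noncomputable section

namespace Vale.Agent.P253.R2.H618

open Vale.Agent.P253.R2.H445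

variable {E : Type*} [NormedAddCommGroup E] [NormedSpace ℂ E] [FiniteDimensional ℂ E]
  {M : Type*} [MetricSpace M] [ChartedSpace E M] [IsManifold 𝓘(ℂ, E) 1 M]
  {X : M → E} {ψ : ℂ → M → M} {p : M} {e : OpenPartialHomeomorph M E}

theorem two_le_infty : (2 : WithTop ℕ∞) ≤ ∞ :=
  show ((2 : ℕ∞) : WithTop ℕ∞) ≤ ∞ from WithTop.coe_le_coe.2 le_top

/-- zeros of the vector field are fixed points of the flow -/
theorem fixed_of_zero (hX : IsHolVectorField E X) (h : IsHolCFlow E ψ)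
    (horb : ∀ x, IsOrbitOn E X (fun ζ => ψ ζ x) univ) (hp : X p = 0) (ζ : ℂ) : ψ ζ p = p := by
  have h1 : IsOrbitOn E X (fun _ : ℂ => p) univ := by
    intro ζ _
    have h2 : HasMFDerivAt 𝓘(ℂ, ℂ) 𝓘(ℂ, E) (fun _ : ℂ => p) ζ
        (0 : ℂ →L[ℂ] E) := hasMFDerivAt_const p ζ
    refine h2.congr_mfderiv ?_
    have h3 : (0 : ℂ →L[ℂ] E) = (1 : ℂ →L[ℂ] ℂ).smulRight (X p) := by
      rw [hp]
      ext
      simp
    exact h3
  exact orbit_eqOn hX isOpen_univ isPreconnected_univ (horb p) h1 (mem_univ 0)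
    (h.zero p) (mem_univ ζ)

/-- the flow in a chart -/
def G (ψ : ℂ → M → M) (e : OpenPartialHomeomorph M E) (q : ℂ × E) : E := e (ψ q.1 (e.symm q.2))

def GO (ψ : ℂ → M → M) (e : OpenPartialHomeomorph M E) : Set (ℂ × E) :=
  {q | q.2 ∈ e.target ∧ ψ q.1 (e.symm q.2) ∈ e.source}

theorem isOpen_GO (h : IsHolCFlow E ψ) : IsOpen (GO ψ e) := by
  have hc : ContinuousOn (fun q : ℂ × E => ψ q.1 (e.symm q.2)) {q | q.2 ∈ e.target} := by
    have h1 : ContinuousOn (fun q : ℂ × E => (q.1, e.symm q.2)) {q | q.2 ∈ e.target} :=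
      continuousOn_fst.prodMk (e.continuousOn_symm.comp continuousOn_snd (fun q hq => hq))
    exact h.holo.continuous.comp_continuousOn h1
  have ho : IsOpen {q : ℂ × E | q.2 ∈ e.target} := e.open_target.preimage continuous_snd
  exact hc.isOpen_inter_preimage ho e.open_source

theorem contDiffOn_G (h : IsHolCFlow E ψ) (he : e ∈ maximalAtlas 𝓘(ℂ, E) 1 M) :
    ContDiffOn ℂ ∞ (G ψ e) (GO ψ e) := by
  have hCE : CompleteSpace E := FiniteDimensional.complete ℂ E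
  have h1 : ContMDiffOn (𝓘(ℂ, ℂ).prod 𝓘(ℂ, E)) (𝓘(ℂ, ℂ).prod 𝓘(ℂ, E)) 1
      (fun q : ℂ × E => (q.1, e.symm q.2)) (GO ψ e) := by
    refine ContMDiffOn.prodMk contMDiffOn_fst ?_
    exact (contMDiffOn_symm_of_mem_maximalAtlas he).comp contMDiffOn_snd (fun q hq => hq.1)
  have h2 := h.holo.comp_contMDiffOn h1
  have h3 := (contMDiffOn_of_mem_maximalAtlas he).comp h2 (fun q hq => hq.2)
  have h4 : ContMDiffOn 𝓘(ℂ, ℂ × E) 𝓘(ℂ, E) 1 (G ψ e) (GO ψ e) := by
    rw [← modelWithCornersSelf_prod, chartedSpaceSelf_prod] at h3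
    exact h3
  have h5 : ContDiffOn ℂ 1 (G ψ e) (GO ψ e) := contMDiffOn_iff_contDiffOn.1 h4
  exact contDiffOn_of_differentiableOn_complex (isOpen_GO h) (h5.differentiableOn (by simp))

theorem mem_GO (hfix : ∀ ζ, ψ ζ p = p) (hps : p ∈ e.source) (ζ : ℂ) : (ζ, e p) ∈ GO ψ e := by
  refine ⟨e.map_source hps, ?_⟩
  simp only
  rw [e.left_inv hps, hfix]
  exact hps

theorem G_fix (hfix : ∀ ζ, ψ ζ p = p) (hps : p ∈ e.source) (ζ : ℂ) : G ψ e (ζ, e p) = e p := by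
  simp only [G]
  rw [e.left_inv hps, hfix]

/-- the derivative of the flow at the fixed point -/
def J (ψ : ℂ → M → M) (e : OpenPartialHomeomorph M E) (p : M) (ζ : ℂ) : E →L[ℂ] E :=
  (fderiv ℂ (G ψ e) (ζ, e p)).comp (ContinuousLinearMap.inr ℂ ℂ E)

theorem contDiffAt_G (h : IsHolCFlow E ψ) (he : e ∈ maximalAtlas 𝓘(ℂ, E) 1 M)
    (hfix : ∀ ζ, ψ ζ p = p) (hps : p ∈ e.source) (ζ : ℂ) : ContDiffAt ℂ ∞ (G ψ e) (ζ, e p) :=
  (contDiffOn_G h he).contDiffAt ((isOpen_GO h).mem_nhds (mem_GO hfix hps ζ))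

theorem contDiffAt_slice (h : IsHolCFlow E ψ) (he : e ∈ maximalAtlas 𝓘(ℂ, E) 1 M)
    (hfix : ∀ ζ, ψ ζ p = p) (hps : p ∈ e.source) (ζ : ℂ) :
    ContDiffAt ℂ ∞ (fun z => G ψ e (ζ, z)) (e p) := by
  have h1 : ContDiffAt ℂ ∞ (fun z : E => (ζ, z)) (e p) := by fun_prop
  exact (contDiffAt_G h he hfix hps ζ).comp (e p) h1

theorem hasStrictFDerivAt_slice (h : IsHolCFlow E ψ) (he : e ∈ maximalAtlas 𝓘(ℂ, E) 1 M)
    (hfix : ∀ ζ, ψ ζ p = p) (hps : p ∈ e.source) (ζ : ℂ) :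
    HasStrictFDerivAt (fun z => G ψ e (ζ, z)) (J ψ e p ζ) (e p) := by
  have h1 := ((contDiffAt_G h he hfix hps ζ).differentiableAt (by simp)).hasFDerivAt
  have h2 : HasFDerivAt (fun w : E => (ζ, w)) (ContinuousLinearMap.inr ℂ ℂ E) (e p) :=
    hasFDerivAt_prodMk_right ζ (e p)
  have h3 : HasFDerivAt (fun z => G ψ e (ζ, z)) (J ψ e p ζ) (e p) := h1.comp (e p) h2
  exact (contDiffAt_slice h he hfix hps ζ).hasStrictFDerivAt' h3 (by simp)

/-- the flow law in the chart near the fixed point -/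
theorem G_add (h : IsHolCFlow E ψ) (hfix : ∀ ζ, ψ ζ p = p)
    (hps : p ∈ e.source) (s t : ℂ) :
    ∀ᶠ z in 𝓝 (e p), G ψ e (s + t, z) = G ψ e (s, G ψ e (t, z)) := by
  have h1 : ∀ᶠ z in 𝓝 (e p), (t, z) ∈ GO ψ e := by
    have h2 : Continuous (fun z : E => (t, z)) := by fun_prop
    exact h2.continuousAt.eventually ((isOpen_GO h).mem_nhds (mem_GO hfix hps t))
  filter_upwards [h1] with z hz
  simp only [G]
  rw [e.left_inv hz.2, h.add]

theorem J_add (h : IsHolCFlow E ψ) (he : e ∈ maximalAtlas 𝓘(ℂ, E) 1 M)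
    (hfix : ∀ ζ, ψ ζ p = p) (hps : p ∈ e.source) (s t : ℂ) :
    J ψ e p (s + t) = (J ψ e p s).comp (J ψ e p t) := by
  have h1 := (hasStrictFDerivAt_slice h he hfix hps (s + t)).hasFDerivAt
  have h2 := (hasStrictFDerivAt_slice h he hfix hps t).hasFDerivAt
  have h3 : HasFDerivAt (fun z => G ψ e (s, z)) (J ψ e p s) (G ψ e (t, e p)) := by
    rw [G_fix hfix hps]
    exact (hasStrictFDerivAt_slice h he hfix hps s).hasFDerivAt
  have h4 : HasFDerivAt (fun z => G ψ e (s + t, z)) ((J ψ e p s).comp (J ψ e p t)) (e p) :=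
    (HasFDerivAt.comp (g := fun z => G ψ e (s, z)) (f := fun z => G ψ e (t, z)) (e p) h3
      h2).congr_of_eventuallyEq (G_add h hfix hps s t)
  exact h1.unique h4

theorem J_zero (h : IsHolCFlow E ψ) (he : e ∈ maximalAtlas 𝓘(ℂ, E) 1 M)
    (hfix : ∀ ζ, ψ ζ p = p) (hps : p ∈ e.source) :
    J ψ e p 0 = ContinuousLinearMap.id ℂ E := by
  have h1 := (hasStrictFDerivAt_slice h he hfix hps 0).hasFDerivAt
  have h2 : HasFDerivAt (fun z => G ψ e (0, z)) (ContinuousLinearMap.id ℂ E) (e p) := by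
    refine (hasFDerivAt_id (e p)).congr_of_eventuallyEq ?_
    filter_upwards [e.open_target.mem_nhds (e.map_source hps)] with z hz
    simp only [G, h.zero, e.right_inv hz, id]
  exact h1.unique h2

/-- the time derivative -/
theorem hasDerivAt_J_zero (h : IsHolCFlow E ψ) (horb : ∀ x, IsOrbitOn E X (fun ζ => ψ ζ x) univ)
    (he : e ∈ maximalAtlas 𝓘(ℂ, E) 1 M) (hfix : ∀ ζ, ψ ζ p = p) (hps : p ∈ e.source)
    {L : E →L[ℂ] E} (hL : HasFDerivAt (vfChart E X e) L (e p)) (v : E) :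
    HasDerivAt (fun ζ => J ψ e p ζ v) (L v) 0 := by
  have hCE : CompleteSpace E := FiniteDimensional.complete ℂ E
  set q₀ : ℂ × E := (0, e p) with hq₀
  have hG := contDiffAt_G h he hfix hps 0
  -- the time derivative of the flow
  have h1 : ∀ᶠ q : ℂ × E in 𝓝 q₀, fderiv ℂ (G ψ e) q (1, 0) = vfChart E X e (G ψ e q) := by
    filter_upwards [(isOpen_GO h).mem_nhds (mem_GO hfix hps 0)] with q hq
    have h2 : HasDerivAt (fun w => e (ψ w (e.symm q.2))) (vfChart E X e (e (ψ q.1 (e.symm q.2))))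
        q.1 := orbit_chart he (horb (e.symm q.2) q.1 (mem_univ _)) hq.2
    have h3 : HasFDerivAt (G ψ e) (fderiv ℂ (G ψ e) q) q :=
      (((contDiffOn_G h he).contDiffAt ((isOpen_GO h).mem_nhds hq)).differentiableAt
        (by simp)).hasFDerivAt
    have h4 : HasDerivAt (fun w : ℂ => (w, q.2)) ((1 : ℂ), (0 : E)) q.1 :=
      (hasDerivAt_id q.1).prodMk (hasDerivAt_const q.1 q.2)
    have h5 : HasDerivAt (fun w => G ψ e (w, q.2)) (fderiv ℂ (G ψ e) q (1, 0)) q.1 :=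
      HasFDerivAt.comp_hasDerivAt (f := fun w : ℂ => (w, q.2)) q.1 h3 h4
    exact h5.unique h2
  -- second derivatives
  have hD : HasFDerivAt (fderiv ℂ (G ψ e)) (fderiv ℂ (fderiv ℂ (G ψ e)) q₀) q₀ :=
    ((hG.fderiv_right (m := ∞) (by simp)).differentiableAt (by simp)).hasFDerivAt
  have h2 : HasFDerivAt (fun q => fderiv ℂ (G ψ e) q (1, 0))
      ((fderiv ℂ (fderiv ℂ (G ψ e)) q₀).flip (1, 0)) q₀ := by
    have := hD.clm_apply (hasFDerivAt_const ((1 : ℂ), (0 : E)) q₀)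
    simpa using this
  have h3 : HasFDerivAt (fun q => vfChart E X e (G ψ e q)) (L.comp (fderiv ℂ (G ψ e) q₀)) q₀ := by
    have h4 : HasFDerivAt (vfChart E X e) L (G ψ e q₀) := by
      rw [hq₀, G_fix hfix hps]; exact hL
    exact h4.comp q₀ (hG.differentiableAt (by simp)).hasFDerivAt
  have h4 : (fderiv ℂ (fderiv ℂ (G ψ e)) q₀).flip (1, 0) = L.comp (fderiv ℂ (G ψ e) q₀) :=
    h2.unique (h3.congr_of_eventuallyEq h1)
  have h5 := congrArg (fun A : (ℂ × E) →L[ℂ] E => A (0, v)) h4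
  simp only [ContinuousLinearMap.flip_apply, ContinuousLinearMap.comp_apply] at h5
  have hsymm : IsSymmSndFDerivAt ℂ (G ψ e) q₀ :=
    hG.isSymmSndFDerivAt (by
      rw [minSmoothness_of_isRCLikeNormedField]
      exact two_le_infty)
  have h6 := hsymm (0, v) (1, 0)
  rw [h6] at h5
  have h7 : fderiv ℂ (G ψ e) q₀ (0, v) = v := by
    have := congrArg (fun A : E →L[ℂ] E => A v) (J_zero h he hfix hps)
    simpa [J] using this
  rw [h7] at h5
  have h8 : HasDerivAt (fun w : ℂ => (w, e p)) ((1 : ℂ), (0 : E)) 0 :=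
    (hasDerivAt_id (0:ℂ)).prodMk (hasDerivAt_const (0:ℂ) (e p))
  have h9 : HasDerivAt (fun w => fderiv ℂ (G ψ e) (w, e p))
      (fderiv ℂ (fderiv ℂ (G ψ e)) q₀ (1, 0)) 0 := hD.comp_hasDerivAt 0 h8
  have h10 := h9.clm_apply (hasDerivAt_const (0:ℂ) ((0 : ℂ), v))
  simp only [map_zero, add_zero] at h10
  rw [h5] at h10
  have h11 : (fun ζ => J ψ e p ζ v) = fun w => fderiv ℂ (G ψ e) (w, e p) (0, v) := by
    funext w
    simp [J]
  rw [h11]
  exact h10

theorem hasDerivAt_J (h : IsHolCFlow E ψ) (horb : ∀ x, IsOrbitOn E X (fun ζ => ψ ζ x) univ)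
    (he : e ∈ maximalAtlas 𝓘(ℂ, E) 1 M) (hfix : ∀ ζ, ψ ζ p = p) (hps : p ∈ e.source)
    {L : E →L[ℂ] E} (hL : HasFDerivAt (vfChart E X e) L (e p)) (v : E) (ζ : ℂ) :
    HasDerivAt (fun ζ => J ψ e p ζ v) (J ψ e p ζ (L v)) ζ := by
  have h1 := hasDerivAt_J_zero h horb he hfix hps hL v
  have h2 : HasDerivAt (fun w : ℂ => w - ζ) 1 ζ := (hasDerivAt_id ζ).sub_const ζ
  have h3 : HasDerivAt (fun w => J ψ e p (w - ζ) v) (L v) ζ := by
    have h4 : HasDerivAt (fun w => J ψ e p w v) (L v) (ζ - ζ) := by rwa [sub_self]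
    have := HasDerivAt.scomp (g₁ := fun w => J ψ e p w v) (h := fun w : ℂ => w - ζ) ζ h4 h2
    rw [one_smul] at this
    exact this
  have h4 : HasDerivAt (fun w => J ψ e p ζ (J ψ e p (w - ζ) v)) (J ψ e p ζ (L v)) ζ :=
    (J ψ e p ζ).hasFDerivAt.comp_hasDerivAt ζ h3
  have h5 : (fun w => J ψ e p w v) = fun w => J ψ e p ζ (J ψ e p (w - ζ) v) := by
    funext w
    have h6 := J_add h he hfix hps ζ (w - ζ)
    rw [add_sub_cancel] at h6
    rw [h6]
    rfl
  rw [h5]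
  exact h4

/-- on eigenvectors of the linear part of the vector field -/
theorem J_eigen (h : IsHolCFlow E ψ) (horb : ∀ x, IsOrbitOn E X (fun ζ => ψ ζ x) univ)
    (he : e ∈ maximalAtlas 𝓘(ℂ, E) 1 M) (hfix : ∀ ζ, ψ ζ p = p) (hps : p ∈ e.source)
    {L : E →L[ℂ] E} (hL : HasFDerivAt (vfChart E X e) L (e p)) {v : E} {μ : ℂ} (hv : L v = μ • v)
    (ζ : ℂ) : J ψ e p ζ v = exp (μ * ζ) • v := by
  have h1 : ∀ ζ, HasDerivAt (fun ζ => exp (-(μ * ζ)) • J ψ e p ζ v) 0 ζ := by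
    intro ζ
    have h2 := hasDerivAt_J h horb he hfix hps hL v ζ
    rw [hv, map_smul] at h2
    have h3 : HasDerivAt (fun ζ : ℂ => exp (-(μ * ζ))) (exp (-(μ * ζ)) * -μ) ζ := by
      have h4 : HasDerivAt (fun ζ : ℂ => -(μ * ζ)) (-μ) ζ := by
        have := ((hasDerivAt_id' ζ).const_mul μ).fun_neg
        simpa using this
      exact h4.cexp
    have h4 := h3.smul h2
    have h5 : exp (-(μ * ζ)) • μ • (J ψ e p ζ) v + (exp (-(μ * ζ)) * -μ) • (J ψ e p ζ) v = 0 := by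
      rw [smul_smul, ← add_smul]
      have : exp (-(μ * ζ)) * μ + exp (-(μ * ζ)) * -μ = 0 := by ring
      rw [this, zero_smul]
    rw [h5] at h4
    exact h4
  have h2 := is_const_of_deriv_eq_zero (fun ζ => (h1 ζ).differentiableAt) (fun ζ => (h1 ζ).deriv)
    ζ 0
  simp only [mul_zero, neg_zero, exp_zero, one_smul] at h2
  rw [J_zero h he hfix hps, ContinuousLinearMap.id_apply] at h2
  calc J ψ e p ζ v = (exp (μ * ζ) * exp (-(μ * ζ))) • J ψ e p ζ v := by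
        rw [← exp_add, add_neg_cancel, exp_zero, one_smul]
    _ = exp (μ * ζ) • (exp (-(μ * ζ)) • J ψ e p ζ v) := by rw [mul_smul]
    _ = exp (μ * ζ) • v := by rw [h2]

/-- the flow near a fixed point at a time `τ` where its derivative is the identity, when the
spectrum is narrow -/
theorem eventually_period (h : IsHolCFlow E ψ)
    (he : e ∈ maximalAtlas 𝓘(ℂ, E) 1 M) (hfix : ∀ ζ, ψ ζ p = p) (hps : p ∈ e.source)
    {τ σ : ℂ} {a b : ℝ} (hτ : J ψ e p τ = ContinuousLinearMap.id ℂ E)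
    (ha : ∀ v, ‖J ψ e p σ v‖ ≤ a * ‖v‖) (hb : ∀ v, b * ‖v‖ ≤ ‖J ψ e p σ v‖) (ha0 : 0 < a)
    (ha1 : a < 1) (hab : a ^ 2 < b) : ∀ᶠ x in 𝓝 p, ψ τ x = x := by
  have h1 : ∀ᶠ z in 𝓝 (e p), G ψ e (τ, z) = z := by
    refine eventually_eq_self (f := fun z => G ψ e (σ, z)) (g := fun z => G ψ e (τ, z))
      (hasStrictFDerivAt_slice h he hfix hps σ) (G_fix hfix hps σ) ha hb ha0 ha1 hab
      ((contDiffAt_slice h he hfix hps τ).of_le two_le_infty) ?_ (G_fix hfix hps τ) ?_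
    · rw [(hasStrictFDerivAt_slice h he hfix hps τ).hasFDerivAt.fderiv, hτ]
    · filter_upwards [G_add h hfix hps τ σ, G_add h hfix hps σ τ] with z h2 h3
      rw [← h2, ← h3, add_comm]
  have h2 : ∀ᶠ x in 𝓝 p, G ψ e (τ, e x) = e x := (e.continuousAt hps).eventually h1
  have h3 : ∀ᶠ x in 𝓝 p, ψ τ x ∈ e.source := by
    have h4 : Continuous (ψ τ) := h.holo.continuous.comp (by fun_prop : Continuous fun x => (τ, x))
    apply h4.continuousAt.eventually
    rw [hfix]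
    exact e.open_source.mem_nhds hps
  filter_upwards [h2, h3, e.open_source.mem_nhds hps] with x h4 h5 h6
  simp only [G, e.left_inv h6] at h4
  exact e.injOn h5 h6 h4

theorem mdiff_flow (h : IsHolCFlow E ψ) (ζ : ℂ) : MDifferentiable 𝓘(ℂ, E) 𝓘(ℂ, E) (ψ ζ) := by
  have h1 : ContMDiff 𝓘(ℂ, E) 𝓘(ℂ, E) 1 (ψ ζ) :=
    h.holo.comp (contMDiff_const.prodMk contMDiff_id)
  exact h1.mdifferentiable (by simp)

/-- Euler-like vector fields: if `X` vanishes at `p` and its linear part is `c` times the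
identity, then its flow has period `2 π i / c` -/
theorem period_of_euler [ConnectedSpace M] (hX : IsHolVectorField E X) (h : IsHolCFlow E ψ)
    (horb : ∀ x, IsOrbitOn E X (fun ζ => ψ ζ x) univ) (he : e ∈ maximalAtlas 𝓘(ℂ, E) 1 M)
    (hps : p ∈ e.source) (hp : X p = 0) {c : ℂ} (hc : c ≠ 0)
    (hL : HasFDerivAt (vfChart E X e) (c • ContinuousLinearMap.id ℂ E) (e p)) (x : M) :
    ψ (2 * Real.pi * I / c) x = x := by
  have hfix := fixed_of_zero hX h horb hp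
  have hJ : ∀ (ζ : ℂ) (v : E), J ψ e p ζ v = exp (c * ζ) • v := fun ζ v =>
    J_eigen h horb he hfix hps hL (by simp) ζ
  refine H577.eq_id_of_eventually (mdiff_flow h _) (p := p) ?_ x
  refine eventually_period (σ := -1 / c) (a := Real.exp (-1)) (b := Real.exp (-1)) h he hfix hps
    ?_ ?_ ?_ (Real.exp_pos _) ?_ ?_
  · ext v
    rw [hJ, mul_div_cancel₀ _ hc, exp_two_pi_mul_I, one_smul]
    rfl
  · intro v
    rw [hJ, norm_smul, mul_div_cancel₀ _ hc, Complex.norm_exp]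
    simp
  · intro v
    rw [hJ, norm_smul, mul_div_cancel₀ _ hc, Complex.norm_exp]
    simp
  · rw [Real.exp_lt_one_iff]; norm_num
  · have h1 : Real.exp (-1) < 1 := by rw [Real.exp_lt_one_iff]; norm_num
    have h2 := Real.exp_pos (-1)
    nlinarith

end Vale.Agent.P253.R2.H618
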