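import Vale.Agent.P253.R2.H618.Sq2

/-! P253, module M9 (Liouville), part 3: first order behaviour of the distance in the radial
direction. -/

open scoped Manifold ContDiff Topology Bundle
open Set Metric Complex Filter Bundle IsManifold Asymptotics

set_option maxSynthPendingDepth 3
set_option linter.unusedSectionVars false

noncomputable section

namespace Vale.Agent.P253.R2.H618

open Vale.Agent.P253.Mfd Vale.Agent.P253.Mfd.LocalKahler

section loc

variable {E : Type*} [NormedAddCommGroup E] [NormedSpace ℂ E] [FiniteDimensional ℂ E]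
  {G : E → E →L[ℝ] E →L[ℝ] ℝ} {U : Set E} {z : E}

theorem G_nonneg (h : LocalKahler G U) (hz : z ∈ U) (v : E) : 0 ≤ G z v v := by
  by_cases h0 : v = 0
  · simp [h0]
  · exact (h.pos _ hz _ h0).le

theorem G_cs (h : LocalKahler G U) (hz : z ∈ U) (v w : E) :
    G z v w ≤ √(G z v v) * √(G z w w) := by
  have hv := G_nonneg h hz v
  have hw := G_nonneg h hz w
  rw [← Real.sqrt_mul hv]
  apply Real.le_sqrt_of_sq_le
  by_cases h0 : w = 0
  · simp [h0]
  have hw' := h.pos _ hz _ h0
  have h1 := G_nonneg h hz (G z w w • v - G z v w • w)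
  simp only [map_sub, map_smul, sub_apply, smul_apply, smul_eq_mul, h.symm z hz w v] at h1
  have h2 : G z w w * (G z w w * G z v v - G z v w ^ 2) ≥ 0 := by
    have : G z w w * (G z w w * G z v v - G z v w ^ 2)
      = G z w w * (G z w w * G z v v) - G z v w * (G z w w * G z v w)
        - (G z w w * (G z v w * G z v w) - G z v w * (G z v w * G z w w)) := by ring
    rw [this]
    linarith only [h1]
  have h3 := nonneg_of_mul_nonneg_right h2 hw'
  linarith only [h3]

theorem G_tri (h : LocalKahler G U) (hz : z ∈ U) (v w : E) :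
    √(G z (v + w) (v + w)) ≤ √(G z v v) + √(G z w w) := by
  rw [Real.sqrt_le_left (by positivity)]
  have h1 := G_cs h hz v w
  have h2 : G z (v + w) (v + w) = G z v v + 2 * G z v w + G z w w := by
    simp only [map_add, add_apply, h.symm z hz w v]
    ring
  have h3 := Real.sq_sqrt (G_nonneg h hz v)
  have h4 := Real.sq_sqrt (G_nonneg h hz w)
  rw [h2]
  nlinarith only [h1, h3, h4]

theorem metric_near (h : LocalKahler G U) (hz : z ∈ U) {η : ℝ} (hη : 0 < η) :
    ∀ᶠ y in 𝓝 z, y ∈ U ∧ ∀ v, G z v v ≤ (1 + η) ^ 2 * G y v v ∧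
      G y v v ≤ (1 + η) ^ 2 * G z v v := by
  obtain ⟨m, hm, hlow⟩ := h.exists_lower (K := {z}) isCompact_singleton (singleton_subset_iff.2 hz)
  have hc : ContinuousAt G z := (h.differentiableAt hz).continuousAt
  have h1 : ∀ᶠ y in 𝓝 z, ‖G y - G z‖ ≤ m * (η / (1 + η)) := by
    have h2 : Tendsto (fun y => ‖G y - G z‖) (𝓝 z) (𝓝 ‖G z - G z‖) :=
      (hc.sub continuousAt_const).norm
    rw [sub_self, norm_zero] at h2
    exact h2.eventually (ge_mem_nhds (by positivity))
  filter_upwards [h1, h.isOpen.mem_nhds hz] with y hy hyU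
  refine ⟨hyU, fun v => ?_⟩
  have h2 : |G y v v - G z v v| ≤ η / (1 + η) * G z v v := by
    have h3 : G y v v - G z v v = (G y - G z) v v := by simp
    rw [h3, ← Real.norm_eq_abs]
    calc _ ≤ ‖G y - G z‖ * ‖v‖ * ‖v‖ := (G y - G z).le_opNorm₂ v v
      _ ≤ m * (η / (1 + η)) * ‖v‖ * ‖v‖ := by gcongr
      _ = η / (1 + η) * (m * ‖v‖ ^ 2) := by ring
      _ ≤ _ := by
        gcongr
        exact hlow z rfl v
  rw [abs_le] at h2
  obtain ⟨h3, h4⟩ := h2
  have hg := G_nonneg h hz v
  have hgy := G_nonneg h hyU v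
  constructor
  · -- G z ≤ (1+η) G y
    have e1 : G z v v * (1 / (1 + η)) ≤ G y v v := by
      have : G z v v * (1 / (1 + η)) = G z v v - η / (1 + η) * G z v v := by
        field_simp; ring
      rw [this]; linarith only [h3]
    have e2 : G z v v ≤ (1 + η) * G y v v := by
      have := mul_le_mul_of_nonneg_left e1 (by positivity : 0 ≤ 1 + η)
      have e3 : (1 + η) * (G z v v * (1 / (1 + η))) = G z v v := by field_simp
      linarith only [this, e3]
    have e4 : 0 ≤ η * (1 + η) * G y v v := by positivity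
    have e5 : (1 + η) ^ 2 * G y v v = (1 + η) * G y v v + η * (1 + η) * G y v v := by ring
    rw [e5]
    linarith only [e2, e4]
  · have e1 : η / (1 + η) ≤ η := by
      rw [div_le_iff₀ (by positivity)]
      nlinarith only [hη]
    have e2 : η / (1 + η) * G z v v ≤ η * G z v v := by gcongr
    have e4 : 0 ≤ η * (1 + η) * G z v v := by positivity
    have e5 : (1 + η) ^ 2 * G z v v = G z v v + η * G z v v + η * (1 + η) * G z v v := by ring
    rw [e5]
    linarith only [h4, e2, e4]

end loc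

section rad

variable {E : Type*} [NormedAddCommGroup E] [NormedSpace ℂ E] [FiniteDimensional ℂ E]
  {M : Type*} [MetricSpace M] [ChartedSpace E M]
  [IsManifold 𝓘(ℂ, E) 1 M] [IsManifold 𝓘(ℝ, E) ∞ M]
  [RiemannianBundle (fun x : M => TangentSpace 𝓘(ℝ, E) x)]
  [IsContMDiffRiemannianBundle 𝓘(ℝ, E) ∞ E (fun x : M => TangentSpace 𝓘(ℝ, E) x)]
  [IsRiemannianManifold 𝓘(ℝ, E) M]

/-- In a chart the distance is, near a point, at most `1 + η` times the norm at that point. -/
theorem dist_le_near (hK : IsKahler E M) {e : OpenPartialHomeomorph M E}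
    (he : e ∈ maximalAtlas 𝓘(ℂ, E) 1 M) {x : M} (hx : x ∈ e.source) {η : ℝ} (hη : 0 < η) :
    ∃ δ > 0, ball (e x) δ ⊆ e.target ∧ ∀ a ∈ ball (e x) δ, ∀ b ∈ ball (e x) δ,
      dist (e.symm a) (e.symm b) ≤ (1 + η) * √(chartG e (e x) (b - a) (b - a)) := by
  have her := mem_maximalAtlas_real he
  have hLK := localKahler_chartG hK he
  obtain ⟨δ, hδ, hball⟩ := Metric.eventually_nhds_iff_ball.1
    (metric_near hLK (e.map_source hx) hη)
  refine ⟨δ, hδ, fun y hy => (hball y hy).1, fun a ha b hb => ?_⟩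
  set c : ℝ → E := fun t => a + t • (b - a) with hc
  have hcd : ∀ t ∈ Icc (0:ℝ) 1, HasDerivWithinAt c ((fun _ => b - a) t) (Icc 0 1) t := by
    intro t _
    have h1 : HasDerivAt c ((1:ℝ) • (b - a)) t := ((hasDerivAt_id t).smul_const (b - a)).const_add a
    rw [one_smul] at h1
    exact h1.hasDerivWithinAt
  have hcb : ∀ t ∈ Icc (0:ℝ) 1, c t ∈ ball (e x) δ := by
    intro t ht
    have := (convex_ball (e x) δ).add_smul_sub_mem ha hb ht
    exact this
  have h1 := dist_le_chart her zero_le_one hcd continuousOn_const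
    (fun t ht => (hball _ (hcb t ht)).1)
  have h0 : c 0 = a := by simp [hc]
  have h1' : c 1 = b := by simp [hc]
  rw [h0, h1'] at h1
  have hnonneg := G_nonneg hLK (e.map_source hx) (b - a)
  refine h1.trans ?_
  have h2 : ∫ t in (0:ℝ)..1, √(chartG e (c t) (b - a) (b - a)) ≤
      ∫ t in (0:ℝ)..1, (1 + η) * √(chartG e (e x) (b - a) (b - a)) := by
    refine intervalIntegral.integral_mono_on zero_le_one ?_ (by simp) (fun t ht => ?_)
    · apply ContinuousOn.intervalIntegrable_of_Icc zero_le_one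
      have hcc : ContinuousOn c (Icc 0 1) := fun t ht => (hcd t ht).continuousWithinAt
      have hG : ContinuousOn (fun t => chartG e (c t)) (Icc 0 1) :=
        (contDiffOn_chartG her).continuousOn.comp hcc (fun t ht => (hball _ (hcb t ht)).1)
      exact ((hG.clm_apply continuousOn_const).clm_apply continuousOn_const).sqrt
    · have h3 := ((hball _ (hcb t ht)).2 (b - a)).2
      rw [Real.sqrt_le_left (by positivity), mul_pow, Real.sq_sqrt hnonneg]
      exact h3
  simpa using h2

/-- In a chart the norm at `x` is, near `x`, at most `1 + η` times the distance. -/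
theorem norm_le_near (hK : IsKahler E M) {e : OpenPartialHomeomorph M E}
    (he : e ∈ maximalAtlas 𝓘(ℂ, E) 1 M) {x : M} (hx : x ∈ e.source) {η : ℝ} (hη : 0 < η) :
    ∃ δ > 0, ball x δ ⊆ e.source ∧ ∀ y ∈ ball x δ,
      √(chartG e (e x) (e y - e x) (e y - e x)) ≤ (1 + η) * dist x y := by
  have her := mem_maximalAtlas_real he
  have hLK := localKahler_chartG hK he
  have h1 : ∀ᶠ y in 𝓝 x, y ∈ e.source ∧ ∀ v, chartG e (e x) v v ≤ (1 + η) ^ 2 *
      chartG e (e y) v v := by
    have h2 := (e.continuousAt hx).eventually (metric_near hLK (e.map_source hx) hη)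
    filter_upwards [h2, e.open_source.mem_nhds hx] with y hy hys
    exact ⟨hys, fun v => (hy.2 v).1⟩
  obtain ⟨δ, hδ, hball⟩ := Metric.eventually_nhds_iff_ball.1 h1
  refine ⟨δ, hδ, fun y hy => (hball y hy).1, fun y hy => ?_⟩
  have hyd : dist x y < δ := by rwa [mem_ball'] at hy
  refine le_of_forall_pos_le_add fun ε' hε' => ?_
  set ε := min (ε' / (1 + η)) (δ - dist x y) with hε
  have hε0 : 0 < ε := lt_min (by positivity) (by linarith only [hyd])
  obtain ⟨c, c', h1, h2, h3, h4, h5, h6⟩ := exists_chart_curve her (x := x) (y := y)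
    (r := δ) (ε := ε) (fun y hy => (hball y hy).1) hε0
    (by linarith only [min_le_right (ε' / (1 + η)) (δ - dist x y), hε])
  set v := e y - e x with hv
  have hxt := e.map_source hx
  have hNv := G_nonneg hLK hxt v
  have hcc : ContinuousOn c (Icc 0 1) := fun t ht => (h1 t ht).continuousWithinAt
  have hmem : ∀ t ∈ Icc (0:ℝ) 1, e.symm (c t) ∈ ball x δ := by
    intro t ht
    rw [mem_ball']
    linarith only [(h5 t ht).2, min_le_right (ε' / (1 + η)) (δ - dist x y), hε]
  -- FTC
  have hG1 : ∫ t in (0:ℝ)..1, chartG e (e x) v (c' t) = chartG e (e x) v v := by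
    have hci : IntervalIntegrable c' MeasureTheory.volume 0 1 :=
      h2.intervalIntegrable_of_Icc zero_le_one
    have e1 : ∫ t in (0:ℝ)..1, c' t = v := by
      rw [intervalIntegral.integral_eq_sub_of_hasDeriv_right_of_le zero_le_one hcc
        (fun t ht => ?_) hci, h3, h4]
      exact ((h1 t (Ioo_subset_Icc_self ht)).hasDerivAt (Icc_mem_nhds ht.1 ht.2)).hasDerivWithinAt
    have e2 := (chartG e (e x) v).intervalIntegral_comp_comm hci
    rw [e2, e1]
  have hcont : ContinuousOn (fun t => √(chartG e (c t) (c' t) (c' t))) (Icc 0 1) := by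
    have hG : ContinuousOn (fun t => chartG e (c t)) (Icc 0 1) :=
      (contDiffOn_chartG her).continuousOn.comp hcc (fun t ht => (h5 t ht).1)
    exact ((hG.clm_apply h2).clm_apply h2).sqrt
  have hle : chartG e (e x) v v ≤ √(chartG e (e x) v v) * (1 + η) * (dist x y + ε) := by
    calc chartG e (e x) v v = ∫ t in (0:ℝ)..1, chartG e (e x) v (c' t) := hG1.symm
      _ ≤ ∫ t in (0:ℝ)..1, √(chartG e (e x) v v) * (1 + η) * √(chartG e (c t) (c' t) (c' t)) := by
          refine intervalIntegral.integral_mono_on zero_le_one ?_ ?_ (fun t ht => ?_)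
          · exact (ContinuousOn.clm_apply continuousOn_const h2).intervalIntegrable_of_Icc zero_le_one
          · exact (continuousOn_const.mul hcont).intervalIntegrable_of_Icc zero_le_one
          · refine (G_cs hLK hxt v (c' t)).trans ?_
            rw [mul_assoc]
            gcongr
            have h7 := (hball _ (hmem t ht)).2 (c' t)
            rw [e.right_inv (h5 t ht).1] at h7
            have h8 := G_nonneg hLK (h5 t ht).1 (c' t)
            rw [Real.sqrt_le_left (by positivity), mul_pow, Real.sq_sqrt h8]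
            exact h7
      _ = √(chartG e (e x) v v) * (1 + η) * ∫ t in (0:ℝ)..1, √(chartG e (c t) (c' t) (c' t)) := by
          rw [intervalIntegral.integral_const_mul]
      _ ≤ _ := mul_le_mul_of_nonneg_left h6.le (by positivity)
  have hε1 : (1 + η) * ε ≤ ε' := by
    have : ε ≤ ε' / (1 + η) := min_le_left _ _
    calc (1 + η) * ε ≤ (1 + η) * (ε' / (1 + η)) := by gcongr
      _ = ε' := by field_simp
  rcases hNv.eq_or_lt with h0 | h0
  · rw [← h0, Real.sqrt_zero]
    positivity
  · have hs : 0 < √(chartG e (e x) v v) := Real.sqrt_pos.2 h0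
    have h9 : √(chartG e (e x) v v) * √(chartG e (e x) v v)
        ≤ √(chartG e (e x) v v) * ((1 + η) * (dist x y + ε)) := by
      rw [Real.mul_self_sqrt hNv, ← mul_assoc]
      exact hle
    have h10 := le_of_mul_le_mul_left h9 hs
    linarith only [h10, hε1]

theorem norm_add_aux {h r : ℝ} (hr : 0 < r) (hrh : r ≤ h) {w : ℂ} (hw : ‖w‖ = 1) :
    ‖(h : ℂ) + r * w‖ ≤ h + r * w.re + r ^ 2 / h := by
  have hh : 0 < h := hr.trans_le hrh
  have h1 : |w.re| ≤ 1 := hw ▸ Complex.abs_re_le_norm w
  have h2 : 0 ≤ h + r * w.re + r ^ 2 / h := by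
    have h3 : -1 ≤ w.re := (abs_le.1 h1).1
    have h4 : 0 ≤ r ^ 2 / h := by positivity
    nlinarith only [h3, h4, hr, hrh]
  apply le_of_sq_le_sq _ h2
  have h5 : w.re ^ 2 + w.im ^ 2 = 1 := by
    have := Complex.sq_norm w
    rw [hw, Complex.normSq_apply] at this
    linarith only [this]
  rw [Complex.sq_norm, Complex.normSq_apply]
  simp only [add_re, ofReal_re, mul_re, ofReal_im, zero_mul, sub_zero, add_im, mul_im, add_zero,
    zero_add]
  have h6 : (h + r * w.re + r ^ 2 / h) ^ 2 = h ^ 2 + 2 * h * r * w.re + 2 * r ^ 2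
      + (r * w.re + r ^ 2 / h) ^ 2 := by
    field_simp
    ring
  rw [h6]
  have h7 : (h + r * w.re) * (h + r * w.re) + r * w.im * (r * w.im)
      = h ^ 2 + 2 * h * r * w.re + r ^ 2 * (w.re ^ 2 + w.im ^ 2) := by ring
  rw [h7, h5]
  have h8 : 0 ≤ (r * w.re + r ^ 2 / h) ^ 2 := sq_nonneg _
  have h9 : 0 ≤ r ^ 2 := sq_nonneg _
  linarith only [h8, h9]

/-- The radial direction: first order upper bound for the distance to `p`. -/
theorem exists_radial (hK : IsKahler E M) [ProperSpace M] {e : OpenPartialHomeomorph M E}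
    (he : e ∈ maximalAtlas 𝓘(ℂ, E) 1 M) {x p : M} (hx : x ∈ e.source) (hne : x ≠ p) :
    ∃ Y : E, chartG e (e x) Y Y = 1 ∧ ∀ η > 0, ∃ᶠ r in 𝓝[>] (0:ℝ), ∀ w : ℂ, ‖w‖ = 1 →
      dist (e.symm (e x + r • (w • Y))) p ≤ dist x p + r * w.re + η * r := by
  have hprop : ProperSpace E := FiniteDimensional.proper ℂ E
  have hLK := localKahler_chartG hK he
  have hxt := e.map_source hx
  set N : E → ℝ := fun v => √(chartG e (e x) v v) with hN
  have hN0 : ∀ v, 0 ≤ N v := fun v => Real.sqrt_nonneg _
  have hNsq : ∀ v, N v ^ 2 = chartG e (e x) v v := fun v => Real.sq_sqrt (G_nonneg hLK hxt v)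
  have hNtri : ∀ v w, N (v + w) ≤ N v + N w := fun v w => G_tri hLK hxt v w
  have hNc : ∀ (w : ℂ) (v : E), N (w • v) = ‖w‖ * N v := by
    intro w v
    simp only [hN]
    rw [G_smul_complex hLK hxt, Real.sqrt_mul (by positivity), Real.sqrt_sq (norm_nonneg _)]
  have hNr : ∀ (t : ℝ) (v : E), N (t • v) = |t| * N v := by
    intro t v
    have := hNc (t : ℂ) v
    rwa [Complex.coe_smul, Complex.norm_real, Real.norm_eq_abs] at this
  have hNcont : Continuous N := by
    simp only [hN]; fun_prop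
  obtain ⟨m, hm, hlow⟩ := hLK.exists_lower (K := {e x}) isCompact_singleton
    (singleton_subset_iff.2 hxt)
  set D := dist x p with hD
  have hD0 : 0 < D := dist_pos.2 hne
  -- scale at which the chart is 2-bilipschitz
  obtain ⟨δ₁, hδ₁, hsrc₁, hlow₁⟩ := norm_le_near hK he hx (η := 1) one_pos
  set s := min D (δ₁ / 2) with hs
  have hs0 : 0 < s := by positivity
  set h : ℕ → ℝ := fun n => s / ((n:ℝ) + 1) with hh
  have hh0 : ∀ n, 0 < h n := fun n => by simp only [hh]; positivity
  have hhs : ∀ n, h n ≤ s := fun n => by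
    simp only [hh]
    apply div_le_self hs0.le
    have : (0:ℝ) ≤ n := Nat.cast_nonneg n
    linarith only [this]
  have hhlim : Tendsto h atTop (𝓝 0) := by
    have := (tendsto_one_div_add_atTop_nhds_zero_nat (𝕜 := ℝ)).const_mul s
    simp only [mul_zero] at this
    refine this.congr (fun n => ?_)
    simp only [hh]; ring
  have hmid : ∀ n, ∃ z : M, dist x z = h n ∧ dist z p = D - h n := fun n =>
    exists_mid (approxMid_of_riemannian E M) x p (h n) (hh0 n).le
      ((hhs n).trans (min_le_left _ _))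
  choose z hz1 hz2 using hmid
  have hzball : ∀ n, z n ∈ ball x δ₁ := by
    intro n
    rw [mem_ball', hz1]
    have h1 := hhs n
    have h2 : s ≤ δ₁ / 2 := min_le_right _ _
    linarith only [h1, h2, hδ₁]
  have hzsrc : ∀ n, z n ∈ e.source := fun n => hsrc₁ (hzball n)
  set Yn : ℕ → E := fun n => (h n)⁻¹ • (e x - e (z n)) with hYn
  have hYn' : ∀ n, h n • Yn n = e x - e (z n) := by
    intro n
    simp only [hYn]
    rw [smul_smul, mul_inv_cancel₀ (hh0 n).ne', one_smul]
  have hNsub : ∀ a b : E, N (a - b) = N (b - a) := by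
    intro a b
    have := hNr (-1) (b - a)
    rw [neg_one_smul, neg_sub, abs_neg, abs_one, one_mul] at this
    exact this
  have hNYn : ∀ n, N (Yn n) = (h n)⁻¹ * N (e (z n) - e x) := by
    intro n
    simp only [hYn]
    rw [hNr, abs_of_pos (inv_pos.2 (hh0 n)), hNsub]
  have hYbd : ∀ n, ‖Yn n‖ ≤ √(4 / m) := by
    intro n
    apply Real.le_sqrt_of_sq_le
    rw [le_div_iff₀ hm, mul_comm]
    refine (hlow _ rfl _).trans ?_
    rw [← hNsq, hNYn]
    have h1 := hlow₁ _ (hzball n)
    rw [hz1] at h1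
    have h2 : (h n)⁻¹ * N (e (z n) - e x) ≤ 2 := by
      rw [inv_mul_le_iff₀ (hh0 n)]
      simp only [hN]
      linarith only [h1]
    have h3 : 0 ≤ (h n)⁻¹ * N (e (z n) - e x) := mul_nonneg (inv_pos.2 (hh0 n)).le (hN0 _)
    nlinarith only [h2, h3]
  obtain ⟨Y, -, φ, hφ, hlim⟩ := (isCompact_closedBall (0:E) √(4 / m)).tendsto_subseq
    (x := Yn) (fun n => by simpa using hYbd n)
  have hhφ : Tendsto (fun n => h (φ n)) atTop (𝓝 0) := hhlim.comp hφ.tendsto_atTop
  -- the limit of N (Yn) is one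
  have hNlim : Tendsto (fun n => N (Yn n)) atTop (𝓝 1) := by
    rw [Metric.tendsto_atTop]
    intro ε hε
    set η := min (ε / 2) 1 with hη
    have hη0 : 0 < η := by positivity
    obtain ⟨δ₂, hδ₂, -, hl2⟩ := norm_le_near hK he hx hη0
    obtain ⟨δ₃, hδ₃, -, hl3⟩ := dist_le_near hK he hx hη0
    have hzlim : Tendsto z atTop (𝓝 x) := by
      rw [tendsto_iff_dist_tendsto_zero]
      refine hhlim.congr (fun n => ?_)
      rw [dist_comm, hz1]
    have hezlim : Tendsto (fun n => e (z n)) atTop (𝓝 (e x)) := (e.continuousAt hx).tendsto.comp hzlim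
    have h1 := hzlim.eventually (ball_mem_nhds x hδ₂)
    have h2 := hezlim.eventually (ball_mem_nhds (e x) hδ₃)
    obtain ⟨n₀, hn₀⟩ := eventually_atTop.1 (h1.and h2)
    refine ⟨n₀, fun n hn => ?_⟩
    obtain ⟨h3, h4⟩ := hn₀ n hn
    have h5 := hl2 _ h3
    have h6 := hl3 _ (mem_ball_self hδ₃) _ h4
    rw [e.left_inv hx, e.left_inv (hzsrc n), hz1] at h6
    rw [hz1] at h5
    have hhn := hh0 n
    have h7 : N (Yn n) ≤ 1 + η := by
      rw [hNYn, inv_mul_le_iff₀ hhn]
      simp only [hN]
      linarith only [h5]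
    have h8 : 1 ≤ (1 + η) * N (Yn n) := by
      rw [hNYn]
      have e1 : (1 + η) * ((h n)⁻¹ * N (e (z n) - e x)) = ((1 + η) * N (e (z n) - e x)) / h n := by
        field_simp
      rw [e1, le_div_iff₀ hhn, one_mul]
      exact h6
    have hη1 : η ≤ ε / 2 := min_le_left _ _
    rw [Real.dist_eq, abs_lt]
    have h9 := hN0 (Yn n)
    constructor
    · -- N ≥ 1/(1+η) ≥ 1 - η
      nlinarith only [h8, h9, hη0, hη1, h7, hε]
    · linarith only [h7, hη1, hε]
  have hNY : N Y = 1 := by
    have h1 : Tendsto (fun n => N (Yn (φ n))) atTop (𝓝 (N Y)) := (hNcont.tendsto Y).comp hlim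
    exact tendsto_nhds_unique h1 (hNlim.comp hφ.tendsto_atTop)
  refine ⟨Y, by rw [← hNsq, hNY]; norm_num, fun η hη => ?_⟩
  set R := 8 / η + 1 with hR
  have hR1 : 1 ≤ R := by
    have : 0 < 8 / η := by positivity
    rw [hR]; linarith only [this]
  have hR0 : 0 < R := by linarith only [hR1]
  set η' := min 1 (η / (4 * (R + 1))) with hη'
  have hη'0 : 0 < η' := by positivity
  obtain ⟨δ₃, hδ₃, hb3, hl3⟩ := dist_le_near hK he hx hη'0
  -- the sequence of radii
  have hrlim : Tendsto (fun n => h (φ n) / R) atTop (𝓝[>] (0:ℝ)) := by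
    rw [tendsto_nhdsWithin_iff]
    refine ⟨?_, Eventually.of_forall fun n => ?_⟩
    · simpa using hhφ.div_const R
    · have := hh0 (φ n)
      rw [mem_Ioi]; positivity
  refine hrlim.frequently (Eventually.frequently ?_)
  have hezlim : Tendsto (fun n => e (z (φ n))) atTop (𝓝 (e x)) := by
    have hzlim : Tendsto z atTop (𝓝 x) := by
      rw [tendsto_iff_dist_tendsto_zero]
      refine hhlim.congr (fun n => ?_)
      rw [dist_comm, hz1]
    exact (e.continuousAt hx).tendsto.comp (hzlim.comp hφ.tendsto_atTop)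
  have hE1 := hezlim.eventually (ball_mem_nhds (e x) hδ₃)
  have hE2 : ∀ᶠ n in atTop, N (Yn (φ n) - Y) ≤ η / (8 * R) := by
    have h1 : Tendsto (fun n => N (Yn (φ n) - Y)) atTop (𝓝 (N (Y - Y))) :=
      (hNcont.tendsto _).comp (hlim.sub_const Y)
    have h2 : N (Y - Y) = 0 := by simp [hN]
    rw [h2] at h1
    exact h1.eventually (ge_mem_nhds (by positivity))
  have hE3 : ∀ᶠ n in atTop, h (φ n) / R * ‖Y‖ < δ₃ := by
    have h1 : Tendsto (fun n => h (φ n) / R * ‖Y‖) atTop (𝓝 (0 / R * ‖Y‖)) :=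
      (hhφ.div_const R).mul_const _
    rw [zero_div, zero_mul] at h1
    exact h1.eventually (gt_mem_nhds hδ₃)
  filter_upwards [hE1, hE2, hE3] with n hn1 hn2 hn3 w hw
  set i := φ n with hi
  set r := h i / R with hr
  have hhi := hh0 i
  have hr0 : 0 < r := by positivity
  have hhr : h i = R * r := by rw [hr]; field_simp
  have hrh : r ≤ h i := by rw [hhr]; nlinarith only [hR1, hr0]
  have hin : e x + r • (w • Y) ∈ ball (e x) δ₃ := by
    rw [mem_ball, dist_eq_norm, add_sub_cancel_left, norm_smul, norm_smul, hw, one_mul,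
      Real.norm_of_nonneg hr0.le]
    exact hn3
  have h1 := hl3 _ hn1 _ hin
  rw [e.left_inv (hzsrc i)] at h1
  have h2 : e x + r • (w • Y) - e (z i) = h i • (Yn i - Y) + ((h i : ℂ) + r * w) • Y := by
    rw [smul_sub, hYn', add_smul, mul_smul, Complex.coe_smul, Complex.coe_smul]
    abel
  have h3 : N (e x + r • (w • Y) - e (z i)) ≤ h i * N (Yn i - Y) + (h i + r * w.re + r ^ 2 / h i) := by
    rw [h2]
    refine (hNtri _ _).trans ?_
    rw [hNr, hNc, hNY, mul_one, abs_of_pos hhi]
    gcongr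
    exact norm_add_aux hr0 hrh hw
  have h4 : dist (e.symm (e x + r • (w • Y))) p ≤ dist (z i) (e.symm (e x + r • (w • Y)))
      + (D - h i) := by
    rw [← hz2, dist_comm (z i)]
    exact dist_triangle _ _ _
  have h5 : dist (z i) (e.symm (e x + r • (w • Y)))
      ≤ (1 + η') * (h i * N (Yn i - Y) + (h i + r * w.re + r ^ 2 / h i)) := by
    refine h1.trans ?_
    gcongr
  have hwre : |w.re| ≤ 1 := hw ▸ Complex.abs_re_le_norm w
  have h6 : r ^ 2 / h i = r / R := by rw [hhr]; field_simp
  rw [h6, hhr] at h5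
  have h7 : R * r * N (Yn i - Y) ≤ r * (η / 8) := by
    calc R * r * N (Yn i - Y) ≤ R * r * (η / (8 * R)) := by gcongr
      _ = r * (η / 8) := by field_simp
  have h8 : r / R ≤ r * (η / 8) := by
    rw [div_le_iff₀ hR0]
    have : 1 ≤ η / 8 * R := by
      rw [hR]
      have : η / 8 * (8 / η + 1) = 1 + η / 8 := by field_simp
      rw [this]; linarith only [hη]
    calc r = r * 1 := by ring
      _ ≤ r * (η / 8 * R) := by gcongr
      _ = _ := by ring
  have hη'1 : η' ≤ 1 := min_le_left _ _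
  have hη'2 : η' ≤ η / (4 * (R + 1)) := min_le_right _ _
  have h9 : η' * (R * r + r * w.re) ≤ η / 4 * r := by
    have e1 : R * r + r * w.re ≤ (R + 1) * r := by
      have := (abs_le.1 hwre).2
      nlinarith only [this, hr0]
    calc _ ≤ η' * ((R + 1) * r) := by gcongr
      _ ≤ η / (4 * (R + 1)) * ((R + 1) * r) := by gcongr
      _ = η / 4 * r := by field_simp
  have h10 : 0 ≤ N (Yn i - Y) := hN0 _
  have h11 : (1 + η') * (R * r * N (Yn i - Y) + (R * r + r * w.re + r / R))
      = (R * r + r * w.re) + η' * (R * r + r * w.re)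
        + (1 + η') * (R * r * N (Yn i - Y) + r / R) := by ring
  have h12 : (1 + η') * (R * r * N (Yn i - Y) + r / R) ≤ 2 * (r * (η / 8) + r * (η / 8)) := by
    have e1 : 0 ≤ R * r * N (Yn i - Y) + r / R := by positivity
    calc _ ≤ 2 * (R * r * N (Yn i - Y) + r / R) := by gcongr; linarith only [hη'1]
      _ ≤ _ := by gcongr
  rw [h11] at h5
  rw [hhr] at h4
  have h13 : 0 ≤ η * r := by positivity
  linarith only [h4, h5, h9, h12, h13]

end rad

end Vale.Agent.P253.R2.H618
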