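import Vale.Agent.P253.Bdl.B1

/-! P253, module M9 (Liouville), part 1: the energy form of the second variation inequality. -/

open scoped ContDiff Topology
open Set Metric Complex Filter

set_option maxSynthPendingDepth 3
set_option linter.unusedSectionVars false

noncomputable section

namespace Vale.Agent.P253.R2.H618

open Vale.Agent.P253.Mfd Vale.Agent.P253.Mfd.LocalKahler

variable {E : Type*} [NormedAddCommGroup E] [NormedSpace ℂ E] [FiniteDimensional ℂ E]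
  {G : E → E →L[ℝ] E →L[ℝ] ℝ} {U : Set E} {z : E}

set_option maxHeartbeats 1000000 in
/-- squared version of `variation` (energy): the sum of the squares of the four distances. -/
theorem variation_sq (h : LocalKahler G U) {K : Set E} (hKU : K ⊆ U)
    (hcurv₀ : ∀ z ∈ K, ∀ X a, 0 ≤ Rc G z X a)
    {d : E → E → ℝ} (hd0 : ∀ x y, 0 ≤ d x y)
    (hd : ∀ c c' : ℝ → E, (∀ t ∈ Icc (0:ℝ) 1, HasDerivWithinAt c (c' t) (Icc 0 1) t) →
      ContinuousOn c' (Icc 0 1) → (∀ t ∈ Icc (0:ℝ) 1, c t ∈ U) →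
      d (c 0) (c 1) ≤ ∫ t in (0:ℝ)..1, √(G (c t) (c' t) (c' t)))
    {c c' EE : ℝ → E} (hc : ∀ t ∈ Icc (0:ℝ) 1, HasDerivWithinAt c (c' t) (Icc 0 1) t)
    (hc' : ContinuousOn c' (Icc 0 1)) (hcK : ∀ t ∈ Icc (0:ℝ) 1, c t ∈ K)
    (hE : ∀ t ∈ Icc (0:ℝ) 1, HasDerivWithinAt EE (-(chris G (c t) (c' t) (EE t))) (Icc 0 1) t)
    {N ε S φ₀ φ₁ r η C τ : ℝ}
    (hN : ∀ t ∈ Icc (0:ℝ) 1, G (c t) (EE t) (EE t) = N) (hε : 0 < ε)
    (hS : S = ∫ t in (0:ℝ)..1, (√(G (c t) (c' t) (c' t)) + ε))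
    (hφ₀ : 0 ≤ φ₀) (hφ₁ : 0 ≤ φ₁) (hr : 0 < r)
    (hpw : PW G U K C τ η r)
    (hbC : ∀ t ∈ Icc (0:ℝ) 1, ‖(√(G (c t) (c' t) (c' t)) + ε)⁻¹ • c' t‖ ≤ C)
    (hXC : ∀ t ∈ Icc (0:ℝ) 1, ∀ f : ℝ, 0 ≤ f → f ≤ max φ₀ φ₁ → ‖f • EE t‖ ≤ C)
    (hBC : ∀ t ∈ Icc (0:ℝ) 1, ∀ f : ℝ, 0 ≤ f → f ≤ max φ₀ φ₁ →
      ‖((φ₁ - φ₀) / S) • EE t
        - chris G (c t) ((√(G (c t) (c' t) (c' t)) + ε)⁻¹ • c' t) (f • EE t)‖ ≤ C)
    {ξ₀ ξ₁ : Fin 4 → E} (hξ₀ : ∀ k, ‖ξ₀ k‖ ≤ C * r ^ 2) (hξ₁ : ∀ k, ‖ξ₁ k‖ ≤ C * r ^ 2)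
    (hζ : ∀ k, ‖(1 / S : ℝ) • (ξ₁ k - ξ₀ k)‖ ≤ C * r ^ 2)
    (hSξ₀ : ‖∑ k, ξ₀ k‖ ≤ τ * r ^ 2) (hSξ₁ : ‖∑ k, ξ₁ k‖ ≤ τ * r ^ 2)
    (hSζ : ‖∑ k, (1 / S : ℝ) • (ξ₁ k - ξ₀ k)‖ ≤ τ * r ^ 2) :
    ∑ k : Fin 4, d (c 0 + ((r * φ₀) • (I ^ (k:ℕ) • EE 0) + ξ₀ k))
        (c 1 + ((r * φ₁) • (I ^ (k:ℕ) • EE 1) + ξ₁ k)) ^ 2
      ≤ S ^ 2 * (4 + r ^ 2 * (4 * ((φ₁ - φ₀) / S) ^ 2 * N + η)) := by
  obtain ⟨κ, hκ0⟩ : ∃ κ : ℝ, κ = 0 := ⟨0, rfl⟩
  have hκ : 0 ≤ κ := hκ0.ge
  have hcurv : ∀ z ∈ K, ∀ X a, κ * G z X X * G z a a ≤ Rc G z X a := by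
    intro z hz X a
    rw [hκ0, zero_mul, zero_mul]
    exact hcurv₀ z hz X a
  have h01 : (0:ℝ) ≤ 1 := zero_le_one
  have hcU : ∀ t ∈ Icc (0:ℝ) 1, c t ∈ U := fun t ht => hKU (hcK t ht)
  have hcc : ContinuousOn c (Icc 0 1) := fun t ht => (hc t ht).continuousWithinAt
  have hEc : ContinuousOn EE (Icc 0 1) := fun t ht => (hE t ht).continuousWithinAt
  have hGc : ContinuousOn (fun t => G (c t)) (Icc 0 1) := h.smooth.continuousOn.comp hcc hcU
  have hΓc : ContinuousOn (fun t => chris G (c t)) (Icc 0 1) :=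
    h.contDiffOn_chris.continuousOn.comp hcc hcU
  set lam : ℝ → ℝ := fun t => √(G (c t) (c' t) (c' t)) + ε with hlam
  have hlamc : ContinuousOn lam (Icc 0 1) :=
    (((hGc.clm_apply hc').clm_apply hc').sqrt).add continuousOn_const
  have hlamε : ∀ t, ε ≤ lam t := fun t => by
    simp only [hlam]; linarith only [Real.sqrt_nonneg (G (c t) (c' t) (c' t))]
  have hlam0 : ∀ t, 0 < lam t := fun t => hε.trans_le (hlamε t)
  have hlami : IntervalIntegrable lam MeasureTheory.volume 0 1 :=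
    hlamc.intervalIntegrable_of_Icc h01
  have hSε : ε ≤ S := by
    rw [hS]
    have := intervalIntegral.integral_mono_on h01
      (_root_.intervalIntegrable_const (c := ε)) hlami (fun t _ => hlamε t)
    simpa using this
  have hSpos : 0 < S := hε.trans_le hSε
  have hN0 : 0 ≤ N := by
    rw [← hN 0 (by simp)]
    by_cases h0 : EE 0 = 0
    · simp [h0]
    · exact (h.pos _ (hcU 0 (by simp)) _ h0).le
  -- the parameter
  set lamt : ℝ → ℝ := fun t => lam (projIcc 0 1 h01 t) with hlamt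
  have hlamtc : Continuous lamt := by
    have : Continuous (fun t : Icc (0:ℝ) 1 => lam t) := hlamc.domRestrict
    exact this.comp continuous_projIcc
  have hlamteq : ∀ t ∈ Icc (0:ℝ) 1, lamt t = lam t := fun t ht => by
    simp only [hlamt, projIcc_of_mem h01 ht]
  have hlamt0 : ∀ t, 0 < lamt t := fun t => hlam0 _
  set s : ℝ → ℝ := fun t => (∫ u in (0:ℝ)..t, lamt u) / S with hs
  have hsd : ∀ t, HasDerivAt s (lamt t / S) t := by
    intro t
    exact (intervalIntegral.integral_hasDerivAt_right (hlamtc.intervalIntegrable _ _)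
      (hlamtc.stronglyMeasurableAtFilter _ _) hlamtc.continuousAt).div_const S
  have hs0 : s 0 = 0 := by simp [hs]
  have hs1 : s 1 = 1 := by
    have : (∫ u in (0:ℝ)..1, lamt u) = S := by
      rw [hS]
      apply intervalIntegral.integral_congr
      intro t ht
      rw [uIcc_of_le h01] at ht
      exact hlamteq t ht
    simp only [hs, this]
    exact div_self hSpos.ne'
  have hsmono : Monotone s := monotone_of_deriv_nonneg (fun t => (hsd t).differentiableAt)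
    (fun t => by rw [(hsd t).deriv]; exact (div_pos (hlamt0 t) hSpos).le)
  have hsI : ∀ t ∈ Icc (0:ℝ) 1, 0 ≤ s t ∧ s t ≤ 1 := fun t ht =>
    ⟨hs0 ▸ hsmono ht.1, hs1 ▸ hsmono ht.2⟩
  have hsd' : ∀ t ∈ Icc (0:ℝ) 1, HasDerivWithinAt s (lam t / S) (Icc 0 1) t := fun t ht => by
    rw [← hlamteq t ht]; exact (hsd t).hasDerivWithinAt
  have hsc : ContinuousOn s (Icc 0 1) := fun t ht => (hsd' t ht).continuousWithinAt
  set f : ℝ → ℝ := fun t => φ₀ + (φ₁ - φ₀) * s t with hf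
  have hfc : ContinuousOn f (Icc 0 1) := continuousOn_const.add (continuousOn_const.mul hsc)
  have hfd : ∀ t ∈ Icc (0:ℝ) 1, HasDerivWithinAt f ((φ₁ - φ₀) * (lam t / S)) (Icc 0 1) t :=
    fun t ht => ((hsd' t ht).const_mul (φ₁ - φ₀)).const_add φ₀
  set m := min φ₀ φ₁ with hm
  have hm0 : 0 ≤ m := le_min hφ₀ hφ₁
  have hfm : ∀ t ∈ Icc (0:ℝ) 1, m ≤ f t ∧ f t ≤ max φ₀ φ₁ := by
    intro t ht
    obtain ⟨h0, h1⟩ := hsI t ht
    have e : f t = (1 - s t) * φ₀ + s t * φ₁ := by simp only [hf]; ring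
    rw [e]
    have hml : m ≤ φ₀ := min_le_left _ _
    have hmr : m ≤ φ₁ := min_le_right _ _
    have hMl : φ₀ ≤ max φ₀ φ₁ := le_max_left _ _
    have hMr : φ₁ ≤ max φ₀ φ₁ := le_max_right _ _
    constructor
    · linarith only [mul_nonneg (sub_nonneg.2 h1) (sub_nonneg.2 hml),
        mul_nonneg h0 (sub_nonneg.2 hmr)]
    · linarith only [mul_nonneg (sub_nonneg.2 h1) (sub_nonneg.2 hMl),
        mul_nonneg h0 (sub_nonneg.2 hMr)]
  -- the variation
  set del : Fin 4 → ℝ → E := fun k t =>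
    (r * f t) • (I ^ (k:ℕ) • EE t) + ((1 - s t) • ξ₀ k + s t • ξ₁ k) with hdel
  set del' : Fin 4 → ℝ → E := fun k t =>
    ((r * f t) • (I ^ (k:ℕ) • (-(chris G (c t) (c' t) (EE t))))
      + (r * ((φ₁ - φ₀) * (lam t / S))) • (I ^ (k:ℕ) • EE t))
      + ((-(lam t / S)) • ξ₀ k + (lam t / S) • ξ₁ k) with hdel'
  have hdeld : ∀ k, ∀ t ∈ Icc (0:ℝ) 1, HasDerivWithinAt (del k) (del' k t) (Icc 0 1) t := by
    intro k t ht
    have h1 : HasDerivWithinAt (fun t => I ^ (k:ℕ) • EE t)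
        (I ^ (k:ℕ) • (-(chris G (c t) (c' t) (EE t)))) (Icc 0 1) t :=
      (hE t ht).const_smul (I ^ (k:ℕ))
    have h2 : HasDerivWithinAt (fun t => r * f t) (r * ((φ₁ - φ₀) * (lam t / S))) (Icc 0 1) t :=
      (hfd t ht).const_mul r
    have h3 := h2.smul h1
    have h4 : HasDerivWithinAt (fun t => (1 - s t) • ξ₀ k) ((-(lam t / S)) • ξ₀ k) (Icc 0 1) t :=
      ((hsd' t ht).const_sub 1).smul_const (ξ₀ k)
    have h5 : HasDerivWithinAt (fun t => s t • ξ₁ k) ((lam t / S) • ξ₁ k) (Icc 0 1) t :=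
      (hsd' t ht).smul_const (ξ₁ k)
    exact h3.add (h4.add h5)
  have hdelc : ∀ k, ContinuousOn (del k) (Icc 0 1) := fun k t ht =>
    (hdeld k t ht).continuousWithinAt
  have hdel'c : ∀ k, ContinuousOn (del' k) (Icc 0 1) := by
    intro k
    have h1 : ContinuousOn (fun t => lam t / S) (Icc 0 1) := hlamc.div_const S
    have h2 : ContinuousOn (fun t => I ^ (k:ℕ) • EE t) (Icc 0 1) := hEc.const_smul _
    have h3 : ContinuousOn (fun t => I ^ (k:ℕ) • (-(chris G (c t) (c' t) (EE t)))) (Icc 0 1) :=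
      (((hΓc.clm_apply hc').clm_apply hEc).neg).const_smul _
    exact ((((continuousOn_const.mul hfc).smul h3).add
      ((continuousOn_const.mul (continuousOn_const.mul h1)).smul h2))).add
      ((h1.neg.smul continuousOn_const).add (h1.smul continuousOn_const))
  set b : ℝ → E := fun t => (lam t)⁻¹ • c' t with hb
  set B : ℝ → E := fun t => ((φ₁ - φ₀) / S) • EE t - chris G (c t) (b t) (f t • EE t) with hB
  set ζ : Fin 4 → E := fun k => (1 / S : ℝ) • (ξ₁ k - ξ₀ k) with hζdef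
  have hdecomp : ∀ k : Fin 4, ∀ t, c' t + del' k t
      = lam t • (b t + (r • (I ^ (k:ℕ) • B t) + ζ k)) := by
    intro k t
    have hl := (hlam0 t).ne'
    have e1 : c' t = lam t • b t := by
      simp only [hb]; rw [smul_smul, mul_inv_cancel₀ hl, one_smul]
    have e2 : chris G (c t) (c' t) (EE t) = lam t • chris G (c t) (b t) (EE t) := by
      conv_lhs => rw [e1]
      simp
    have e3 : I ^ (k:ℕ) • B t = ((φ₁ - φ₀) / S) • (I ^ (k:ℕ) • EE t)
        - f t • (I ^ (k:ℕ) • chris G (c t) (b t) (EE t)) := by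
      simp only [hB, map_smul, smul_sub]
      rw [smul_comm (I ^ (k:ℕ)) ((φ₁ - φ₀) / S), smul_comm (I ^ (k:ℕ)) (f t)]
    have e4 : I ^ (k:ℕ) • (-(chris G (c t) (c' t) (EE t)))
        = (-(lam t)) • (I ^ (k:ℕ) • chris G (c t) (b t) (EE t)) := by
      rw [e2, neg_smul, smul_neg, smul_comm (I ^ (k:ℕ)) (lam t)]
    simp only [hdel', hζdef]
    rw [e4, e3]
    nth_rewrite 1 [e1]
    module
  have hcurvemem : ∀ k : Fin 4, ∀ t, c t + del k t
      = c t + (r • (I ^ (k:ℕ) • (f t • EE t)) + ((1 - s t) • ξ₀ k + s t • ξ₁ k)) := by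
    intro k t
    simp only [hdel]
    rw [smul_comm (I ^ (k:ℕ)) (f t), smul_smul]
  -- use of the pointwise inequality
  have hpt : ∀ t ∈ Icc (0:ℝ) 1, (∀ k, c t + del k t ∈ U) ∧
      ∑ k, G (c t + del k t) (b t + (r • (I ^ (k:ℕ) • B t) + ζ k))
        (b t + (r • (I ^ (k:ℕ) • B t) + ζ k)) ≤ 4 * G (c t) (b t) (b t)
          + r ^ 2 * (4 * ((φ₁ - φ₀) / S) ^ 2 * N - 4 * (κ * (m ^ 2 * N) * G (c t) (b t) (b t)) + η) := by
    intro t ht
    obtain ⟨h0, h1⟩ := hsI t ht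
    have h1' : 0 ≤ 1 - s t := by linarith only [h1]
    have hξt : ∀ k, ‖(1 - s t) • ξ₀ k + s t • ξ₁ k‖ ≤ C * r ^ 2 := by
      intro k
      calc _ ≤ ‖(1 - s t) • ξ₀ k‖ + ‖s t • ξ₁ k‖ := norm_add_le _ _
        _ = (1 - s t) * ‖ξ₀ k‖ + s t * ‖ξ₁ k‖ := by
          rw [norm_smul, norm_smul, Real.norm_of_nonneg h0, Real.norm_of_nonneg (by linarith only [h1])]
        _ ≤ (1 - s t) * (C * r ^ 2) + s t * (C * r ^ 2) := by
          gcongr
          · exact hξ₀ k
          · exact hξ₁ k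
        _ = _ := by ring
    have hSξt : ‖∑ k, ((1 - s t) • ξ₀ k + s t • ξ₁ k)‖ ≤ τ * r ^ 2 := by
      rw [Finset.sum_add_distrib, ← Finset.smul_sum, ← Finset.smul_sum]
      calc _ ≤ ‖(1 - s t) • ∑ k, ξ₀ k‖ + ‖s t • ∑ k, ξ₁ k‖ := norm_add_le _ _
        _ = (1 - s t) * ‖∑ k, ξ₀ k‖ + s t * ‖∑ k, ξ₁ k‖ := by
          rw [norm_smul, norm_smul, Real.norm_of_nonneg h0, Real.norm_of_nonneg (by linarith only [h1])]
        _ ≤ (1 - s t) * (τ * r ^ 2) + s t * (τ * r ^ 2) := by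
          gcongr
        _ = _ := by ring
    obtain ⟨hf0, hf1⟩ := hfm t ht
    have hp := hpw (c t) (hcK t ht) (b t) (f t • EE t) (B t) (hbC t ht)
      (hXC t ht (f t) (hm0.trans hf0) hf1) (hBC t ht (f t) (hm0.trans hf0) hf1)
      (fun k => (1 - s t) • ξ₀ k + s t • ξ₁ k) ζ hξt hζ hSξt hSζ
    refine ⟨fun k => by rw [hcurvemem k t]; exact hp.1 k, ?_⟩
    have hsum : ∑ k, G (c t + del k t) (b t + (r • (I ^ (k:ℕ) • B t) + ζ k))
        (b t + (r • (I ^ (k:ℕ) • B t) + ζ k)) = ∑ k : Fin 4, G (c t +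
          (r • (I ^ (k:ℕ) • (f t • EE t)) + ((1 - s t) • ξ₀ k + s t • ξ₁ k)))
          (b t + (r • (I ^ (k:ℕ) • B t) + ζ k)) (b t + (r • (I ^ (k:ℕ) • B t) + ζ k)) := by
      apply Finset.sum_congr rfl
      intro k _
      rw [hcurvemem k t]
    rw [hsum]
    refine hp.2.trans ?_
    have e1 : B t + chris G (c t) (f t • EE t) (b t) = ((φ₁ - φ₀) / S) • EE t := by
      rw [h.chris_symm (hcU t ht) (f t • EE t) (b t)]
      simp only [hB]
      abel
    have e2 : G (c t) (((φ₁ - φ₀) / S) • EE t) (((φ₁ - φ₀) / S) • EE t)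
        = ((φ₁ - φ₀) / S) ^ 2 * N := by
      rw [map_smul, map_smul, smul_apply, smul_eq_mul, smul_eq_mul, hN t ht]
      ring
    have e3 : κ * (m ^ 2 * N) * G (c t) (b t) (b t) ≤ Rc G (c t) (f t • EE t) (b t) := by
      refine le_trans ?_ (hcurv (c t) (hcK t ht) (f t • EE t) (b t))
      have e4 : G (c t) (f t • EE t) (f t • EE t) = (f t) ^ 2 * N := by
        rw [map_smul, map_smul, smul_apply, smul_eq_mul, smul_eq_mul, hN t ht]
        ring
      rw [e4]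
      have hg0 : 0 ≤ G (c t) (b t) (b t) := by
        by_cases h0 : b t = 0
        · simp [h0]
        · exact (h.pos _ (hcU t ht) _ h0).le
      gcongr
    rw [e1, e2]
    have hr2 : 0 ≤ r ^ 2 := by positivity
    have e5 : r ^ 2 * (4 * (((φ₁ - φ₀) / S) ^ 2 * N) - 4 * Rc G (c t) (f t • EE t) (b t) + η)
      ≤ r ^ 2 * (4 * ((φ₁ - φ₀) / S) ^ 2 * N - 4 * (κ * (m ^ 2 * N) * G (c t) (b t) (b t)) + η) := by
      gcongr ?_ * ?_
      linarith only [e3]
    linarith only [e5]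
  -- integrate
  have hdk : ∀ k, d (c 0 + del k 0) (c 1 + del k 1) ≤
      ∫ t in (0:ℝ)..1, √(G (c t + del k t) (c' t + del' k t) (c' t + del' k t)) := by
    intro k
    exact hd (fun t => c t + del k t) (fun t => c' t + del' k t)
      (fun t ht => (hc t ht).add (hdeld k t ht)) (hc'.add (hdel'c k)) (fun t ht => (hpt t ht).1 k)
  have hcont : ∀ k, ContinuousOn
      (fun t => √(G (c t + del k t) (c' t + del' k t) (c' t + del' k t))) (Icc 0 1) := by
    intro k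
    have h1 : ContinuousOn (fun t => c' t + del' k t) (Icc 0 1) := hc'.add (hdel'c k)
    have h2 : ContinuousOn (fun t => G (c t + del k t)) (Icc 0 1) :=
      h.smooth.continuousOn.comp (hcc.add (hdelc k)) (fun t ht => (hpt t ht).1 k)
    exact ((h2.clm_apply h1).clm_apply h1).sqrt
  have hends : ∀ k : Fin 4, d (c 0 + ((r * φ₀) • (I ^ (k:ℕ) • EE 0) + ξ₀ k))
        (c 1 + ((r * φ₁) • (I ^ (k:ℕ) • EE 1) + ξ₁ k)) = d (c 0 + del k 0) (c 1 + del k 1) := by
    intro k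
    simp [hdel, hf, hs0, hs1]
  rw [Finset.sum_congr rfl (fun k _ => by rw [hends k])]
  set v : Fin 4 → ℝ → E := fun k t => b t + (r • (I ^ (k:ℕ) • B t) + ζ k) with hv
  set Q : Fin 4 → ℝ → ℝ := fun k t => G (c t + del k t) (v k t) (v k t) with hQ
  have hQ0 : ∀ k, ∀ t ∈ Icc (0:ℝ) 1, 0 ≤ Q k t := by
    intro k t ht
    simp only [hQ]
    by_cases h0 : v k t = 0
    · simp [h0]
    · exact (h.pos _ ((hpt t ht).1 k) _ h0).le
  have hsq : ∀ k, ∀ t ∈ Icc (0:ℝ) 1,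
      √(G (c t + del k t) (c' t + del' k t) (c' t + del' k t)) = lam t * √(Q k t) := by
    intro k t ht
    have hl := hlam0 t
    rw [hdecomp k t]
    have e1 : G (c t + del k t) (lam t • v k t) (lam t • v k t)
        = lam t ^ 2 * Q k t := by
      rw [map_smul, map_smul, smul_apply, smul_eq_mul, smul_eq_mul]
      ring
    have e2 : (lam t • (b t + (r • (I ^ (k:ℕ) • B t) + ζ k))) = lam t • v k t := rfl
    rw [e2, e1, Real.sqrt_mul (by positivity), Real.sqrt_sq hl.le]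
  have hbc : ContinuousOn b (Icc 0 1) := (hlamc.inv₀ (fun t _ => (hlam0 t).ne')).smul hc'
  have hBc : ContinuousOn B (Icc 0 1) :=
    (hEc.const_smul _).sub ((hΓc.clm_apply hbc).clm_apply (hfc.smul hEc))
  have hvc : ∀ k, ContinuousOn (v k) (Icc 0 1) := fun k =>
    hbc.add (((hBc.const_smul _).const_smul _).add continuousOn_const)
  have hQc : ∀ k, ContinuousOn (Q k) (Icc 0 1) := by
    intro k
    have h2 : ContinuousOn (fun t => G (c t + del k t)) (Icc 0 1) :=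
      h.smooth.continuousOn.comp (hcc.add (hdelc k)) (fun t ht => (hpt t ht).1 k)
    exact (h2.clm_apply (hvc k)).clm_apply (hvc k)
  have hlQ : ∀ k, IntervalIntegrable (fun t => lam t * Q k t) MeasureTheory.volume 0 1 :=
    fun k => (hlamc.mul (hQc k)).intervalIntegrable_of_Icc h01
  set J : Fin 4 → ℝ := fun k => ∫ t in (0:ℝ)..1, lam t * Q k t with hJ
  have hJ0 : ∀ k, 0 ≤ J k := by
    intro k
    exact intervalIntegral.integral_nonneg h01
      (fun t ht => mul_nonneg (hlam0 t).le (hQ0 k t ht))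
  have hdJ : ∀ k, d (c 0 + del k 0) (c 1 + del k 1) ^ 2 ≤ S * J k := by
    intro k
    set dk := d (c 0 + del k 0) (c 1 + del k 1) with hdkdef
    have hdk0 : 0 ≤ dk := hd0 _ _
    rcases hdk0.eq_or_lt with h0 | h0
    · rw [← h0]
      simpa using mul_nonneg hSpos.le (hJ0 k)
    set μ := dk / S with hμ
    have hμ0 : 0 < μ := by positivity
    have h1 : dk ≤ ∫ t in (0:ℝ)..1, ((2 * μ)⁻¹ * (lam t * Q k t) + μ / 2 * lam t) := by
      refine (hdk k).trans ?_
      refine intervalIntegral.integral_mono_on h01 ((hcont k).intervalIntegrable_of_Icc h01)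
        (((hlQ k).const_mul _).add (hlami.const_mul _)) (fun t ht => ?_)
      rw [hsq k t ht]
      have hl := hlam0 t
      have hq0 := hQ0 k t ht
      have h2 : √(Q k t) ≤ (2 * μ)⁻¹ * Q k t + μ / 2 := by
        have h3 := Real.sq_sqrt hq0
        have h4 : 0 ≤ (√(Q k t) - μ) ^ 2 := sq_nonneg _
        have h5 : (2 * μ)⁻¹ * Q k t + μ / 2 - √(Q k t) = (2 * μ)⁻¹ * (√(Q k t) - μ) ^ 2 := by
          field_simp
          nlinarith [h3]
        have h6 : 0 ≤ (2 * μ)⁻¹ * (√(Q k t) - μ) ^ 2 := by positivity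
        linarith only [h5, h6]
      calc lam t * √(Q k t) ≤ lam t * ((2 * μ)⁻¹ * Q k t + μ / 2) := by gcongr
        _ = _ := by ring
    rw [intervalIntegral.integral_add ((hlQ k).const_mul _) (hlami.const_mul _),
      intervalIntegral.integral_const_mul, intervalIntegral.integral_const_mul, ← hS] at h1
    have h2 : μ / 2 * S = dk / 2 := by rw [hμ]; field_simp
    rw [h2] at h1
    have h3 : dk / 2 ≤ (2 * μ)⁻¹ * J k := by
      have : dk ≤ (2 * μ)⁻¹ * J k + dk / 2 := h1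
      linarith only [this]
    have h4 : (2 * μ)⁻¹ * J k = S * J k / (2 * dk) := by
      rw [hμ]; field_simp
    rw [h4, le_div_iff₀ (by positivity)] at h3
    linarith only [h3]
  have hsumJ : ∑ k, J k ≤ S * (4 + r ^ 2 * (4 * ((φ₁ - φ₀) / S) ^ 2 * N + η)) := by
    have e1 : ∑ k, J k = ∫ t in (0:ℝ)..1, lam t * ∑ k, Q k t := by
      simp only [hJ]
      rw [← intervalIntegral.integral_finsetSum (fun k _ => hlQ k)]
      simp only [Finset.mul_sum]
    rw [e1]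
    set A : ℝ := 4 + r ^ 2 * (4 * ((φ₁ - φ₀) / S) ^ 2 * N + η) with hA
    have hptw : ∀ t ∈ Icc (0:ℝ) 1, lam t * ∑ k, Q k t ≤ lam t * A := by
      intro t ht
      obtain ⟨hU, hineq⟩ := hpt t ht
      have hl := hlam0 t
      have hgb : G (c t) (b t) (b t) ≤ 1 := by
        have e1 : G (c t) (b t) (b t) = (lam t)⁻¹ ^ 2 * G (c t) (c' t) (c' t) := by
          simp only [hb]
          rw [map_smul, map_smul, smul_apply, smul_eq_mul, smul_eq_mul]
          ring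
        have hg0 : 0 ≤ G (c t) (c' t) (c' t) := by
          by_cases h0 : c' t = 0
          · simp [h0]
          · exact (h.pos _ (hcU t ht) _ h0).le
        have e2 : G (c t) (c' t) (c' t) ≤ lam t ^ 2 := by
          have h1 := Real.sq_sqrt hg0
          have h2 : √(G (c t) (c' t) (c' t)) ≤ lam t := by
            simp only [hlam]; linarith only [hε]
          calc _ = √(G (c t) (c' t) (c' t)) ^ 2 := h1.symm
            _ ≤ lam t ^ 2 := by gcongr
        rw [e1]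
        calc _ ≤ (lam t)⁻¹ ^ 2 * lam t ^ 2 := by gcongr
          _ = 1 := by field_simp
      gcongr
      refine hineq.trans ?_
      simp only [hA, hκ0]
      linarith only [hgb]
    have i1 : IntervalIntegrable (fun t => lam t * ∑ k, Q k t) MeasureTheory.volume 0 1 :=
      (hlamc.mul (continuousOn_finsetSum Finset.univ (fun k _ => hQc k))).intervalIntegrable_of_Icc
        h01
    have hint := intervalIntegral.integral_mono_on h01 i1 (hlami.mul_const A) hptw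
    refine hint.trans (le_of_eq ?_)
    rw [intervalIntegral.integral_mul_const, ← hS]
  calc _ ≤ ∑ k, S * J k := Finset.sum_le_sum (fun k _ => hdJ k)
    _ = S * ∑ k, J k := by rw [Finset.mul_sum]
    _ ≤ S * (S * (4 + r ^ 2 * (4 * ((φ₁ - φ₀) / S) ^ 2 * N + η))) := by gcongr
    _ = _ := by ring

/-- complex linearity of the Christoffel symbol -/
theorem chris_smul_complex (h : LocalKahler G U) (hz : z ∈ U) (u v : E) (w : ℂ) :
    chris G z u (w • v) = w • chris G z u v := by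
  have e1 : ∀ y : E, w • y = w.re • y + w.im • (I • y) := by
    intro y
    conv_lhs => rw [← Complex.re_add_im w]
    rw [add_smul, mul_smul, Complex.coe_smul, Complex.coe_smul]
  rw [e1, e1, map_add, map_smul, map_smul, h.par z hz]

theorem G_smul_complex (h : LocalKahler G U) (hz : z ∈ U) (v : E) (w : ℂ) :
    G z (w • v) (w • v) = ‖w‖ ^ 2 * G z v v := by
  have e1 : ∀ y : E, w • y = w.re • y + w.im • (I • y) := by
    intro y
    conv_lhs => rw [← Complex.re_add_im w]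
    rw [add_smul, mul_smul, Complex.coe_smul, Complex.coe_smul]
  have e2 : G z v (I • v) = 0 := by
    have h1 := h.herm z hz v (I • v)
    have h2 := h.symm z hz v (I • v)
    rw [smul_smul, I_mul_I, neg_one_smul, map_neg] at h1
    linarith only [h1, h2]
  have e3 : G z (I • v) v = 0 := by rw [h.symm z hz]; exact e2
  rw [e1]
  simp only [map_add, map_smul, add_apply, smul_apply, smul_eq_mul, h.herm z hz, e2, e3]
  rw [Complex.sq_norm, Complex.normSq_apply]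
  ring

set_option maxHeartbeats 1000000 in
/-- Squared second variation inequality along nearly minimising curves, with a rotating
direction. -/
theorem second_variation_sq (h : LocalKahler G U) {K : Set E} (hK : IsCompact K) (hKU : K ⊆ U)
    (hcurv : ∀ z ∈ K, ∀ X a, 0 ≤ Rc G z X a)
    {d : E → E → ℝ} (hd0 : ∀ x y, 0 ≤ d x y)
    (hd : ∀ c c' : ℝ → E, (∀ t ∈ Icc (0:ℝ) 1, HasDerivWithinAt c (c' t) (Icc 0 1) t) →
      ContinuousOn c' (Icc 0 1) → (∀ t ∈ Icc (0:ℝ) 1, c t ∈ U) →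
      d (c 0) (c 1) ≤ ∫ t in (0:ℝ)..1, √(G (c t) (c' t) (c' t)))
    {x x' : E} {D : ℝ} (hD : 0 < D) (hDd : D ≤ d x x')
    (hcurves : ∀ ε > 0, ∃ c c' : ℝ → E,
      (∀ t ∈ Icc (0:ℝ) 1, HasDerivWithinAt c (c' t) (Icc 0 1) t) ∧
      ContinuousOn c' (Icc 0 1) ∧ c 0 = x ∧ c 1 = x' ∧ (∀ t ∈ Icc (0:ℝ) 1, c t ∈ K) ∧
      ∫ t in (0:ℝ)..1, √(G (c t) (c' t) (c' t)) ≤ D + ε) (Y : E) :
    ∃ Y', G x' Y' Y' = G x Y Y ∧ ∀ φ₀ φ₁ : ℝ, 0 ≤ φ₀ → 0 ≤ φ₁ → ∀ w : ℝ → ℂ, (∀ r, ‖w r‖ = 1) →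
      ∀ ξ ξ' : ℝ → Fin 4 → E, IsSmall ξ → IsSmall ξ' → ∀ η > 0, ∀ᶠ r in 𝓝[>] (0:ℝ),
      ∑ k : Fin 4, d (x + ((r * φ₀) • (I ^ (k:ℕ) • (w r • Y)) + ξ r k))
        (x' + ((r * φ₁) • (I ^ (k:ℕ) • (w r • Y')) + ξ' r k)) ^ 2
        ≤ 4 * D ^ 2 + r ^ 2 * (4 * (φ₁ - φ₀) ^ 2 * G x Y Y + η) := by
  have hprop : ProperSpace E := FiniteDimensional.proper ℂ E
  have hcompl : CompleteSpace E := FiniteDimensional.complete ℂ E
  have h01 : (0:ℝ) ≤ 1 := zero_le_one
  have h0m : (0:ℝ) ∈ Icc (0:ℝ) 1 := by simp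
  have h1m : (1:ℝ) ∈ Icc (0:ℝ) 1 := by simp
  set ε : ℕ → ℝ := fun n => 1 / ((n:ℝ) + 1) with hεdef
  have hε : ∀ n, 0 < ε n := fun n => by simp only [hεdef]; positivity
  have hεlim : Tendsto ε atTop (𝓝 0) := tendsto_one_div_add_atTop_nhds_zero_nat
  have hcv := fun n : ℕ => hcurves (ε n) (hε n)
  choose c c' hc hc' hc0 hc1 hcK hlen using hcv
  have hxK : x ∈ K := by rw [← hc0 0]; exact hcK 0 0 h0m
  have hx'K : x' ∈ K := by rw [← hc1 0]; exact hcK 0 1 h1m
  obtain ⟨m, hm, hlow⟩ := h.exists_lower hK hKU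
  obtain ⟨CΓ₀, hCΓ₀⟩ := hK.exists_bound_of_continuousOn (h.contDiffOn_chris.continuousOn.mono hKU)
  set CΓ := max CΓ₀ 0 with hCΓdef
  have hCΓ0 : 0 ≤ CΓ := le_max_right _ _
  have hCΓ : ∀ z ∈ K, ∀ u v, ‖chris G z u v‖ ≤ CΓ * ‖u‖ * ‖v‖ := by
    intro z hz u v
    calc _ ≤ ‖chris G z‖ * ‖u‖ * ‖v‖ := (chris G z).le_opNorm₂ u v
      _ ≤ _ := by
        gcongr
        exact (hCΓ₀ z hz).trans (le_max_left _ _)
  set N := G x Y Y with hNdef
  have hGnonneg : ∀ z ∈ U, ∀ v, 0 ≤ G z v v := by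
    intro z hz v
    by_cases h0 : v = 0
    · simp [h0]
    · exact (h.pos _ hz _ h0).le
  have hN0 : 0 ≤ N := hGnonneg x (hKU hxK) Y
  -- parallel fields
  have hpar : ∀ n, ∃ EE : ℝ → E, EE 0 = Y ∧ ∀ t ∈ Icc (0:ℝ) 1,
      HasDerivWithinAt EE (-(chris G (c n t) (c' n t) (EE t))) (Icc 0 1) t := by
    intro n
    have hL : ContinuousOn (fun t => -(chris G (c n t) (c' n t))) (Icc 0 1) := by
      have hcc : ContinuousOn (c n) (Icc 0 1) := fun t ht => (hc n t ht).continuousWithinAt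
      have : ContinuousOn (fun t => chris G (c n t)) (Icc 0 1) :=
        h.contDiffOn_chris.continuousOn.comp hcc (fun t ht => hKU (hcK n t ht))
      exact (this.clm_apply (hc' n)).neg
    obtain ⟨y, hy0, hy⟩ := exists_linODE h01 _ hL Y
    exact ⟨y, hy0, fun t ht => by simpa using hy t ht⟩
  choose EE hE0 hE using hpar
  have hN : ∀ n, ∀ t ∈ Icc (0:ℝ) 1, G (c n t) (EE n t) (EE n t) = N := by
    intro n
    have hder : ∀ t ∈ Icc (0:ℝ) 1,
        HasDerivWithinAt (fun t => G (c n t) (EE n t) (EE n t)) 0 (Icc 0 1) t := by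
      intro t ht
      have hctU : c n t ∈ U := hKU (hcK n t ht)
      have h1 : HasDerivWithinAt (fun t => G (c n t)) (fderiv ℝ G (c n t) (c' n t)) (Icc 0 1) t :=
        (h.differentiableAt hctU).hasFDerivAt.comp_hasDerivWithinAt t (hc n t ht)
      have h2 := (h1.clm_apply (hE n t ht)).clm_apply (hE n t ht)
      convert! h2 using 1
      rw [add_apply, h.fderiv_eq hctU]
      simp only [map_neg, neg_apply]
      ring
    have hdiff : DifferentiableOn ℝ (fun t => G (c n t) (EE n t) (EE n t)) (Icc 0 1) :=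
      fun t ht => (hder t ht).differentiableWithinAt
    have hz : ∀ t ∈ Ico (0:ℝ) 1,
        derivWithin (fun t => G (c n t) (EE n t) (EE n t)) (Icc 0 1) t = 0 := fun t ht =>
      (hder t (Ico_subset_Icc_self ht)).derivWithin
        (uniqueDiffOn_Icc one_pos t (Ico_subset_Icc_self ht))
    intro t ht
    have := constant_of_derivWithin_zero hdiff hz t ht
    rw [this]
    simp only [hc0, hE0, hNdef]
  set R := √(N / m) with hR
  have hR0 : 0 ≤ R := Real.sqrt_nonneg _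
  have hEbound : ∀ n, ∀ t ∈ Icc (0:ℝ) 1, ‖EE n t‖ ≤ R := by
    intro n t ht
    apply Real.le_sqrt_of_sq_le
    rw [le_div_iff₀ hm, mul_comm, ← hN n t ht]
    exact hlow _ (hcK n t ht) _
  obtain ⟨Y', hY'ball, φ, hφ, hlim⟩ := (isCompact_closedBall (0:E) R).tendsto_subseq
    (x := fun n => EE n 1) (fun n => by simpa using hEbound n 1 h1m)
  have hGY' : G x' Y' Y' = N := by
    have h1 : Tendsto (fun n => G x' (EE (φ n) 1) (EE (φ n) 1)) atTop (𝓝 (G x' Y' Y')) := by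
      have hcont : Continuous (fun v => G x' v v) := by fun_prop
      exact (hcont.tendsto Y').comp hlim
    have h2 : (fun n => G x' (EE (φ n) 1) (EE (φ n) 1)) = fun _ => N := by
      funext n
      have := hN (φ n) 1 h1m
      rwa [hc1] at this
    rw [h2] at h1
    exact (tendsto_nhds_unique h1 tendsto_const_nhds)
  refine ⟨Y', hGY', ?_⟩
  intro φ₀ φ₁ hφ₀ hφ₁ w hw ξ ξ' ⟨⟨Cξ, hCξ⟩, hξs⟩ ⟨⟨Cξ', hCξ'⟩, hξ's⟩ η hη
  -- lengths
  set S : ℕ → ℝ := fun n => ∫ t in (0:ℝ)..1, (√(G (c n t) (c' n t) (c' n t)) + ε n) with hSdef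
  have hsqc : ∀ n, ContinuousOn (fun t => √(G (c n t) (c' n t) (c' n t))) (Icc 0 1) := by
    intro n
    have hcc : ContinuousOn (c n) (Icc 0 1) := fun t ht => (hc n t ht).continuousWithinAt
    have h1 : ContinuousOn (fun t => G (c n t)) (Icc 0 1) :=
      h.smooth.continuousOn.comp hcc (fun t ht => hKU (hcK n t ht))
    exact ((h1.clm_apply (hc' n)).clm_apply (hc' n)).sqrt
  have hSeq : ∀ n, S n = (∫ t in (0:ℝ)..1, √(G (c n t) (c' n t) (c' n t))) + ε n := by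
    intro n
    simp only [hSdef]
    rw [intervalIntegral.integral_add ((hsqc n).intervalIntegrable_of_Icc h01)
      _root_.intervalIntegrable_const]
    simp
  have hSlow : ∀ n, D + ε n ≤ S n := by
    intro n
    have := hd (c n) (c' n) (hc n) (hc' n) (fun t ht => hKU (hcK n t ht))
    rw [hc0, hc1] at this
    rw [hSeq]
    linarith only [hDd, this]
  have hSup : ∀ n, S n ≤ D + 2 * ε n := by
    intro n
    rw [hSeq]
    linarith only [hlen, hlen n]
  have hSlim : Tendsto S atTop (𝓝 D) := by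
    refine tendsto_of_tendsto_of_tendsto_of_le_of_le (g := fun n => D + ε n)
      (h := fun n => D + 2 * ε n) ?_ ?_ hSlow hSup
    · simpa using (tendsto_const_nhds (x := D)).add hεlim
    · simpa using (tendsto_const_nhds (x := D)).add (hεlim.const_mul 2)
  have hSpos : ∀ n, D ≤ S n := fun n => by linarith only [hε, hSlow, hSlow n, hε n]
  -- constants
  set M := max φ₀ φ₁ with hM
  have hM0 : 0 ≤ M := hφ₀.trans (le_max_left _ _)
  set Cb := √(1 / m) with hCb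
  have hCb0 : 0 ≤ Cb := Real.sqrt_nonneg _
  set C := 1 + Cb + M * R + (|φ₁ - φ₀| / D * R + CΓ * Cb * (M * R)) + (|Cξ| + |Cξ'| + 1)
    + (|Cξ| + |Cξ'| + 1) / D with hC
  have t1 : 0 ≤ M * R := by positivity
  have t2 : 0 ≤ |φ₁ - φ₀| / D * R + CΓ * Cb * (M * R) := by positivity
  have t3 : 0 ≤ |Cξ| + |Cξ'| + 1 := by positivity
  have t4 : 0 ≤ (|Cξ| + |Cξ'| + 1) / D := by positivity
  have hC1 : 1 ≤ C := by linarith only [hCb0, t1, t2, t3, t4]
  obtain ⟨r₀, hr₀, τ, hτ, hpw⟩ := h.pointwise hK hKU (C := C) hC1 (η := η / D ^ 2) (by positivity)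
  set τ' := min τ (τ * D / 2) with hτ'
  have hτ'0 : 0 < τ' := by positivity
  have hr₀' : ∀ᶠ r in 𝓝[>] (0:ℝ), 0 < r ∧ r ≤ r₀ := by
    have : Ioc 0 r₀ ∈ 𝓝[>] (0:ℝ) := Ioc_mem_nhdsGT hr₀
    filter_upwards [this] with r hr using hr
  filter_upwards [hCξ, hCξ', hξs τ' hτ'0, hξ's τ' hτ'0, hr₀'] with r hr1 hr2 hr3 hr4 hr5
  obtain ⟨hr, hrr⟩ := hr5
  have hr2' : 0 ≤ r ^ 2 := by positivity
  have hPW : PW G U K C τ (η / D ^ 2) r := hpw r hr hrr
  have hτ'1 : τ' ≤ τ := min_le_left _ _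
  have hτ'2 : τ' ≤ τ * D / 2 := min_le_right _ _
  -- the inequality along the sequence
  have hev : ∀ᶠ n in atTop, φ₁ * ‖Y' - EE (φ n) 1‖ ≤ r := by
    have h1 : Tendsto (fun n => φ₁ * ‖Y' - EE (φ n) 1‖) atTop (𝓝 (φ₁ * ‖Y' - Y'‖)) :=
      ((tendsto_const_nhds.sub hlim).norm).const_mul φ₁
    rw [sub_self, norm_zero, mul_zero] at h1
    exact h1.eventually (ge_mem_nhds hr)
  have hkey : ∀ᶠ n in atTop, ∑ k : Fin 4, d (x + ((r * φ₀) • (I ^ (k:ℕ) • (w r • Y)) + ξ r k))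
        (x' + ((r * φ₁) • (I ^ (k:ℕ) • (w r • Y')) + ξ' r k)) ^ 2 ≤
      S (φ n) ^ 2 * (4 + r ^ 2 * (4 * ((φ₁ - φ₀) / S (φ n)) ^ 2 * N + η / D ^ 2)) := by
    filter_upwards [hev] with n hn
    set i := φ n with hi
    set ξ₁ : Fin 4 → E := fun k => ξ' r k + (r * φ₁) • (I ^ (k:ℕ) • (w r • (Y' - EE i 1))) with hξ₁
    have hξ₀n : ∀ k, ‖ξ r k‖ ≤ |Cξ| * r ^ 2 := fun k =>
      (hr1 k).trans (by gcongr; exact le_abs_self _)
    have hξ₁n : ∀ k, ‖ξ₁ k‖ ≤ (|Cξ'| + 1) * r ^ 2 := by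
      intro k
      calc ‖ξ₁ k‖ ≤ ‖ξ' r k‖ + ‖(r * φ₁) • (I ^ (k:ℕ) • (w r • (Y' - EE i 1)))‖ := norm_add_le _ _
        _ ≤ |Cξ'| * r ^ 2 + r * r := by
          gcongr
          · exact (hr2 k).trans (by gcongr; exact le_abs_self _)
          · rw [norm_smul, norm_I_pow_smul, norm_smul, hw r, one_mul,
              Real.norm_of_nonneg (by positivity), mul_assoc]
            gcongr
        _ = _ := by ring
    have hSξ₁ : ∑ k, ξ₁ k = ∑ k, ξ' r k := by
      simp only [hξ₁]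
      rw [Finset.sum_add_distrib, ← Finset.smul_sum, sum_I_pow_smul, smul_zero, add_zero]
    have hSi : D ≤ S i := hSpos i
    have hSi0 : 0 < S i := hD.trans_le hSi
    have hinvS : 1 / S i ≤ 1 / D := one_div_le_one_div_of_le hD hSi
    have hinvS0 : 0 < 1 / S i := by positivity
    have hbb : ∀ t ∈ Icc (0:ℝ) 1,
        ‖(√(G (c i t) (c' i t) (c' i t)) + ε i)⁻¹ • c' i t‖ ≤ Cb := by
      intro t ht
      apply Real.le_sqrt_of_sq_le
      rw [le_div_iff₀ hm, mul_comm]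
      set lam := √(G (c i t) (c' i t) (c' i t)) + ε i with hlam
      have hlam0 : 0 < lam := by
        have := Real.sqrt_nonneg (G (c i t) (c' i t) (c' i t))
        have := hε i
        linarith
      refine (hlow _ (hcK i t ht) _).trans ?_
      rw [map_smul, map_smul, smul_apply, smul_eq_mul, smul_eq_mul, ← mul_assoc]
      have hg : G (c i t) (c' i t) (c' i t) ≤ lam ^ 2 := by
        have h1 := Real.sq_sqrt (hGnonneg _ (hKU (hcK i t ht)) (c' i t))
        have h2 : √(G (c i t) (c' i t) (c' i t)) ≤ lam := by linarith only [hε, hε i]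
        calc _ = √(G (c i t) (c' i t) (c' i t)) ^ 2 := h1.symm
          _ ≤ lam ^ 2 := by gcongr
      calc _ ≤ lam⁻¹ * lam⁻¹ * lam ^ 2 := by gcongr
        _ = 1 := by field_simp
    have hfE : ∀ t ∈ Icc (0:ℝ) 1, ∀ f : ℝ, 0 ≤ f → f ≤ max φ₀ φ₁ → ‖f • EE i t‖ ≤ M * R := by
      intro t ht f hf0 hf1
      rw [norm_smul, Real.norm_of_nonneg hf0]
      gcongr
      exact hEbound i t ht
    have hEw : ∀ t ∈ Icc (0:ℝ) 1, HasDerivWithinAt (fun t => w r • EE i t)
        (-(chris G (c i t) (c' i t) (w r • EE i t))) (Icc 0 1) t := by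
      intro t ht
      have h1 := (hE i t ht).const_smul (w r)
      rw [smul_neg, ← chris_smul_complex h (hKU (hcK i t ht))] at h1
      exact h1
    have hNw : ∀ t ∈ Icc (0:ℝ) 1, G (c i t) (w r • EE i t) (w r • EE i t) = N := by
      intro t ht
      rw [G_smul_complex h (hKU (hcK i t ht)), hw r, hN i t ht]
      ring
    have hv := variation_sq h hKU hcurv hd0 hd (hc i) (hc' i) (hcK i) hEw (N := N) (ε := ε i)
      (S := S i) (φ₀ := φ₀) (φ₁ := φ₁) (r := r) (η := η / D ^ 2) (C := C) (τ := τ)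
      hNw (hε i) rfl hφ₀ hφ₁ hr hPW
      (fun t ht => (hbb t ht).trans (by linarith only [t1, t2, t3, t4]))
      (fun t ht f hf0 hf1 => by
        rw [smul_comm, norm_smul, hw r, one_mul]
        exact (hfE t ht f hf0 hf1).trans (by linarith only [hCb0, t2, t3, t4]))
      (fun t ht f hf0 hf1 => by
        rw [smul_comm _ (w r), smul_comm f (w r),
          chris_smul_complex h (hKU (hcK i t ht)), ← smul_sub, norm_smul, hw r, one_mul]
        calc _ ≤ ‖((φ₁ - φ₀) / S i) • EE i t‖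
              + ‖chris G (c i t) ((√(G (c i t) (c' i t) (c' i t)) + ε i)⁻¹ • c' i t)
                (f • EE i t)‖ := norm_sub_le _ _
          _ ≤ |φ₁ - φ₀| / D * R + CΓ * Cb * (M * R) := by
            apply add_le_add
            · rw [norm_smul, Real.norm_eq_abs, abs_div, abs_of_pos hSi0]
              gcongr
              exact hEbound i t ht
            · refine (hCΓ _ (hcK i t ht) _ _).trans ?_
              have q1 := hbb t ht
              have q2 := hfE t ht f hf0 hf1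
              gcongr
          _ ≤ C := by linarith only [hCb0, t1, t3, t4])
      (ξ₀ := ξ r) (ξ₁ := ξ₁)
      (fun k => (hξ₀n k).trans (by
        gcongr
        have := abs_nonneg Cξ'
        linarith only [hCb0, t1, t2, t4, this]))
      (fun k => (hξ₁n k).trans (by
        gcongr
        have := abs_nonneg Cξ
        linarith only [hCb0, t1, t2, t4, this]))
      (fun k => by
        rw [norm_smul, Real.norm_of_nonneg hinvS0.le]
        calc _ ≤ 1 / D * ((|Cξ'| + 1) * r ^ 2 + |Cξ| * r ^ 2) := by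
              gcongr
              exact (norm_sub_le _ _).trans (add_le_add (hξ₁n k) (hξ₀n k))
          _ = (|Cξ| + |Cξ'| + 1) / D * r ^ 2 := by ring
          _ ≤ C * r ^ 2 := by
            gcongr
            linarith only [hCb0, t1, t2, t3])
      (hr3.trans (by gcongr))
      (by rw [hSξ₁]; exact hr4.trans (by gcongr))
      (by
        rw [← Finset.smul_sum, Finset.sum_sub_distrib, hSξ₁, norm_smul,
          Real.norm_of_nonneg hinvS0.le]
        calc _ ≤ 1 / D * (τ' * r ^ 2 + τ' * r ^ 2) := by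
              gcongr
              exact (norm_sub_le _ _).trans (add_le_add hr4 hr3)
          _ ≤ 1 / D * (τ * D / 2 * r ^ 2 + τ * D / 2 * r ^ 2) := by gcongr
          _ = τ * r ^ 2 := by field_simp; ring)
    rw [hc0, hc1, hE0] at hv
    refine le_trans (le_of_eq ?_) hv
    apply Finset.sum_congr rfl
    intro k _
    congr 2
    simp only [hξ₁, smul_sub]
    abel
  have hlimit : Tendsto (fun n => S (φ n) ^ 2 * (4 + r ^ 2 * (4 * ((φ₁ - φ₀) / S (φ n)) ^ 2 * N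
        + η / D ^ 2))) atTop
      (𝓝 (D ^ 2 * (4 + r ^ 2 * (4 * ((φ₁ - φ₀) / D) ^ 2 * N + η / D ^ 2)))) := by
    have hS1 : Tendsto (fun n => S (φ n)) atTop (𝓝 D) := hSlim.comp hφ.tendsto_atTop
    have hq : Tendsto (fun n => (φ₁ - φ₀) / S (φ n)) atTop (𝓝 ((φ₁ - φ₀) / D)) :=
      tendsto_const_nhds.div hS1 hD.ne'
    exact (hS1.pow 2).mul ((((((hq.pow 2).const_mul 4).mul_const N).add_const _).const_mul
      (r ^ 2)).const_add 4)
  have hfinal := ge_of_tendsto hlimit hkey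
  refine hfinal.trans (le_of_eq ?_)
  field_simp

end Vale.Agent.P253.R2.H618
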