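import Vale.Agent.P253.R2.H618.Sq1
import Vale.Agent.P253.Bdl.B2

/-! P253, module M9 (Liouville), part 2: harmonic four point families with rotating direction and
the complex Hessian comparison for the squared distance. -/

open scoped Manifold ContDiff Topology Bundle
open Set Metric Complex Filter Bundle IsManifold Asymptotics

set_option maxSynthPendingDepth 3
set_option linter.unusedSectionVars false

noncomputable section

namespace Vale.Agent.P253.R2.H618

open Vale.Agent.P253.Mfd Vale.Agent.P253.Mfd.LocalKahler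

section harmW

variable {E : Type*} [NormedAddCommGroup E] [NormedSpace ℂ E] [FiniteDimensional ℂ E]

/-- holomorphic maps preserve harmonic four point families (rotating direction) -/
theorem isSmall_mapW {F : Type*} [NormedAddCommGroup F] [NormedSpace ℂ F] [FiniteDimensional ℂ F]
    {V : Set F} (hV : IsOpen V) {τ : F → E} (hτ : DifferentiableOn ℂ τ V) {z : F}
    (hz : z ∈ V) (Y : F) {w : ℝ → ℂ} (hw : ∀ r, ‖w r‖ = 1) {ξ : ℝ → Fin 4 → F} (hξ : IsSmall ξ) :
    IsSmall (fun r k => τ (z + (r • (I ^ (k:ℕ) • (w r • Y)) + ξ r k)) - τ z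
      - r • (I ^ (k:ℕ) • (w r • fderiv ℝ τ z Y))) := by
  obtain ⟨hO, ho⟩ := isSmall_iff.1 hξ
  have hτs : ContDiffOn ℂ ∞ τ V := contDiffOn_of_differentiableOn_complex hV hτ
  have hτr : ContDiffOn ℝ ∞ τ V := hτs.restrict_scalars ℝ
  set T := fderiv ℝ τ z with hT
  set Q := fderiv ℝ (fderiv ℝ τ) z with hQ
  -- Taylor
  have htay : (fun h : F => τ (z + h) - τ z - T h - (2⁻¹ : ℝ) • Q h h) =o[𝓝 0]
      (fun h => ‖h‖ ^ 2) := by
    rw [isLittleO_iff]
    intro c hc
    obtain ⟨δ, hδ, H⟩ := uniform_taylor_vec hV (isCompact_singleton (x := z))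
      (singleton_subset_iff.2 hz)
      (hτr.of_le (by simpa using! (WithTop.coe_le_coe.2 le_top : ((2 : ℕ∞) : WithTop ℕ∞) ≤ ((⊤ : ℕ∞) : WithTop ℕ∞)))) hc
    filter_upwards [closedBall_mem_nhds (0:F) hδ] with h hh
    have := (H z rfl h (by simpa using hh)).2
    rwa [Real.norm_of_nonneg (by positivity)]
  set h : Fin 4 → ℝ → F := fun k r => r • (I ^ (k:ℕ) • (w r • Y)) + ξ r k with hh
  have hid : (fun r : ℝ => r) =o[𝓝[>] (0:ℝ)] (fun _ => (1:ℝ)) := by
    rw [isLittleO_one_iff]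
    exact tendsto_id.mono_left nhdsWithin_le_nhds
  have hr2 : (fun r : ℝ => r ^ 2) =O[𝓝[>] (0:ℝ)] (fun r => r) := by
    have := (isBigO_refl (fun r : ℝ => r) (𝓝[>] (0:ℝ))).mul hid.isBigO
    simpa [sq] using this
  have hr3 : (fun r : ℝ => r * r ^ 2) =o[𝓝[>] (0:ℝ)] (fun r => r ^ 2) := by
    have := hid.mul_isBigO (isBigO_refl (fun r : ℝ => r ^ 2) (𝓝[>] (0:ℝ)))
    simpa using this
  have hlin : ∀ k : Fin 4, (fun r : ℝ => r • (I ^ (k:ℕ) • (w r • Y))) =O[𝓝[>] (0:ℝ)] (fun r => r) := by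
    intro k
    refine IsBigO.of_bound ‖Y‖ (Eventually.of_forall fun r => ?_)
    rw [norm_smul, LocalKahler.norm_I_pow_smul, norm_smul, hw r, one_mul, mul_comm]
  have hhO : ∀ k, h k =O[𝓝[>] (0:ℝ)] (fun r => r) := fun k =>
    (hlin k).add ((hO k).trans hr2)
  have hht : ∀ k, Tendsto (h k) (𝓝[>] (0:ℝ)) (𝓝 0) := by
    intro k
    rw [← isLittleO_one_iff ℝ]
    exact (hhO k).trans_isLittleO hid
  have hrem : ∀ k, (fun r => τ (z + h k r) - τ z - T (h k r) - (2⁻¹ : ℝ) • Q (h k r) (h k r))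
      =o[𝓝[>] (0:ℝ)] (fun r => r ^ 2) := by
    intro k
    have h1 := htay.comp_tendsto (hht k)
    refine h1.trans_isBigO ?_
    have := ((hhO k).norm_left).pow 2
    exact this
  have hBil : ∀ (u v : ℝ → F) (f g : ℝ → ℝ), u =O[𝓝[>] (0:ℝ)] f → v =O[𝓝[>] (0:ℝ)] g →
      (fun r => Q (u r) (v r)) =O[𝓝[>] (0:ℝ)] (fun r => f r * g r) := by
    intro u v f g hu hv
    have h1 : (fun r => Q (u r) (v r)) =O[𝓝[>] (0:ℝ)] (fun r => ‖u r‖ * ‖v r‖) := by
      refine IsBigO.of_bound ‖Q‖ (Eventually.of_forall fun r => ?_)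
      rw [Real.norm_of_nonneg (by positivity), ← mul_assoc]
      exact Q.le_opNorm₂ _ _
    exact h1.trans (hu.norm_left.mul hv.norm_left)
  have hQh : ∀ k, (fun r => Q (h k r) (h k r)) =O[𝓝[>] (0:ℝ)] (fun r => r ^ 2) := by
    intro k
    have := hBil _ _ _ _ (hhO k) (hhO k)
    simpa [sq] using this
  have hTI : ∀ (k : ℕ) (v : F), T (I ^ k • v) = I ^ k • T v := by
    intro k v
    induction k with
    | zero => simp
    | succ k ih => rw [pow_succ', mul_smul, fderiv_real_smul_I hV hτ hz, ih, mul_smul]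
  have hTw : ∀ (w : ℂ) (v : F), T (w • v) = w • T v := by
    intro w v
    have e1 : ∀ y : F, w • y = w.re • y + w.im • (I • y) := by
      intro y
      conv_lhs => rw [← Complex.re_add_im w]
      rw [add_smul, mul_smul, Complex.coe_smul, Complex.coe_smul]
    have e2 : ∀ y : E, w • y = w.re • y + w.im • (I • y) := by
      intro y
      conv_lhs => rw [← Complex.re_add_im w]
      rw [add_smul, mul_smul, Complex.coe_smul, Complex.coe_smul]
    rw [e1, e2, map_add, map_smul, map_smul]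
    congr 2
    have := hTI 1 v
    simpa using this
  -- error decomposition
  have hdec : ∀ (k : Fin 4) (r : ℝ), τ (z + (r • (I ^ (k:ℕ) • (w r • Y)) + ξ r k)) - τ z
      - r • (I ^ (k:ℕ) • (w r • T Y))
      = T (ξ r k) + (2⁻¹ : ℝ) • Q (h k r) (h k r)
        + (τ (z + h k r) - τ z - T (h k r) - (2⁻¹ : ℝ) • Q (h k r) (h k r)) := by
    intro k r
    have : T (h k r) = r • (I ^ (k:ℕ) • (w r • T Y)) + T (ξ r k) := by
      simp only [hh, map_add, map_smul, hTI, hTw]
    rw [this]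
    simp only [hh]
    abel
  rw [isSmall_iff]
  constructor
  · intro k
    simp only [hdec]
    refine (IsBigO.add ?_ ((hQh k).const_smul_left (2⁻¹:ℝ))).add (hrem k).isBigO
    exact (T.isBigO_comp _ _).trans (hO k)
  · simp only [hdec]
    simp only [Finset.sum_add_distrib]
    refine (IsLittleO.add ?_ ?_).add (IsLittleO.fun_sum fun k _ => hrem k)
    · simp only [← map_sum]
      exact (T.isBigO_comp _ _).trans_isLittleO ho
    · simp only [← Finset.smul_sum]
      refine IsLittleO.const_smul_left ?_ _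
      -- quadratic part cancels
      have hcancel : ∀ r : ℝ, ∑ k : Fin 4, Q (r • (I ^ (k:ℕ) • (w r • Y)))
          (r • (I ^ (k:ℕ) • (w r • Y))) = 0 := by
        intro r
        generalize w r • Y = Y
        have hQI : ∀ u v : F, Q (I • u) v = I • Q u v := fun u v =>
          fderiv2_real_smul_I hV hτs hz u v
        have hsym : IsSymmSndFDerivAt ℝ τ z :=
          (hτr.contDiffAt (hV.mem_nhds hz)).isSymmSndFDerivAt
            (by simpa using! (WithTop.coe_le_coe.2 le_top : ((2 : ℕ∞) : WithTop ℕ∞) ≤ ((⊤ : ℕ∞) : WithTop ℕ∞)))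
        have hQI' : ∀ u v : F, Q u (I • v) = I • Q u v := by
          intro u v
          have e1 : Q u (I • v) = Q (I • v) u := hsym.eq u (I • v)
          have e2 : Q u v = Q v u := hsym.eq u v
          rw [e1, e2, hQI]
        rw [Fin.sum_univ_four]
        have h3 : (I : ℂ) ^ 3 = -I := by rw [pow_succ, I_sq]; ring
        simp only [Fin.val_zero, Fin.val_one, Fin.val_two, pow_zero, pow_one, I_sq,
          show ((3 : Fin 4) : ℕ) = 3 from rfl, h3, neg_smul, one_smul, map_smul, map_neg,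
          smul_apply, neg_apply, neg_neg, smul_neg, hQI, hQI']
        rw [smul_smul I I, I_mul_I, neg_one_smul]
        simp only [smul_neg]
        abel
      have hrw : (fun r => ∑ k, Q (h k r) (h k r)) = fun r => ∑ k : Fin 4,
          (Q (r • (I ^ (k:ℕ) • (w r • Y))) (ξ r k) + (Q (ξ r k) (r • (I ^ (k:ℕ) • (w r • Y)))
            + Q (ξ r k) (ξ r k))) := by
        funext r
        have : ∑ k, Q (h k r) (h k r) = ∑ k : Fin 4, (Q (r • (I ^ (k:ℕ) • (w r • Y)))
          (r • (I ^ (k:ℕ) • (w r • Y)))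
          + (Q (r • (I ^ (k:ℕ) • (w r • Y))) (ξ r k) + (Q (ξ r k) (r • (I ^ (k:ℕ) • (w r • Y)))
            + Q (ξ r k) (ξ r k)))) := by
          apply Finset.sum_congr rfl
          intro k _
          simp only [hh, map_add, add_apply]
          abel
        rw [this, Finset.sum_add_distrib, hcancel, zero_add]
      rw [hrw]
      refine IsLittleO.fun_sum fun k _ => ?_
      refine IsLittleO.add ?_ (IsLittleO.add ?_ ?_)
      · exact (hBil _ _ _ _ (hlin k) (hO k)).trans_isLittleO hr3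
      · have := hBil _ _ _ _ (hO k) (hlin k)
        refine this.trans_isLittleO ?_
        simpa [mul_comm] using hr3
      · have := hBil _ _ _ _ (hO k) ((hO k).trans hr2)
        refine this.trans_isLittleO ?_
        simpa [mul_comm] using hr3

variable {M : Type*} [MetricSpace M] [ChartedSpace E M]

/-- a harmonic four point family at `x` with rotating velocity `w r • Y` in the chart `e` -/
def HarmW (e : OpenPartialHomeomorph M E) (x : M) (Y : E) (w : ℝ → ℂ) (a : ℝ → Fin 4 → M) : Prop :=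
  (∀ᶠ r in 𝓝[>] (0:ℝ), ∀ k, a r k ∈ e.source) ∧
  IsSmall (fun r k => e (a r k) - e x - r • (I ^ (k:ℕ) • (w r • Y)))

theorem HarmW.tendsto {e : OpenPartialHomeomorph M E} {x : M} {Y : E} {w : ℝ → ℂ}
    (hw : ∀ r, ‖w r‖ = 1) {a : ℝ → Fin 4 → M}
    (hx : x ∈ e.source) (h : HarmW e x Y w a) (k : Fin 4) :
    Tendsto (fun r => a r k) (𝓝[>] (0:ℝ)) (𝓝 x) := by
  obtain ⟨h1, h2⟩ := h
  obtain ⟨hO, -⟩ := isSmall_iff.1 h2
  have hid : (fun r : ℝ => r) =o[𝓝[>] (0:ℝ)] (fun _ => (1:ℝ)) := by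
    rw [isLittleO_one_iff]
    exact tendsto_id.mono_left nhdsWithin_le_nhds
  have hid2 : (fun r : ℝ => r ^ 2) =o[𝓝[>] (0:ℝ)] (fun _ => (1:ℝ)) := by
    have := hid.mul hid
    simpa [sq] using this
  have hlin : (fun r : ℝ => r • (I ^ (k:ℕ) • (w r • Y))) =O[𝓝[>] (0:ℝ)] (fun r => r) := by
    refine IsBigO.of_bound ‖Y‖ (Eventually.of_forall fun r => ?_)
    rw [norm_smul, LocalKahler.norm_I_pow_smul, norm_smul, hw r, one_mul, mul_comm]
  have h3 : Tendsto (fun r => e (a r k) - e x - r • (I ^ (k:ℕ) • (w r • Y))) (𝓝[>] (0:ℝ)) (𝓝 0) := by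
    rw [← isLittleO_one_iff ℝ]
    exact (hO k).trans_isLittleO hid2
  have h4 : Tendsto (fun r : ℝ => r • (I ^ (k:ℕ) • (w r • Y))) (𝓝[>] (0:ℝ)) (𝓝 0) := by
    rw [← isLittleO_one_iff ℝ]
    exact hlin.trans_isLittleO hid
  have h5 : Tendsto (fun r => e (a r k)) (𝓝[>] (0:ℝ)) (𝓝 (e x)) := by
    have := (h3.add h4).add (tendsto_const_nhds (x := e x))
    simpa using this
  have h6 : Tendsto (fun r => e.symm (e (a r k))) (𝓝[>] (0:ℝ)) (𝓝 x) := by
    have h7 := (e.continuousAt_symm (e.map_source hx)).tendsto.comp h5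
    rwa [e.left_inv hx] at h7
  refine h6.congr' ?_
  filter_upwards [h1] with r hr
  exact e.left_inv (hr k)

theorem HarmW.change [IsManifold 𝓘(ℂ, E) 1 M] {e e' : OpenPartialHomeomorph M E}
    (he : e ∈ maximalAtlas 𝓘(ℂ, E) 1 M) (he' : e' ∈ maximalAtlas 𝓘(ℂ, E) 1 M) {x : M}
    (hx : x ∈ e.source) (hx' : x ∈ e'.source) {Y : E} {w : ℝ → ℂ} (hw : ∀ r, ‖w r‖ = 1)
    {a : ℝ → Fin 4 → M} (h : HarmW e x Y w a) :
    HarmW e' x (fderiv ℝ (e' ∘ e.symm) (e x) Y) w a := by
  have ht := fun k => h.tendsto hw hx k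
  have hV : IsOpen (e.symm ≫ₕ e').source := (e.symm ≫ₕ e').open_source
  have hzV : e x ∈ (e.symm ≫ₕ e').source := by
    simp [OpenPartialHomeomorph.trans_source, hx, hx']
  have hτ : DifferentiableOn ℂ (e' ∘ e.symm) (e.symm ≫ₕ e').source := by
    exact (transition_complex he he').differentiableOn (by simp)
  obtain ⟨h1, h2⟩ := h
  refine ⟨?_, ?_⟩
  · apply eventually_all.2
    intro k
    exact (ht k).eventually (e'.open_source.mem_nhds hx')
  · have h3 := isSmall_mapW hV hτ hzV Y hw h2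
    refine h3.congr ?_
    filter_upwards [h1] with r hr k
    have e1 : e x + (r • (I ^ (k:ℕ) • (w r • Y))
        + (e (a r k) - e x - r • (I ^ (k:ℕ) • (w r • Y)))) = e (a r k) := by
      abel
    rw [e1]
    simp only [Function.comp_apply]
    rw [e.left_inv (hr k), e.left_inv hx]

end harmW

section levi

variable {E : Type*} [NormedAddCommGroup E] [NormedSpace ℂ E] [FiniteDimensional ℂ E]
  {M : Type*} [MetricSpace M] [ChartedSpace E M]
  [IsManifold 𝓘(ℂ, E) 1 M] [IsManifold 𝓘(ℝ, E) ∞ M]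
  [RiemannianBundle (fun x : M => TangentSpace 𝓘(ℝ, E) x)]
  [IsContMDiffRiemannianBundle 𝓘(ℝ, E) ∞ E (fun x : M => TangentSpace 𝓘(ℝ, E) x)]
  [IsRiemannianManifold 𝓘(ℝ, E) M]

/-- Squared second variation inequality along one segment contained in a chart. -/
theorem segment_sq (hK : IsKahler E M) [ProperSpace M] {e : OpenPartialHomeomorph M E}
    (he : e ∈ maximalAtlas 𝓘(ℂ, E) 1 M) {x x' : M} {R : ℝ} (hR : closedBall x R ⊆ e.source)
    (hx'R : dist x x' < R) (hne : x ≠ x')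
    (hcurv : ∀ y ∈ closedBall x R, ∀ X a, 0 ≤ Rc (chartG e) (e y) X a) (Y : E) :
    ∃ Y' : E, chartG e (e x') Y' Y' = chartG e (e x) Y Y ∧ ∀ φ₀ φ₁ : ℝ, 0 ≤ φ₀ → 0 ≤ φ₁ →
      ∀ w : ℝ → ℂ, (∀ r, ‖w r‖ = 1) →
      ∀ a a' : ℝ → Fin 4 → M, HarmW e x (φ₀ • Y) w a → HarmW e x' (φ₁ • Y') w a' →
      ∀ η > 0, ∀ᶠ r in 𝓝[>] (0:ℝ), ∑ k, dist (a r k) (a' r k) ^ 2 ≤ 4 * dist x x' ^ 2
        + r ^ 2 * (4 * (φ₁ - φ₀) ^ 2 * chartG e (e x) Y Y + η) := by
  have her := mem_maximalAtlas_real he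
  have hLK := localKahler_chartG hK he
  set K : Set E := e '' closedBall x R with hKdef
  have hKc : IsCompact K := (isCompact_closedBall x R).image_of_continuousOn
    (e.continuousOn.mono hR)
  have hKt : K ⊆ e.target := by
    rintro _ ⟨y, hy, rfl⟩
    exact e.map_source (hR hy)
  have hcurv' : ∀ z ∈ K, ∀ X a, 0 ≤ Rc (chartG e) z X a := by
    rintro _ ⟨y, hy, rfl⟩ X a
    exact hcurv y hy X a
  have hxs : x ∈ e.source := hR (mem_closedBall_self (dist_nonneg.trans hx'R.le))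
  have hx's : x' ∈ e.source := hR (by rw [mem_closedBall']; exact hx'R.le)
  have hD : 0 < dist x x' := dist_pos.2 hne
  obtain ⟨Y', hY', H⟩ := second_variation_sq hLK hKc hKt hcurv'
    (d := fun z w => dist (e.symm z) (e.symm w)) (fun _ _ => dist_nonneg)
    (fun c c' hc hc' hct => dist_le_chart her zero_le_one hc hc' hct)
    (x := e x) (x' := e x') hD (by rw [e.left_inv hxs, e.left_inv hx's])
    (by
      intro ε hε
      obtain ⟨c, c', h1, h2, h3, h4, h5, h6⟩ := exists_chart_curve her (x := x) (y := x')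
        (r := R) (ε := min ε (R - dist x x')) (ball_subset_closedBall.trans hR)
        (lt_min hε (by linarith only [hx'R])) (by linarith only [min_le_right ε (R - dist x x')])
      refine ⟨c, c', h1, h2, h3, h4, fun t ht => ?_, ?_⟩
      · obtain ⟨h7, h8⟩ := h5 t ht
        refine ⟨e.symm (c t), ?_, e.right_inv h7⟩
        rw [mem_closedBall']
        linarith only [h8, min_le_right ε (R - dist x x')]
      · linarith [min_le_left ε (R - dist x x')]) Y
  refine ⟨Y', hY', fun φ₀ φ₁ hφ₀ hφ₁ w hw a a' ha ha' η hη => ?_⟩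
  have h1 := H φ₀ φ₁ hφ₀ hφ₁ w hw
    (fun r k => e (a r k) - e x - r • (I ^ (k:ℕ) • (w r • (φ₀ • Y))))
    (fun r k => e (a' r k) - e x' - r • (I ^ (k:ℕ) • (w r • (φ₁ • Y')))) ha.2 ha'.2 η hη
  filter_upwards [h1, ha.1, ha'.1] with r hr hr1 hr2
  refine le_trans (le_of_eq ?_) hr
  apply Finset.sum_congr rfl
  intro k _
  have e1 : e x + ((r * φ₀) • (I ^ (k:ℕ) • (w r • Y))
      + (e (a r k) - e x - r • (I ^ (k:ℕ) • (w r • (φ₀ • Y))))) = e (a r k) := by
    rw [smul_comm (w r) φ₀, smul_comm (I ^ (k:ℕ)) φ₀, smul_smul r φ₀]; abel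
  have e2 : e x' + ((r * φ₁) • (I ^ (k:ℕ) • (w r • Y'))
      + (e (a' r k) - e x' - r • (I ^ (k:ℕ) • (w r • (φ₁ • Y'))))) = e (a' r k) := by
    rw [smul_comm (w r) φ₁, smul_comm (I ^ (k:ℕ)) φ₁, smul_smul r φ₁]; abel
  simp only [e1, e2]
  rw [e.left_inv (hr1 k), e.left_inv (hr2 k)]

/-- a harmonic family with zero error -/
theorem exists_harmW {e : OpenPartialHomeomorph M E} {x : M} (hx : x ∈ e.source) (Y : E)
    {w : ℝ → ℂ} (hw : ∀ r, ‖w r‖ = 1) :
    HarmW e x Y w (fun r k => e.symm (e x + r • (I ^ (k:ℕ) • (w r • Y)))) := by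
  have hev : ∀ᶠ r in 𝓝[>] (0:ℝ), ∀ k : Fin 4, e x + r • (I ^ (k:ℕ) • (w r • Y)) ∈ e.target := by
    apply eventually_all.2
    intro k
    have h1 : Tendsto (fun r : ℝ => r • (I ^ (k:ℕ) • (w r • Y))) (𝓝[>] (0:ℝ)) (𝓝 0) := by
      rw [tendsto_zero_iff_norm_tendsto_zero]
      have h2 : ∀ r : ℝ, ‖r • (I ^ (k:ℕ) • (w r • Y))‖ = |r| * ‖Y‖ := by
        intro r
        rw [norm_smul, LocalKahler.norm_I_pow_smul, norm_smul, hw r, one_mul, Real.norm_eq_abs]
      simp only [h2]
      have h3 : Continuous (fun r : ℝ => |r| * ‖Y‖) := by fun_prop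
      have := (h3.tendsto 0).mono_left (nhdsWithin_le_nhds (s := Ioi (0:ℝ)))
      simpa using this
    have h0 : Tendsto (fun r : ℝ => e x + r • (I ^ (k:ℕ) • (w r • Y))) (𝓝[>] (0:ℝ)) (𝓝 (e x)) := by
      simpa using tendsto_const_nhds.add h1
    exact h0.eventually (e.open_target.mem_nhds (e.map_source hx))
  refine ⟨?_, ?_⟩
  · filter_upwards [hev] with r hr k
    exact e.map_target (hr k)
  · refine isSmall_zero.congr ?_
    filter_upwards [hev] with r hr k
    rw [e.right_inv (hr k)]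
    abel

/-- The complex Hessian comparison for the squared distance to `q` (in the sense of harmonic four
point families with rotating direction). -/
def LeviSq (q x : M) : Prop :=
  ∀ e ∈ maximalAtlas 𝓘(ℂ, E) 1 M, x ∈ e.source → ∀ Y : E, ∀ w : ℝ → ℂ, (∀ r, ‖w r‖ = 1) →
    ∀ a : ℝ → Fin 4 → M, HarmW e x Y w a →
    ∀ η > 0, ∀ᶠ r in 𝓝[>] (0:ℝ), ∑ k, dist (a r k) q ^ 2 ≤ 4 * dist x q ^ 2
      + r ^ 2 * (4 * chartG e (e x) Y Y + η)

theorem cs_aux {h a H A : ℝ} (hh : 0 < h) (ha : 0 < a) :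
    (H + A) ^ 2 ≤ (h + a) / h * H ^ 2 + (h + a) / a * A ^ 2 := by
  have e : (h + a) / h * H ^ 2 + (h + a) / a * A ^ 2 - (H + A) ^ 2
      = (a * H - h * A) ^ 2 / (h * a) := by
    field_simp
    ring
  have : 0 ≤ (a * H - h * A) ^ 2 / (h * a) := by positivity
  linarith only [e, this]

theorem leviSq_step (hK : IsKahler E M) [ProperSpace M] {e : OpenPartialHomeomorph M E}
    (he : e ∈ maximalAtlas 𝓘(ℂ, E) 1 M) {x x' q : M} {R : ℝ} (hR : closedBall x R ⊆ e.source)
    (hx'R : dist x x' < R) (hne : x ≠ x') (hne' : x' ≠ q)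
    (hcurv : ∀ y ∈ closedBall x R, ∀ X a, 0 ≤ Rc (chartG e) (e y) X a)
    (hdist : dist x q = dist x x' + dist x' q) (hA : LeviSq (E := E) q x') :
    LeviSq (E := E) q x := by
  intro e₀ he₀ hxe₀ Y₀ w hw a ha₀ η hη
  have hxs : x ∈ e.source := hR (mem_closedBall_self (dist_nonneg.trans hx'R.le))
  have hx's : x' ∈ e.source := hR (by rw [mem_closedBall']; exact hx'R.le)
  have ha := ha₀.change he₀ he hxe₀ hxs hw
  have hNeq := chartG_change he₀ he hxe₀ hxs Y₀ Y₀
  set Y := fderiv ℝ (e ∘ e₀.symm) (e₀ x) Y₀ with hY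
  obtain ⟨Y', hY', H⟩ := segment_sq hK he hR hx'R hne hcurv Y
  set h := dist x x' with hh
  set b := dist x' q with hb
  have hh0 : 0 < h := dist_pos.2 hne
  have hb0 : 0 < b := dist_pos.2 hne'
  set D := dist x q with hDdef
  have hD0 : 0 < D := by rw [hdist]; positivity
  set φ₁ := b / D with hφ₁def
  have hφ₁ : 0 ≤ φ₁ := by positivity
  have ha' := exists_harmW (e := e) hx's (φ₁ • Y') hw
  set a' : ℝ → Fin 4 → M := fun r k => e.symm (e x' + r • (I ^ (k:ℕ) • (w r • (φ₁ • Y')))) with ha'def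
  have h1 := H 1 φ₁ zero_le_one hφ₁ w hw a a' (by rwa [one_smul]) ha' (η * h / (2 * D))
    (by positivity)
  have h2 := hA e he hx's (φ₁ • Y') w hw a' ha' (η * b / (2 * D)) (by positivity)
  filter_upwards [h1, h2] with r hr1 hr2
  have e1 : chartG e (e x') (φ₁ • Y') (φ₁ • Y') = φ₁ ^ 2 * chartG e (e x) Y Y := by
    rw [map_smul, map_smul, smul_apply, smul_eq_mul, smul_eq_mul, hY']
    ring
  rw [e1] at hr2
  rw [hNeq] at hr1 hr2
  have htri : ∑ k, dist (a r k) q ^ 2 ≤ D / h * ∑ k, dist (a r k) (a' r k) ^ 2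
      + D / b * ∑ k, dist (a' r k) q ^ 2 := by
    rw [Finset.mul_sum, Finset.mul_sum, ← Finset.sum_add_distrib]
    refine Finset.sum_le_sum fun k _ => ?_
    have h3 := dist_triangle (a r k) (a' r k) q
    have h4 := cs_aux (H := dist (a r k) (a' r k)) (A := dist (a' r k) q) hh0 hb0
    rw [← hdist] at h4
    refine le_trans ?_ h4
    gcongr
  set N := chartG e₀ (e₀ x) Y₀ Y₀ with hN
  calc _ ≤ _ := htri
    _ ≤ D / h * (4 * h ^ 2 + r ^ 2 * (4 * (φ₁ - 1) ^ 2 * N + η * h / (2 * D)))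
        + D / b * (4 * b ^ 2 + r ^ 2 * (4 * (φ₁ ^ 2 * N) + η * b / (2 * D))) := by gcongr
    _ = _ := by
      have hh' : h = D - b := by linarith only [hdist]
      have hDb : D - b ≠ 0 := by rw [← hh']; exact hh0.ne'
      rw [hφ₁def, hh']
      field_simp
      ring

theorem leviSq_base (hK : IsKahler E M) [ProperSpace M] {e : OpenPartialHomeomorph M E}
    (he : e ∈ maximalAtlas 𝓘(ℂ, E) 1 M) {x q : M} {R : ℝ} (hR : closedBall x R ⊆ e.source)
    (hqR : dist x q < R) (hne : x ≠ q)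
    (hcurv : ∀ y ∈ closedBall x R, ∀ X a, 0 ≤ Rc (chartG e) (e y) X a) :
    LeviSq (E := E) q x := by
  intro e₀ he₀ hxe₀ Y₀ w hw a ha₀ η hη
  have hxs : x ∈ e.source := hR (mem_closedBall_self (dist_nonneg.trans hqR.le))
  have hqs : q ∈ e.source := hR (by rw [mem_closedBall']; exact hqR.le)
  have ha := ha₀.change he₀ he hxe₀ hxs hw
  have hNeq := chartG_change he₀ he hxe₀ hxs Y₀ Y₀
  set Y := fderiv ℝ (e ∘ e₀.symm) (e₀ x) Y₀ with hY
  obtain ⟨Y', hY', H⟩ := segment_sq hK he hR hqR hne hcurv Y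
  have ha' : HarmW e q ((0:ℝ) • Y') w (fun _ _ => q) := by
    refine ⟨Eventually.of_forall fun r k => hqs, isSmall_zero.congr (Eventually.of_forall ?_)⟩
    intro r k
    simp
  have h1 := H 1 0 zero_le_one le_rfl w hw a (fun _ _ => q) (by rwa [one_smul]) ha' η hη
  filter_upwards [h1] with r hr1
  rw [hNeq] at hr1
  refine hr1.trans (le_of_eq ?_)
  ring

/-- Complex Hessian comparison for the squared distance on a complete Kähler manifold of
nonnegative bisectional curvature. -/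
theorem leviSq (hK : IsKahler E M) [ProperSpace M]
    (hnn : ∀ x : M, NonnegBisectionalAt E x) {x q : M} (hne : x ≠ q) :
    LeviSq (E := E) q x := by
  -- Lebesgue number
  obtain ⟨δ, hδ, hleb⟩ := lebesgue_number_lemma_of_metric (s := closedBall q (dist x q))
    (c := fun y : M => (chartAt E y).source) (isCompact_closedBall _ _)
    (fun y => (chartAt E y).open_source)
    (fun y _ => mem_iUnion.2 ⟨y, mem_chart_source E y⟩)
  have hmain : ∀ n : ℕ, ∀ y : M, dist y q ≤ dist x q → dist y q ≤ (n + 1) * (δ / 4) → y ≠ q →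
      LeviSq (E := E) q y := by
    intro n
    induction n with
    | zero =>
      intro y hy1 hy2 hyq
      obtain ⟨i, hi⟩ := hleb y hy1
      have hR : closedBall y (δ / 2) ⊆ (chartAt E i).source :=
        (closedBall_subset_ball (by linarith only [hδ])).trans hi
      refine leviSq_base hK (chart_mem_maximalAtlas i) hR ?_ hyq ?_
      · norm_num at hy2; linarith only [hδ, hy2]
      · intro w hw X a
        refine Rc_nonneg_chartG hK (chart_mem_maximalAtlas i)
          ((chartAt E i).map_source (hR hw)) (hnn _) X a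
    | succ n ih =>
      intro y hy1 hy2 hyq
      obtain ⟨i, hi⟩ := hleb y hy1
      have hR : closedBall y (δ / 2) ⊆ (chartAt E i).source :=
        (closedBall_subset_ball (by linarith only [hδ])).trans hi
      have hRc : ∀ w ∈ closedBall y (δ / 2), ∀ X a,
          0 ≤ Rc (chartG (chartAt E i)) (chartAt E i w) X a := fun w hw X a =>
        Rc_nonneg_chartG hK (chart_mem_maximalAtlas i)
          ((chartAt E i).map_source (hR hw)) (hnn _) X a
      by_cases hsmall : dist y q ≤ δ / 4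
      · exact leviSq_base hK (chart_mem_maximalAtlas i) hR (by linarith only [hδ, hsmall]) hyq hRc
      · push Not at hsmall
        obtain ⟨y', hy'1, hy'2⟩ := exists_mid (approxMid_of_riemannian E M) y q (δ / 4)
          (by positivity) hsmall.le
        have hd' : 0 < dist y' q := by rw [hy'2]; linarith only [hsmall]
        have hy'q : y' ≠ q := dist_pos.1 hd'
        have hyy' : y ≠ y' := by
          rw [← dist_pos, hy'1]; positivity
        have h1 := ih y' (by rw [hy'2]; linarith only [hδ, hy1]) (by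
          rw [hy'2]; push_cast at hy2; linarith only [hy2]) hy'q
        exact leviSq_step hK (chart_mem_maximalAtlas i) hR (by rw [hy'1]; linarith only [hδ]) hyy'
          hy'q hRc (by rw [hy'1, hy'2]; ring) h1
  obtain ⟨n, hn⟩ := exists_nat_gt (dist x q / (δ / 4))
  refine hmain n x le_rfl ?_ hne
  rw [div_lt_iff₀ (by positivity)] at hn
  nlinarith only [hδ, hn]

end levi

end Vale.Agent.P253.R2.H618
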